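import Vale.Agent.P201.Clustering

/-! Summing the local expansion property over clusters. -/

namespace Vale.Agent.P201

open Finset Vale.Agent.GP

namespace ClusterSum

/-- Restriction of a partial value to a subtype. -/
def ro {U : Type} (p : U → Prop) [DecidablePred p] (o : Option U) : Option {τ // p τ} :=
  o.bind fun v => if h : p v then some ⟨v, h⟩ else none

theorem ro_some {U : Type} {p : U → Prop} [DecidablePred p] {o : Option U} {τ : {τ // p τ}}
    (h : ro p o = some τ) : o = some τ.1 := by
  cases o with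
  | none => simp [ro] at h
  | some v =>
    by_cases hv : p v
    · simp only [ro, Option.bind_some, hv, dif_pos, Option.some.injEq] at h
      rw [← h]
    · simp [ro, hv] at h

theorem ro_of_some {U : Type} {p : U → Prop} [DecidablePred p] {o : Option U} {τ : {τ // p τ}}
    (h : o = some τ.1) : ro p o = some τ := by
  subst h
  simp [ro, τ.2]

theorem ro_none {U : Type} {p : U → Prop} [DecidablePred p] {o : Option U}
    (h : ro p o = none) : o = none ∨ ∃ v, o = some v ∧ ¬ p v := by
  cases o with
  | none => exact Or.inl rfl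
  | some v =>
    by_cases hv : p v
    · simp [ro, hv] at h
    · exact Or.inr ⟨v, rfl, hv⟩

/-- Restriction of a cluster to a set of units. -/
def res {Y V U : Type} {E : V → Y × Bool → V → Prop} {w : ℕ} (c : Cluster E U w) (p : U → Prop)
    [DecidablePred p] : Cluster E {τ // p τ} w where
  len τ := c.len τ.1
  vx τ := c.vx τ.1
  lb τ := c.lb τ.1
  nxt τ := ro p (c.nxt τ.1)
  mate τ := ro p (c.mate τ.1)
  len_pos τ := c.len_pos τ.1
  len_le τ := c.len_le τ.1
  edge τ := c.edge τ.1
  red τ := c.red τ.1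
  nxt_inj _ _ _ h1 h2 := Subtype.ext (c.nxt_inj _ _ _ (ro_some h1) (ro_some h2))
  nxt_vx _ _ h := c.nxt_vx _ _ (ro_some h)
  nxt_red _ _ h := c.nxt_red _ _ (ro_some h)
  mate_symm _ _ h := ro_of_some (c.mate_symm _ _ (ro_some h))
  mate_len _ _ h := c.mate_len _ _ (ro_some h)
  mate_lb _ _ j h := c.mate_lb _ _ j (ro_some h)
  mate_ne _ _ j h := c.mate_ne _ _ j (ro_some h)

theorem card_some_le {U : Type} [Fintype U] [DecidableEq U] (o : Option U) :
    (univ.filter fun v => o = some v).card ≤ 1 := by
  refine Finset.card_le_one.2 fun a ha b hb => ?_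
  simp only [Finset.mem_filter, Finset.mem_univ, true_and] at ha hb
  exact Option.some.inj (ha.symm.trans hb)

theorem sum_some_le {U : Type} [Fintype U] [DecidableEq U] (o : Option U) :
    (∑ v, if o = some v then (1 : ℝ) else 0) ≤ 1 := by
  rw [Finset.sum_boole]
  exact_mod_cast card_some_le o

theorem deg_le {Y V U : Type} {E : V → Y × Bool → V → Prop} {w : ℕ} [Fintype U] [DecidableEq U]
    (c : Cluster E U w) (u : U) : Nat.card {v // c.graph.Adj u v} ≤ 3 := by
  classical
  rw [Nat.card_eq_fintype_card, Fintype.card_subtype]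
  have h1 : (univ.filter fun v => c.graph.Adj u v) ⊆
      (univ.filter fun v => c.nxt u = some v) ∪ (univ.filter fun v => c.mate u = some v) ∪
        (univ.filter fun v => c.nxt v = some u) := by
    intro v hv
    simp only [Cluster.graph, SimpleGraph.fromRel_adj, Finset.mem_filter, Finset.mem_univ,
      true_and, Finset.mem_union] at hv ⊢
    rcases hv.2 with (h | h) | (h | h)
    · exact Or.inl (Or.inl h)
    · exact Or.inl (Or.inr h)
    · exact Or.inr h
    · exact Or.inl (Or.inr (c.mate_symm _ _ h))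
  have h2 := card_some_le (c.nxt u)
  have h3 := card_some_le (c.mate u)
  have h4 : (univ.filter fun v => c.nxt v = some u).card ≤ 1 := by
    refine Finset.card_le_one.2 fun a ha b hb => ?_
    simp only [Finset.mem_filter, Finset.mem_univ, true_and] at ha hb
    exact c.nxt_inj _ _ _ ha hb
  have h5 := Finset.card_le_card h1
  have h6 := Finset.card_union_le
    ((univ.filter fun v => c.nxt u = some v) ∪ (univ.filter fun v => c.mate u = some v))
    (univ.filter fun v => c.nxt v = some u)
  have h7 := Finset.card_union_le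
    (univ.filter fun v => c.nxt u = some v) (univ.filter fun v => c.mate u = some v)
  omega

theorem none_le {U : Type} [Fintype U] [DecidableEq U] (κ : U → U) (u a : U) (ha : κ u = a)
    (o : Option U) :
    (if ro (fun τ => κ τ = a) o = none then (1 : ℝ) else 0) ≤
      (if o = none then 1 else 0) +
        ∑ v, if κ u = κ v then 0 else if o = some v then (1 : ℝ) else 0 := by
  have h0 : ∀ v, (0 : ℝ) ≤ if κ u = κ v then 0 else if o = some v then (1 : ℝ) else 0 := by
    intro v; split_ifs <;> norm_num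
  have h1 := Finset.sum_nonneg (s := univ) fun v _ => h0 v
  by_cases h : ro (fun τ => κ τ = a) o = none
  · rw [if_pos h]
    rcases ro_none h with h2 | ⟨v, h2, h3⟩
    · rw [if_pos h2]; linarith
    · have h4 := Finset.single_le_sum (fun v _ => h0 v) (Finset.mem_univ v)
      rw [if_neg (fun e => h3 (e.symm.trans ha)), if_pos h2] at h4
      split_ifs <;> linarith
  · rw [if_neg h]
    split_ifs <;> linarith

end ClusterSum

open ClusterSum in
theorem cluster_sum (ε : ℝ) (hε : 0 < ε) : ∃ s : ℕ, ∀ (Y V : Type) (E : V → Y × Bool → V → Prop)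
    (roots : Set V) (w : ℕ) (η C Λ K : ℝ), 0 ≤ C → 0 ≤ Λ → 0 ≤ K → LEP E roots s w η C Λ K →
    ∀ (U : Type) [Fintype U] [DecidableEq U] (c : Cluster E U w) (ρ : ℕ), LowDeg c.graph →
    (∀ τ, c.mate τ ≠ none) → (univ.filter fun τ => c.nxt τ = none).card ≤ ρ →
    (ρ = 0 ∨ (ρ = 1 ∧ ∃ τ, c.vx τ 0 ∈ roots)) →
    η * (∑ τ, (c.len τ : ℝ)) ≤
      ε * (Λ * Fintype.card U + C * ∑ τ, (c.len τ : ℝ)) + K * Fintype.card U := by
  obtain ⟨s, hs⟩ := clustering 3 ε hε
  refine ⟨s, fun Y V E roots w η C Λ K hC hΛ hK hL U _ _ c ρ hlow hmate hnone hρ => ?_⟩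
  let wt : U → U → ℝ := fun u v => Λ * (if c.nxt u = some v then 1 else 0) +
    C * ((c.len u : ℝ) * if c.mate u = some v then 1 else 0)
  obtain ⟨κ, hκ, hcut⟩ := hs U c.graph (deg_le c) hlow wt
    (fun u v => by simp only [wt]; split_ifs <;> positivity)
    (fun u v huv h => by
      simp only [Cluster.graph, SimpleGraph.fromRel_adj]
      refine ⟨huv, Or.inl ?_⟩
      by_contra h'
      rw [not_or] at h'
      simp [wt, h'.1, h'.2] at h)
  have htot : ∑ u, ∑ v, wt u v ≤ Λ * Fintype.card U + C * ∑ τ, (c.len τ : ℝ) := by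
    have : ∀ u, ∑ v, wt u v ≤ Λ + C * c.len u := by
      intro u
      simp only [wt, Finset.sum_add_distrib, ← Finset.mul_sum]
      have h1 := sum_some_le (c.nxt u)
      have h2 := sum_some_le (c.mate u)
      have h3 : (0 : ℝ) ≤ C * c.len u := by positivity
      nlinarith
    refine (Finset.sum_le_sum fun u _ => this u).trans (le_of_eq ?_)
    simp [Finset.sum_add_distrib, ← Finset.mul_sum, mul_comm]
  obtain ⟨r, hr1, hr2⟩ : ∃ r : U → ℕ, ∑ a, r a = ρ ∧
      ∀ a, r a = 0 ∨ (r a = 1 ∧ ∃ τ, κ τ = a ∧ c.vx τ 0 ∈ roots) := by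
    rcases hρ with rfl | ⟨rfl, τ, hτ⟩
    · exact ⟨fun _ => 0, by simp, fun _ => Or.inl rfl⟩
    · refine ⟨fun a => if a = κ τ then 1 else 0, by simp, fun a => ?_⟩
      by_cases h : a = κ τ
      · exact Or.inr ⟨if_pos h, τ, h.symm, hτ⟩
      · exact Or.inl (if_neg h)
  let f : U → ℝ := fun u => Λ * (if c.nxt u = none then 1 else 0) +
    ∑ v, if κ u = κ v then 0 else wt u v
  have hloc : ∀ a, η * (∑ τ ∈ univ.filter (fun τ => κ τ = a), (c.len τ : ℝ)) ≤
      ∑ τ ∈ univ.filter (fun τ => κ τ = a), f τ - r a * Λ + K := by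
    intro a
    have h1 := hL {τ // κ τ = a} (by rw [Fintype.card_subtype]; exact hκ a)
      (res c fun τ => κ τ = a) (r a) (by
        rcases hr2 a with h | ⟨h, τ, h2, h3⟩
        · exact Or.inl h
        · exact Or.inr ⟨h, ⟨τ, h2⟩, h3⟩)
    rw [Finset.sum_subtype (p := fun τ => κ τ = a) _ (by simp),
      Finset.sum_subtype (p := fun τ => κ τ = a) _ (by simp)]
    refine le_trans h1 ?_
    rw [← Finset.sum_boole, Finset.sum_filter, sub_mul, Finset.sum_mul, Finset.mul_sum]
    have h2 : ∀ τ : {τ // κ τ = a},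
        (if (res c fun τ => κ τ = a).nxt τ = none then (1 : ℝ) else 0) * Λ +
        C * (if (res c fun τ => κ τ = a).mate τ = none then
          ((res c fun τ => κ τ = a).len τ : ℝ) else 0) ≤ f τ.1 := by
      intro τ
      have h3 := none_le κ τ.1 a τ.2 (c.nxt τ.1)
      have h4 := none_le κ τ.1 a τ.2 (c.mate τ.1)
      rw [if_neg (hmate _), zero_add] at h4
      have h5 : (∑ v, if κ τ.1 = κ v then 0 else wt τ.1 v) =
          Λ * (∑ v, if κ τ.1 = κ v then 0 else if c.nxt τ.1 = some v then (1 : ℝ) else 0) +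
          C * (c.len τ.1 *
            ∑ v, if κ τ.1 = κ v then 0 else if c.mate τ.1 = some v then (1 : ℝ) else 0) := by
        simp only [Finset.mul_sum, ← Finset.sum_add_distrib, wt]
        refine Finset.sum_congr rfl fun v _ => ?_
        split_ifs <;> simp
      have h6 : (if (res c fun τ => κ τ = a).mate τ = none then
          ((res c fun τ => κ τ = a).len τ : ℝ) else 0) =
          c.len τ.1 * if ro (fun τ => κ τ = a) (c.mate τ.1) = none then (1 : ℝ) else 0 := by
        rw [mul_ite, mul_one, mul_zero]; rfl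
      have h7 := mul_le_mul_of_nonneg_left h3 hΛ
      have h8 := mul_le_mul_of_nonneg_left
        (mul_le_mul_of_nonneg_left h4 (Nat.cast_nonneg (c.len τ.1))) hC
      rw [h6]
      simp only [f, h5]
      change (if ro (fun τ => κ τ = a) (c.nxt τ.1) = none then (1 : ℝ) else 0) * Λ + _ ≤ _
      linarith
    have h9 := Finset.sum_le_sum (s := univ) fun τ _ => h2 τ
    rw [Finset.sum_add_distrib] at h9
    linarith
  have h10 := Finset.sum_le_sum (s := univ) fun a _ => hloc a
  rw [← Finset.mul_sum, Finset.sum_fiberwise, Finset.sum_add_distrib, Finset.sum_sub_distrib,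
    Finset.sum_fiberwise, ← Finset.sum_mul, ← Nat.cast_sum _ r, hr1] at h10
  simp only [f, Finset.sum_add_distrib, ← Finset.mul_sum, Finset.sum_boole, Finset.sum_const,
    Finset.card_univ, nsmul_eq_mul] at h10
  have h11 : Λ * ((univ.filter fun τ => c.nxt τ = none).card : ℝ) ≤ Λ * ρ :=
    mul_le_mul_of_nonneg_left (by exact_mod_cast hnone) hΛ
  have h12 := mul_le_mul_of_nonneg_left htot hε.le
  linarith

end Vale.Agent.P201
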