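import Vale.Agent.P201.Levels

/-! Clustering of weighted graphs all of whose connected quotients are 6-degenerate. -/

namespace Vale.Agent.P201

open Finset Vale.Agent.GP

namespace Clustering

open Classical in
/-- A heavy forest with a proper two-colouring in a 6-degenerate weighted graph. -/
theorem forest {T : Type} [DecidableEq T] (A : T → T → Prop) (w : T → T → ℝ)
    (hw : ∀ c c', 0 ≤ w c c') (hA : ∀ c c', c ≠ c' → w c c' + w c' c ≠ 0 → A c c')
    (hdeg : ∀ S : Finset T, S.Nonempty → ∃ c ∈ S, (S.filter fun c' => c' ≠ c ∧ A c c').card ≤ 6)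
    (S : Finset T) : ∃ (f : T → T) (col : T → Bool),
      (∀ c ∈ S, f c ∈ S ∧ (f c ≠ c → A c (f c) ∧ col (f c) ≠ col c)) ∧
      ∑ c ∈ S, ∑ c' ∈ S, (if c = c' then 0 else w c c') ≤
        6 * ∑ c ∈ S, (if f c = c then 0 else w c (f c) + w (f c) c) := by
  induction S using Finset.strongInduction with
  | H S ih =>
    rcases S.eq_empty_or_nonempty with rfl | hS
    · exact ⟨id, fun _ => true, by simp, by simp⟩
    obtain ⟨c, hc, hdc⟩ := hdeg S hS
    obtain ⟨f, col, h1, h2⟩ := ih (S.erase c) (erase_ssubset hc)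
    set N := S.filter fun c' => c' ≠ c ∧ A c c' with hN
    obtain ⟨d, hd1, hd2, hd3⟩ : ∃ d, d ∈ S ∧ (d ≠ c → A c d) ∧
        ∑ c' ∈ N, (w c c' + w c' c) ≤ 6 * (if d = c then 0 else w c d + w d c) := by
      rcases N.eq_empty_or_nonempty with h | h
      · exact ⟨c, hc, fun h' => absurd rfl h', by simp [h]⟩
      · obtain ⟨d, hd, hmax⟩ := exists_max_image N (fun c' => w c c' + w c' c) h
        have hd' := mem_filter.1 hd
        refine ⟨d, hd'.1, fun _ => hd'.2.2, ?_⟩
        rw [if_neg hd'.2.1]
        refine (sum_le_card_nsmul N _ _ hmax).trans ?_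
        rw [nsmul_eq_mul]
        refine mul_le_mul_of_nonneg_right (by exact_mod_cast hdc) (add_nonneg (hw _ _) (hw _ _))
    refine ⟨Function.update f c d, Function.update col c (!col d), fun x hx => ?_, ?_⟩
    · by_cases hxc : x = c
      · subst hxc
        rw [Function.update_self, Function.update_self]
        refine ⟨hd1, fun h => ⟨hd2 h, ?_⟩⟩
        rw [Function.update_of_ne h]
        cases col d <;> simp
      · have hx' := mem_erase.2 ⟨hxc, hx⟩
        have h3 := mem_erase.1 (h1 x hx').1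
        rw [Function.update_of_ne hxc, Function.update_of_ne hxc, Function.update_of_ne h3.1]
        exact ⟨h3.2, (h1 x hx').2⟩
    · have e1 : ∑ x ∈ S, (if Function.update f c d x = x then 0 else
          w x (Function.update f c d x) + w (Function.update f c d x) x) =
          (if d = c then 0 else w c d + w d c) +
            ∑ x ∈ S.erase c, (if f x = x then 0 else w x (f x) + w (f x) x) := by
        rw [← add_sum_erase S _ hc, Function.update_self]
        congr 1
        refine sum_congr rfl fun x hx => ?_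
        rw [Function.update_of_ne (mem_erase.1 hx).1]
      have e2 : ∑ x ∈ S, ∑ y ∈ S, (if x = y then 0 else w x y) =
          ∑ y ∈ S.erase c, (w c y + w y c) +
            ∑ x ∈ S.erase c, ∑ y ∈ S.erase c, (if x = y then 0 else w x y) := by
        have a1 : ∑ y ∈ S, (if c = y then 0 else w c y) = ∑ y ∈ S.erase c, w c y := by
          rw [← add_sum_erase S _ hc, if_pos rfl, zero_add]
          exact sum_congr rfl fun y hy => if_neg (mem_erase.1 hy).1.symm
        have a2 : ∀ x ∈ S.erase c, ∑ y ∈ S, (if x = y then 0 else w x y) =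
            w x c + ∑ y ∈ S.erase c, (if x = y then 0 else w x y) := fun x hx => by
          rw [← add_sum_erase S _ hc, if_neg (mem_erase.1 hx).1]
        rw [← add_sum_erase S _ hc, a1, sum_congr rfl a2, sum_add_distrib, sum_add_distrib,
          add_assoc]
      have e3 : ∑ y ∈ S.erase c, (w c y + w y c) = ∑ y ∈ N, (w c y + w y c) := by
        refine (sum_subset (fun y hy => ?_) fun y hy hy' => ?_).symm
        · exact mem_erase.2 ⟨(mem_filter.1 hy).2.1, (mem_filter.1 hy).1⟩
        · by_contra h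
          have hy1 := mem_erase.1 hy
          exact hy' (mem_filter.2 ⟨hy1.2, hy1.1, hA c y hy1.1.symm h⟩)
      rw [e1, e2, e3]
      linarith

/-- Merging the leaves of one colour removes a twelfth of the cut weight. -/
theorem merge {T : Type} [Fintype T] [DecidableEq T] (A : T → T → Prop) (w : T → T → ℝ)
    (hw : ∀ c c', 0 ≤ w c c') (f : T → T) (col : T → Bool)
    (h1 : ∀ c, f c ≠ c → A c (f c) ∧ col (f c) ≠ col c)
    (h2 : ∑ c, ∑ c', (if c = c' then 0 else w c c') ≤
        6 * ∑ c, (if f c = c then 0 else w c (f c) + w (f c) c)) :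
    ∃ g : T → T, (∀ c, g (g c) = g c) ∧ (∀ c, g c ≠ c → A c (g c)) ∧
      ∑ c, ∑ c', (if g c = g c' then 0 else w c c') ≤
        11 / 12 * ∑ c, ∑ c', (if c = c' then 0 else w c c') := by
  obtain ⟨b, hb⟩ : ∃ b : Bool, ∑ c, (if f c = c then 0 else w c (f c) + w (f c) c) ≤
      2 * ∑ c, (if col c = b ∧ f c ≠ c then w c (f c) + w (f c) c else 0) := by
    have e : ∑ c, (if f c = c then 0 else w c (f c) + w (f c) c) =
        ∑ c, (if col c = true ∧ f c ≠ c then w c (f c) + w (f c) c else 0) +
        ∑ c, (if col c = false ∧ f c ≠ c then w c (f c) + w (f c) c else 0) := by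
      rw [← sum_add_distrib]
      refine sum_congr rfl fun c _ => ?_
      by_cases h : f c = c <;> cases col c <;> simp [h]
    by_contra hcon
    push Not at hcon
    have a1 := hcon true
    have a2 := hcon false
    linarith
  have nl : ∀ c, col c = b ∧ f c ≠ c → ¬ (col (f c) = b ∧ f (f c) ≠ f c) := fun c h h' =>
    (h1 c h.2).2 (h'.1.trans h.1.symm)
  set g : T → T := fun c => if col c = b ∧ f c ≠ c then f c else c with hg
  have g1 : ∀ c, col c = b ∧ f c ≠ c → g c = f c := fun c h => if_pos h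
  have g2 : ∀ c, ¬ (col c = b ∧ f c ≠ c) → g c = c := fun c h => if_neg h
  refine ⟨g, fun c => ?_, fun c hc => ?_, ?_⟩
  · by_cases h : col c = b ∧ f c ≠ c
    · rw [g1 c h, g2 _ (nl c h)]
    · rw [g2 c h, g2 c h]
  · by_cases h : col c = b ∧ f c ≠ c
    · rw [g1 c h]; exact (h1 c h.2).1
    · exact absurd (g2 c h) hc
  · have e : ∑ c, (if col c = b ∧ f c ≠ c then w c (f c) + w (f c) c else 0) =
        ∑ c, ∑ c', ((if (col c = b ∧ f c ≠ c) ∧ c' = f c then w c c' else 0) +
          (if (col c' = b ∧ f c' ≠ c') ∧ c = f c' then w c c' else 0)) := by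
      simp only [sum_add_distrib]
      rw [sum_comm (f := fun c c' => if (col c' = b ∧ f c' ≠ c') ∧ c = f c' then w c c' else 0),
        ← sum_add_distrib]
      refine sum_congr rfl fun c _ => ?_
      by_cases h : col c = b ∧ f c ≠ c
      · simp only [h, ne_eq, not_false_eq_true, and_self, true_and, sum_ite_eq', mem_univ, if_true]
      · simp only [h, false_and, if_false, sum_const_zero, add_zero]
    have key : ∑ c, ∑ c', (if g c = g c' then 0 else w c c') +
        ∑ c, (if col c = b ∧ f c ≠ c then w c (f c) + w (f c) c else 0) ≤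
        ∑ c, ∑ c', (if c = c' then 0 else w c c') := by
      rw [e, ← sum_add_distrib]
      refine sum_le_sum fun c _ => ?_
      rw [← sum_add_distrib]
      refine sum_le_sum fun c' _ => ?_
      have := hw c c'
      by_cases p : (col c = b ∧ f c ≠ c) ∧ c' = f c
      · have q : ¬ ((col c' = b ∧ f c' ≠ c') ∧ c = f c') := fun q => nl c p.1 (p.2 ▸ q.1)
        have r : g c = g c' := by rw [g1 c p.1, p.2, g2 _ (nl c p.1)]
        have s : c ≠ c' := fun s => p.1.2 (p.2.symm.trans s.symm)
        rw [if_pos p, if_neg q, if_pos r, if_neg s]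
        linarith
      · by_cases q : (col c' = b ∧ f c' ≠ c') ∧ c = f c'
        · have r : g c = g c' := by rw [g1 c' q.1, q.2, g2 _ (nl c' q.1)]
          have s : c ≠ c' := fun s => q.1.2 (q.2.symm.trans s)
          rw [if_neg p, if_pos q, if_pos r, if_neg s]
          linarith
        · rw [if_neg p, if_neg q]
          by_cases s : c = c'
          · rw [if_pos s, if_pos (by rw [s])]
            linarith
          · rw [if_neg s]
            split_ifs <;> linarith
    linarith

/-- Sizes of the clusters after a number of rounds. -/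
def sz (Δ : ℕ) : ℕ → ℕ
  | 0 => 1
  | R + 1 => sz Δ R * (1 + Δ * sz Δ R)

theorem sum_fib {U : Type} [Fintype U] [DecidableEq U] (κ : U → U) (wt : U → U → ℝ)
    (P : U → U → Prop) [∀ a b, Decidable (P a b)] :
    ∑ u, ∑ v, (if P (κ u) (κ v) then 0 else wt u v) =
      ∑ c, ∑ c', (if P c c' then 0 else ∑ u, ∑ v, if κ u = c ∧ κ v = c' then wt u v else 0) := by
  have e : ∀ c c', (if P c c' then 0 else ∑ u, ∑ v, if κ u = c ∧ κ v = c' then wt u v else 0) =
      ∑ u, ∑ v, if κ u = c ∧ κ v = c' then (if P (κ u) (κ v) then 0 else wt u v) else 0 := by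
    intro c c'
    by_cases h : P c c'
    · rw [if_pos h]
      refine (sum_eq_zero fun u _ => sum_eq_zero fun v _ => ?_).symm
      split_ifs with h1 h2
      · rfl
      · exact absurd (by rw [h1.1, h1.2]; exact h) h2
      · rfl
    · rw [if_neg h]
      refine sum_congr rfl fun u _ => sum_congr rfl fun v _ => ?_
      split_ifs with h1 h2
      · exact absurd (by rw [← h1.1, ← h1.2]; exact h2) h
      · rfl
      · rfl
  simp only [e]
  symm
  calc ∑ c, ∑ c', ∑ u, ∑ v,
        (if κ u = c ∧ κ v = c' then (if P (κ u) (κ v) then 0 else wt u v) else 0)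
      = ∑ c, ∑ u, ∑ c', ∑ v,
        (if κ u = c ∧ κ v = c' then (if P (κ u) (κ v) then 0 else wt u v) else 0) :=
        sum_congr rfl fun c _ => sum_comm
    _ = ∑ u, ∑ c, ∑ c', ∑ v,
        (if κ u = c ∧ κ v = c' then (if P (κ u) (κ v) then 0 else wt u v) else 0) := sum_comm
    _ = ∑ u, ∑ c, ∑ v, ∑ c',
        (if κ u = c ∧ κ v = c' then (if P (κ u) (κ v) then 0 else wt u v) else 0) :=
        sum_congr rfl fun u _ => sum_congr rfl fun c _ => sum_comm
    _ = ∑ u, ∑ v, ∑ c, ∑ c',
        (if κ u = c ∧ κ v = c' then (if P (κ u) (κ v) then 0 else wt u v) else 0) :=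
        sum_congr rfl fun u _ => sum_comm
    _ = _ := by
        refine sum_congr rfl fun u _ => sum_congr rfl fun v _ => ?_
        rw [sum_eq_single (κ u), sum_eq_single (κ v)]
        · simp
        · intro b _ hb
          rw [if_neg fun h => hb h.2.symm]
        · simp
        · intro b _ hb
          exact sum_eq_zero fun c' _ => if_neg fun h => hb h.1.symm
        · simp

theorem rounds (Δ : ℕ) {U : Type} [Fintype U] [DecidableEq U] (Γ : SimpleGraph U)
    (hΔ : ∀ u, Nat.card {v // Γ.Adj u v} ≤ Δ) (hL : LowDeg Γ) (wt : U → U → ℝ)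
    (h0 : ∀ u v, 0 ≤ wt u v) (hadj : ∀ u v, u ≠ v → wt u v ≠ 0 → Γ.Adj u v) (R : ℕ) :
    ∃ κ : U → U,
      (∀ u v, κ u = κ v → Relation.ReflTransGen (fun a b => Γ.Adj a b ∧ κ a = κ b) u v) ∧
      (∀ c, (univ.filter fun u => κ u = c).card ≤ sz Δ R) ∧
      (∑ u, ∑ v, if κ u = κ v then 0 else wt u v) ≤ (11 / 12) ^ R * ∑ u, ∑ v, wt u v := by
  classical
  induction R with
  | zero =>
    refine ⟨id, fun u v h => ?_, fun c => ?_, ?_⟩
    · rw [show u = v from h]
    · simp only [id, sz]
      exact card_le_one.2 fun a ha b hb => (mem_filter.1 ha).2.trans (mem_filter.1 hb).2.symm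
    · rw [pow_zero, one_mul]
      refine sum_le_sum fun u _ => sum_le_sum fun v _ => ?_
      have := h0 u v
      split_ifs <;> linarith
  | succ R ih =>
    obtain ⟨κ, hconn, hsz, hcut⟩ := ih
    set A : U → U → Prop := fun c c' => ∃ u v, Γ.Adj u v ∧ κ u = c ∧ κ v = c' with hA
    set w : U → U → ℝ := fun c c' => ∑ u, ∑ v, if κ u = c ∧ κ v = c' then wt u v else 0 with hw
    have w0 : ∀ c c', 0 ≤ w c c' := fun c c' =>
      sum_nonneg fun u _ => sum_nonneg fun v _ => by
        have := h0 u v
        split_ifs <;> linarith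
    have wA : ∀ c c', c ≠ c' → w c c' ≠ 0 → A c c' := fun c c' hne h => by
      obtain ⟨u, -, hu⟩ := exists_ne_zero_of_sum_ne_zero h
      obtain ⟨v, -, hv⟩ := exists_ne_zero_of_sum_ne_zero hu
      by_cases h' : κ u = c ∧ κ v = c'
      · rw [if_pos h'] at hv
        exact ⟨u, v, hadj u v (fun e => hne (by rw [← h'.1, ← h'.2, e])) hv, h'⟩
      · exact absurd (if_neg h') hv
    have Asymm : ∀ c c', A c c' → A c' c := fun c c' ⟨u, v, h1, h2, h3⟩ => ⟨v, u, h1.symm, h3, h2⟩
    obtain ⟨f, col, f1, f2⟩ := forest A w w0 (fun c c' hne h => by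
      by_cases h' : w c c' = 0
      · rw [h', zero_add] at h
        exact Asymm _ _ (wA _ _ hne.symm h)
      · exact wA _ _ hne h') (fun S hS => by
        obtain ⟨c, hc, hc'⟩ := hL κ hconn S hS
        refine ⟨c, hc, ?_⟩
        convert hc') univ
    obtain ⟨g, g1, g2, g3⟩ := merge A w w0 f col (fun c => (f1 c (mem_univ c)).2) f2
    refine ⟨fun u => g (κ u), fun u v huv => ?_, fun c => ?_, ?_⟩
    · have mono : ∀ a b, κ a = κ b →
          Relation.ReflTransGen (fun a b => Γ.Adj a b ∧ g (κ a) = g (κ b)) a b := fun a b h =>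
        Relation.ReflTransGen.mono (fun x y hxy => ⟨hxy.1, by rw [hxy.2]⟩) _ _ (hconn a b h)
      have toc : ∀ a, ∃ b, κ b = g (κ a) ∧
          Relation.ReflTransGen (fun a b => Γ.Adj a b ∧ g (κ a) = g (κ b)) a b ∧
          Relation.ReflTransGen (fun a b => Γ.Adj a b ∧ g (κ a) = g (κ b)) b a := fun a => by
        by_cases h : g (κ a) = κ a
        · exact ⟨a, h.symm, Relation.ReflTransGen.refl, Relation.ReflTransGen.refl⟩
        · obtain ⟨x, y, h1, h2, h3⟩ := g2 _ h
          have e : g (κ x) = g (κ y) := by rw [h2, h3, g1]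
          exact ⟨y, h3, (mono a x h2.symm).tail ⟨h1, e⟩,
            Relation.ReflTransGen.head ⟨h1.symm, e.symm⟩ (mono x a h2)⟩
      obtain ⟨a, a1, a2, -⟩ := toc u
      obtain ⟨b, b1, -, b3⟩ := toc v
      exact a2.trans ((mono a b (a1.trans (huv.trans b1.symm))).trans b3)
    · set C : Finset U := insert c (((univ.filter fun u => κ u = c).biUnion
        fun v => univ.filter fun u => Γ.Adj v u).image κ) with hC
      have c1 : C.card ≤ 1 + Δ * sz Δ R := by
        refine (card_insert_le _ _).trans ?_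
        rw [add_comm]
        refine Nat.add_le_add_left (card_image_le.trans ?_) 1
        refine (card_biUnion_le_card_mul _ _ Δ fun v _ => ?_).trans ?_
        · have := hΔ v
          rwa [Nat.card_eq_fintype_card, Fintype.card_subtype] at this
        · rw [mul_comm]
          exact Nat.mul_le_mul_left _ (hsz c)
      have c2 : (univ.filter fun u => g (κ u) = c) ⊆
          C.biUnion fun c' => univ.filter fun u => κ u = c' := by
        intro u hu
        have hu' := (mem_filter.1 hu).2
        refine mem_biUnion.2 ⟨κ u, ?_, mem_filter.2 ⟨mem_univ _, rfl⟩⟩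
        by_cases h : g (κ u) = κ u
        · rw [← h, hu']; exact mem_insert_self _ _
        · obtain ⟨x, y, h1, h2, h3⟩ := g2 _ h
          refine mem_insert_of_mem (mem_image.2 ⟨x, mem_biUnion.2 ⟨y, ?_, ?_⟩, h2⟩)
          · exact mem_filter.2 ⟨mem_univ _, h3.trans hu'⟩
          · exact mem_filter.2 ⟨mem_univ _, h1.symm⟩
      refine (card_le_card c2).trans ((card_biUnion_le_card_mul _ _ _ fun c' _ => hsz c').trans ?_)
      rw [sz, mul_comm]
      exact Nat.mul_le_mul_left _ c1
    · rw [sum_fib κ wt fun a b => g a = g b]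
      rw [sum_fib κ wt fun a b => a = b] at hcut
      refine g3.trans ?_
      rw [pow_succ', mul_assoc]
      exact mul_le_mul_of_nonneg_left hcut (by norm_num)

end Clustering

theorem clustering (Δ : ℕ) (ε : ℝ) (hε : 0 < ε) : ∃ s : ℕ, ∀ (U : Type) [Fintype U] [DecidableEq U]
    (Γ : SimpleGraph U), (∀ u, Nat.card {v // Γ.Adj u v} ≤ Δ) → LowDeg Γ →
    ∀ wt : U → U → ℝ, (∀ u v, 0 ≤ wt u v) → (∀ u v, u ≠ v → wt u v ≠ 0 → Γ.Adj u v) →
    ∃ κ : U → U, (∀ c, (univ.filter fun u => κ u = c).card ≤ s) ∧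
      (∑ u, ∑ v, if κ u = κ v then 0 else wt u v) ≤ ε * ∑ u, ∑ v, wt u v := by
  obtain ⟨R, hR⟩ := exists_pow_lt_of_lt_one hε (show (11 / 12 : ℝ) < 1 by norm_num)
  refine ⟨Clustering.sz Δ R, fun U _ _ Γ hΔ hL wt h0 hadj => ?_⟩
  obtain ⟨κ, -, h1, h2⟩ := Clustering.rounds Δ Γ hΔ hL wt h0 hadj R
  exact ⟨κ, h1, h2.trans (mul_le_mul_of_nonneg_right hR.le
    (sum_nonneg fun u _ => sum_nonneg fun v _ => h0 u v))⟩

end Vale.Agent.P201
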