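import Vale.Agent.P201.Levels

/-! Quotients of planar flag graphs by connected clusters have a vertex of degree at most six. -/

namespace Vale.Agent.P201

open Finset Vale.Agent.GP

set_option linter.unusedSectionVars false
set_option linter.unusedSimpArgs false

namespace Density

theorem z2_add_self (a : ZMod 2) : a + a = 0 := by revert a; decide

theorem z2_eq_one {a : ZMod 2} (h : a ≠ 0) : a = 1 := by revert a; decide

theorem z2_eq_of_add {a b : ZMod 2} (h : a + b = 0) : a = b := by revert a b; decide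

theorem maclane {R Q : Type} [Fintype R] [Fintype Q] [DecidableEq Q] (l r : R → Q)
    (Z : Submodule (ZMod 2) (R → ZMod 2))
    (h1 : ∀ z ∈ Z, ∃ u : Q → ZMod 2, ∀ e, z e = u (l e) + u (r e))
    (h2 : ∀ q : Q, (∃ e, (Pi.single q 1 : Q → ZMod 2) (l e) + (Pi.single q 1 : Q → ZMod 2) (r e) ≠ 0)
      → 3 ≤ (univ.filter fun e =>
        (Pi.single q 1 : Q → ZMod 2) (l e) + (Pi.single q 1 : Q → ZMod 2) (r e) ≠ 0).card) :
    3 * Module.finrank (ZMod 2) Z ≤ 2 * Fintype.card R := by
  classical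
  let g : Q → R → ZMod 2 := fun q e =>
    (Pi.single q 1 : Q → ZMod 2) (l e) + (Pi.single q 1 : Q → ZMod 2) (r e)
  let T : Finset Q := univ.filter fun q => ∃ e, g q e ≠ 0
  have hle : Z ≤ Submodule.span (ZMod 2) (T.image g : Set (R → ZMod 2)) := by
    intro z hz
    obtain ⟨u, hu⟩ := h1 z hz
    have : z = ∑ q, u q • g q := by
      funext e
      simp [g, Finset.sum_apply, hu, Pi.single_apply, mul_add, Finset.sum_add_distrib]
    rw [this]
    refine Submodule.sum_mem _ fun q _ => ?_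
    by_cases hq : q ∈ T
    · exact Submodule.smul_mem _ _ (Submodule.subset_span (by
        simp only [coe_image]; exact ⟨q, hq, rfl⟩))
    · have : g q = 0 := by
        funext e
        by_contra h
        exact hq (mem_filter.2 ⟨mem_univ _, e, h⟩)
      rw [this, smul_zero]; exact Submodule.zero_mem _
  have h3 : Module.finrank (ZMod 2) Z ≤ T.card :=
    (Submodule.finrank_mono hle).trans ((finrank_span_finset_le_card _).trans card_image_le)
  have h4 : T.card * 3 ≤ (univ : Finset R).card * 2 := by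
    refine Finset.card_mul_le_card_mul (fun q e => g q e ≠ 0) (fun q hq => ?_) (fun e _ => ?_)
    · exact h2 q (mem_filter.1 hq).2
    · refine (card_le_card (t := {l e, r e}) fun q hq => ?_).trans card_le_two
      have := (mem_filter.1 hq).2
      by_contra h
      simp only [mem_insert, mem_singleton, not_or] at h
      apply this
      simp [g, Pi.single_apply, Ne.symm h.1, Ne.symm h.2]
  rw [card_univ] at h4
  omega

theorem three_le {K : Type} [DecidableEq K] {R : Type} [Fintype R] (col : R → Sym2 K)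
    (hinj : Function.Injective col) (hnd : ∀ p, ¬ (col p).IsDiag) (z : R → ZMod 2)
    (hz : ∀ p k, k ∈ col p → ∑ p', z p' * (if k ∈ col p' then 1 else 0) = 0)
    (hne : ∃ p, z p ≠ 0) : 3 ≤ (univ.filter fun p => z p ≠ 0).card := by
  classical
  obtain ⟨p₀, h₀⟩ := hne
  have key : ∀ k, k ∈ col p₀ → ∃ p, p ≠ p₀ ∧ z p ≠ 0 ∧ k ∈ col p := by
    intro k hk
    by_contra h
    push Not at h
    have := hz p₀ k hk
    rw [Finset.sum_eq_single p₀ (fun p _ hp => by
      by_cases h' : z p = 0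
      · simp [h']
      · simp [h p hp h']) (by simp)] at this
    simp [hk, h₀] at this
  obtain ⟨⟨c, c'⟩, hc⟩ := Quot.exists_rep (col p₀)
  change s(c, c') = col p₀ at hc
  have hcc : c ≠ c' := fun h => hnd p₀ (by rw [← hc]; simpa using h)
  obtain ⟨p₁, a1, a2, a3⟩ := key c (by rw [← hc]; simp)
  obtain ⟨p₂, b1, b2, b3⟩ := key c' (by rw [← hc]; simp)
  have h12 : p₁ ≠ p₂ := by
    rintro rfl
    exact a1 (hinj (((Sym2.mem_and_mem_iff hcc).1 ⟨a3, b3⟩).trans hc))
  rw [show 3 = ({p₀, p₁, p₂} : Finset R).card from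
    (Finset.card_eq_three.2 ⟨p₀, p₁, p₂, a1.symm, b1.symm, h12, rfl⟩).symm]
  refine card_le_card fun p hp => ?_
  simp only [mem_insert, mem_singleton] at hp
  rcases hp with rfl | rfl | rfl <;> simp [*]

section chains

variable {H : Type} [Fintype H] [DecidableEq H] (φ π : Equiv.Perm H)

def e1 : H ⊕ H → H
  | Sum.inl y => φ.symm y
  | Sum.inr x => x

def e2 : H ⊕ H → H
  | Sum.inl y => y
  | Sum.inr x => π x

def lf : H ⊕ H → H ⊕ H
  | Sum.inl y => Sum.inl y
  | Sum.inr x => Sum.inr x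

def rt : H ⊕ H → H ⊕ H
  | Sum.inl y => Sum.inr y
  | Sum.inr x => Sum.inr (π x)

def bd : (H ⊕ H → ZMod 2) →ₗ[ZMod 2] (H → ZMod 2) where
  toFun c x := c (Sum.inl x) + c (Sum.inl (φ x)) + c (Sum.inr x)
  map_add' c c' := by funext x; simp only [Pi.add_apply]; ring
  map_smul' a c := by funext x; simp only [Pi.smul_apply, smul_eq_mul, RingHom.id_apply]; ring

theorem bd_apply (c : H ⊕ H → ZMod 2) (x : H) :
    bd φ c x = c (Sum.inl x) + c (Sum.inl (φ x)) + c (Sum.inr x) := rfl

def dl : H ⊕ H → H ⊕ H → ZMod 2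
  | Sum.inl y => Pi.single (Sum.inl y) 1
  | Sum.inr x => Pi.single (Sum.inr x) 1 + Pi.single (Sum.inr (π x)) 1

theorem bd_dl (e : H ⊕ H) :
    bd φ (dl π e) = Pi.single (e1 φ e) 1 + Pi.single (e2 π e) 1 := by
  funext x
  rcases e with y | y
  · simp only [bd_apply, dl, e1, e2, Pi.single_apply, Pi.add_apply, Sum.inl.injEq,
      Equiv.eq_symm_apply, reduceCtorEq, if_false, add_zero]
    ring
  · simp [bd_apply, dl, e1, e2, Pi.single_apply]

variable {π} in
theorem dl_symm (hπ : ∀ x, π (π x) = x) (e : H ⊕ H) (x : H) :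
    dl π e (Sum.inr (π x)) = dl π e (Sum.inr x) := by
  rcases e with y | y
  · simp [dl]
  · have : π x = y ↔ x = π y := ⟨fun h => by rw [← h, hπ], fun h => by rw [h, hπ]⟩
    simp only [dl, Pi.add_apply, Pi.single_apply, Sum.inr.injEq, this, EmbeddingLike.apply_eq_iff_eq]
    ring

variable {π} in
theorem dl_ne (hπ : ∀ x, π (π x) = x) {e e' : H ⊕ H} (h : dl π e e' ≠ 0) :
    s(e1 φ e', e2 π e') = s(e1 φ e, e2 π e) ∧
      ∀ c : H ⊕ H → ZMod 2, (∀ x, c (Sum.inr (π x)) = c (Sum.inr x)) → c e' = c e := by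
  rcases e with y | y
  · have : e' = Sum.inl y := by
      by_contra h'
      exact h (by simp [dl, Pi.single_apply, h'])
    subst this
    exact ⟨rfl, fun _ _ => rfl⟩
  · have : e' = Sum.inr y ∨ e' = Sum.inr (π y) := by
      by_contra h'
      rw [not_or] at h'
      exact h (by simp [dl, Pi.single_apply, h'.1, h'.2])
    rcases this with rfl | rfl
    · exact ⟨rfl, fun _ _ => rfl⟩
    · exact ⟨by simp [e1, e2, hπ], fun c hc => hc y⟩

theorem dl_self {e : H ⊕ H} (h : e1 φ e ≠ e2 π e) : dl π e e = 1 := by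
  rcases e with y | y
  · simp [dl]
  · have : y ≠ π y := h
    simp [dl, Pi.single_apply, this]

theorem dl_fix (e : H ⊕ H) (x : H) (hx : π x = x) (hπ : ∀ x, π (π x) = x) :
    dl π e (Sum.inr x) = 0 := by
  rcases e with y | y
  · simp [dl]
  · have : x = π y ↔ x = y := ⟨fun h => by rw [← hx, h, hπ], fun h => by rw [← h, hx]⟩
    simp only [dl, Pi.add_apply, Pi.single_apply, Sum.inr.injEq, this]
    exact z2_add_self _

variable {K : Type} [DecidableEq K] (κ : H → K)

/-- Symmetric chains supported inside clusters. -/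
def Ins : Submodule (ZMod 2) (H ⊕ H → ZMod 2) where
  carrier := {c | (∀ x, c (Sum.inr (π x)) = c (Sum.inr x)) ∧
    ∀ e, κ (e1 φ e) ≠ κ (e2 π e) → c e = 0}
  add_mem' := fun {a b} ha hb => ⟨fun x => by simp [ha.1 x, hb.1 x],
    fun e he => by simp [ha.2 e he, hb.2 e he]⟩
  zero_mem' := ⟨fun _ => rfl, fun _ _ => rfl⟩
  smul_mem' := fun a c hc => ⟨fun x => by simp [hc.1 x], fun e he => by simp [hc.2 e he]⟩

variable {π} in
theorem dl_mem (hπ : ∀ x, π (π x) = x) {e : H ⊕ H} (h : κ (e1 φ e) = κ (e2 π e)) :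
    dl π e ∈ Ins φ π κ := by
  refine ⟨dl_symm hπ e, fun e' he' => ?_⟩
  by_contra h'
  have := (dl_ne φ hπ h').1
  rcases Sym2.eq_iff.1 this with ⟨h1, h2⟩ | ⟨h1, h2⟩ <;> rw [h1, h2] at he'
  · exact he' h
  · exact he' h.symm

variable {π} in
theorem path_mem (hπ : ∀ x, π (π x) = x) {x y : H} (h : Relation.ReflTransGen
      (fun a b => (b = φ a ∨ a = φ b ∨ b = π a) ∧ κ a = κ b) x y) :
    (Pi.single x 1 + Pi.single y 1 : H → ZMod 2) ∈ (Ins φ π κ).map (bd φ) := by
  induction h with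
  | refl =>
    have : (Pi.single x 1 + Pi.single x 1 : H → ZMod 2) = 0 := by
      funext w; exact z2_add_self _
    rw [this]; exact Submodule.zero_mem _
  | @tail a b _ hab ih =>
    have h1 : (Pi.single a 1 + Pi.single b 1 : H → ZMod 2) ∈ (Ins φ π κ).map (bd φ) := by
      obtain ⟨h | h | h, hk⟩ := hab
      · exact ⟨dl π (Sum.inl b), dl_mem φ κ hπ (by simpa [e1, e2, h] using h ▸ hk),
          by rw [bd_dl]; simp [e1, e2, h]⟩
      · exact ⟨dl π (Sum.inl a), dl_mem φ κ hπ (by simpa [e1, e2, h] using h ▸ hk.symm),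
          by rw [bd_dl, add_comm]; simp [e1, e2, h]⟩
      · exact ⟨dl π (Sum.inr a), dl_mem φ κ hπ (by simpa [e1, e2, h] using h ▸ hk),
          by rw [bd_dl]; simp [e1, e2, h]⟩
    have h2 := Submodule.add_mem _ ih h1
    convert h2 using 1
    funext w
    simp only [Pi.add_apply]
    linear_combination -z2_add_self ((Pi.single a 1 : H → ZMod 2) w)

variable {π} in
theorem even_mem (hπ : ∀ x, π (π x) = x) (S : Finset K)
    (hconn : ∀ x y, κ x = κ y → κ x ∈ S → Relation.ReflTransGen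
      (fun a b => (b = φ a ∨ a = φ b ∨ b = π a) ∧ κ a = κ b) x y) (h : H → ZMod 2)
    (h0 : ∀ x, κ x ∉ S → h x = 0)
    (h1 : ∀ k ∈ S, ∑ x, (if κ x = k then 1 else 0) * h x = 0) :
    h ∈ (Ins φ π κ).map (bd φ) := by
  classical
  let β : H → H := fun x => Classical.choose (⟨x, rfl⟩ : ∃ y, κ y = κ x)
  have hβ : ∀ x, κ (β x) = κ x := fun x => Classical.choose_spec (⟨x, rfl⟩ : ∃ y, κ y = κ x)
  have hβ' : ∀ x y, κ x = κ y → β x = β y := fun x y hxy => by simp only [β, hxy]
  have : h = ∑ x, h x • (Pi.single x 1 + Pi.single (β x) 1 : H → ZMod 2) := by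
    funext w
    simp only [Finset.sum_apply, Pi.smul_apply, Pi.add_apply, smul_eq_mul, mul_add,
      Finset.sum_add_distrib, Pi.single_apply, mul_ite, mul_one, mul_zero, Finset.sum_ite_eq,
      mem_univ, if_true]
    rw [left_eq_add]
    by_cases hw : w = β w
    · by_cases hS : κ w ∈ S
      · refine Eq.trans (Finset.sum_congr rfl fun x _ => ?_) (h1 _ hS)
        by_cases hx : κ x = κ w
        · rw [if_pos hx, if_pos (hw.trans (hβ' _ _ hx.symm)), one_mul]
        · rw [if_neg hx, if_neg (fun h' => hx (by rw [h', hβ])), zero_mul]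
      · refine Finset.sum_eq_zero fun x _ => ?_
        split_ifs with h'
        · exact h0 x (by rw [← hβ x, ← h']; exact hS)
        · rfl
    · refine Finset.sum_eq_zero fun x _ => if_neg fun h' => hw ?_
      rw [h']; exact hβ' _ _ (hβ x).symm
  rw [this]
  refine Submodule.sum_mem _ fun x _ => ?_
  by_cases hS : κ x ∈ S
  · exact Submodule.smul_mem _ _ (path_mem φ κ hπ (hconn x _ (hβ x).symm hS))
  · rw [h0 x hS, zero_smul]; exact Submodule.zero_mem _

variable {π} in
theorem pair_ins (hπ : ∀ x, π (π x) = x) {c : H ⊕ H → ZMod 2} (hc : c ∈ Ins φ π κ)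
    (hfix : ∀ x, π x = x → c (Sum.inr x) = 0) (k : K) :
    ∑ x, (if κ x = k then 1 else 0) * bd φ c x = 0 := by
  simp only [bd_apply, mul_add, Finset.sum_add_distrib]
  have h1 : ∑ x, (if κ x = k then 1 else 0) * c (Sum.inl (φ x))
      = ∑ x, (if κ x = k then 1 else 0) * c (Sum.inl x) := by
    rw [← Equiv.sum_comp φ.symm]
    refine Finset.sum_congr rfl fun y _ => ?_
    rw [Equiv.apply_symm_apply]
    by_cases h : κ (φ.symm y) = κ y
    · rw [h]
    · rw [hc.2 (Sum.inl y) h, mul_zero, mul_zero]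
  rw [h1, z2_add_self, zero_add]
  refine Finset.sum_involution (fun x _ => π x) (fun x _ => ?_) (fun x _ hx h => ?_)
    (fun _ _ => mem_univ _) (fun x _ => hπ x)
  · rw [hc.1 x]
    by_cases h : κ x = κ (π x)
    · rw [← h]; exact z2_add_self _
    · rw [hc.2 (Sum.inr x) h]; simp
  · exact hx (by rw [hfix x h, mul_zero])

theorem pair_dl (e : H ⊕ H) (he : κ (e1 φ e) ≠ κ (e2 π e)) (k : K) :
    ∑ x, (if κ x = k then 1 else 0) * bd φ (dl π e) x
      = if k ∈ s(κ (e1 φ e), κ (e2 π e)) then (1 : ZMod 2) else 0 := by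
  rw [bd_dl]
  simp only [Pi.add_apply, mul_add, Finset.sum_add_distrib, Pi.single_apply, mul_ite, mul_one,
    mul_zero, Finset.sum_ite_eq', mem_univ, if_true, Sym2.mem_iff]
  by_cases h1 : κ (e1 φ e) = k <;> by_cases h2 : κ (e2 π e) = k
  · exact absurd (h1.trans h2.symm) he
  · simp [h1, h2]
  · simp [h1, h2]
  · simp [h1, h2, Ne.symm h1, Ne.symm h2]

end chains

theorem count {H K R : Type} [Fintype H] [DecidableEq H] [DecidableEq K] [Fintype R]
    (φ π : Equiv.Perm H) (hπ : ∀ x, π (π x) = x) (hp : Planar φ π) (κ : H → K) (S : Finset K)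
    (hconn : ∀ x y, κ x = κ y → κ x ∈ S → Relation.ReflTransGen
      (fun a b => (b = φ a ∨ a = φ b ∨ b = π a) ∧ κ a = κ b) x y)
    (ed : R → H ⊕ H) (hinj : Function.Injective fun p => s(κ (e1 φ (ed p)), κ (e2 π (ed p))))
    (hne : ∀ p, κ (e1 φ (ed p)) ≠ κ (e2 π (ed p)))
    (hS1 : ∀ p, κ (e1 φ (ed p)) ∈ S) (hS2 : ∀ p, κ (e2 π (ed p)) ∈ S) :
    Fintype.card R ≤ 3 * S.card := by
  classical
  let col : R → Sym2 K := fun p => s(κ (e1 φ (ed p)), κ (e2 π (ed p)))
  let bd' : (R → ZMod 2) →ₗ[ZMod 2] (S → ZMod 2) :=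
    { toFun := fun z k => ∑ p, z p * (if k.1 ∈ col p then 1 else 0)
      map_add' := fun z z' => by funext k; simp only [Pi.add_apply, add_mul, sum_add_distrib]
      map_smul' := fun a z => by
        funext k; simp only [Pi.smul_apply, smul_eq_mul, RingHom.id_apply, mul_sum, mul_assoc] }
  have hrank : Fintype.card R ≤ S.card + Module.finrank (ZMod 2) (LinearMap.ker bd') := by
    have h1 := LinearMap.finrank_range_add_finrank_ker bd'
    have h2 := Submodule.finrank_le (LinearMap.range bd')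
    simp only [Module.finrank_fintype_fun_eq_card, Fintype.card_coe] at h1 h2
    omega
  have hdl : ∀ p e, dl π (ed p) e ≠ 0 → s(κ (e1 φ e), κ (e2 π e)) = col p := by
    intro p e h
    rcases Sym2.eq_iff.1 (dl_ne φ hπ h).1 with ⟨h1, h2⟩ | ⟨h1, h2⟩ <;> rw [h1, h2]
    exact Sym2.eq_swap
  have hpair : ∀ (z : R → ZMod 2) (k : K),
      ∑ x, (if κ x = k then 1 else 0) * bd φ (∑ p, z p • dl π (ed p)) x
        = ∑ p, z p * (if k ∈ col p then 1 else 0) := by
    intro z k
    simp only [map_sum, map_smul, Finset.sum_apply, Pi.smul_apply, smul_eq_mul, mul_sum]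
    rw [Finset.sum_comm]
    refine Finset.sum_congr rfl fun p _ => ?_
    rw [← pair_dl φ π κ (ed p) (hne p) k, mul_sum]
    exact Finset.sum_congr rfl fun x _ => by ring
  have hsym : ∀ (z : R → ZMod 2) (x : H), (∑ p, z p • dl π (ed p)) (Sum.inr (π x))
      = (∑ p, z p • dl π (ed p)) (Sum.inr x) := by
    intro z x
    simp only [Finset.sum_apply, Pi.smul_apply, dl_symm hπ]
  have hval : ∀ (z : R → ZMod 2) (p : R) (e : H ⊕ H), dl π (ed p) e ≠ 0 →
      (∑ p, z p • dl π (ed p)) e = z p := by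
    intro z p e h
    rw [Finset.sum_apply, Finset.sum_eq_single p (fun p' _ hp' => ?_) (by simp)]
    · rw [Pi.smul_apply, z2_eq_one h, smul_eq_mul, mul_one]
    · by_contra h'
      have : dl π (ed p') e ≠ 0 := fun h0 => h' (by simp [h0])
      exact hp' (hinj ((hdl _ _ this).symm.trans (hdl _ _ h)))
  have hself : ∀ p, dl π (ed p) (ed p) ≠ 0 := fun p => by
    rw [dl_self φ π (fun h => hne p (by rw [h]))]; exact one_ne_zero
  let rel : H ⊕ H → H ⊕ H → Prop := fun s t =>
    (∃ x, s = Sum.inl (φ x) ∧ t = Sum.inl x) ∨ (∃ x, s = Sum.inr (φ (π x)) ∧ t = Sum.inr x) ∨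
      ∃ e, (κ (e1 φ e) ≠ κ (e2 π e) ∧ ∀ p, dl π (ed p) e = 0) ∧ s = lf e ∧ t = rt π e
  have : Fintype (Quot rel) := Fintype.ofFinite _
  have hm := maclane (fun p => Quot.mk rel (lf (ed p))) (fun p => Quot.mk rel (rt π (ed p)))
    (LinearMap.ker bd') (fun z hz => ?_) (fun q hq => ?_)
  · omega
  · have hz' : ∀ k ∈ S, ∑ p, z p * (if k ∈ col p then 1 else 0) = 0 :=
      fun k hk => congrFun (LinearMap.mem_ker.1 hz) ⟨k, hk⟩
    obtain ⟨c₀, hc₀, hbd⟩ := even_mem φ κ hπ S hconn (bd φ (∑ p, z p • dl π (ed p)))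
      (fun x hx => by
        simp only [map_sum, map_smul, Finset.sum_apply, Pi.smul_apply, bd_dl, Pi.add_apply]
        refine Finset.sum_eq_zero fun p _ => ?_
        rw [Pi.single_eq_of_ne (fun h => hx (by rw [h]; exact hS1 p)),
          Pi.single_eq_of_ne (fun h => hx (by rw [h]; exact hS2 p)), add_zero, smul_zero])
      (fun k hk => by rw [hpair, hz' k hk])
    set c := c₀ + ∑ p, z p • dl π (ed p) with hc
    have hcyc : ∀ x, c (Sum.inl (φ x)) + c (Sum.inl x) = c (Sum.inr x) := by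
      intro x
      have : bd φ c x = 0 := by
        rw [hc, map_add, hbd]; exact z2_add_self _
      rw [bd_apply] at this
      exact z2_eq_of_add (by linear_combination this)
    have hcs : ∀ x, c (Sum.inr (π x)) = c (Sum.inr x) := fun x => by
      rw [hc, Pi.add_apply, Pi.add_apply, hc₀.1, hsym]
    obtain ⟨a, b, ha, hb, hab⟩ := hp (fun y => c (Sum.inl y)) (fun x => by
      simp only [hcyc, hcs])
    have hall : ∀ e, c e = Sum.elim a b (lf e) + Sum.elim a b (rt π e) := by
      rintro (y | x)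
      · exact hab y
      · have h1 := hb (π x)
        rw [hπ] at h1
        have h2 := hab (φ x)
        have h3 := hab x
        rw [← hcyc, h2, h3, ha, h1]
        simp only [lf, rt, Sum.elim_inr]
        linear_combination z2_add_self (a x)
    refine ⟨Quot.lift (Sum.elim a b) ?_, fun p => ?_⟩
    · rintro s t (⟨x, rfl, rfl⟩ | ⟨x, rfl, rfl⟩ | ⟨e, ⟨h1, h2⟩, rfl, rfl⟩)
      · exact ha x
      · exact hb x
      · refine z2_eq_of_add ?_
        rw [← hall, hc, Pi.add_apply, hc₀.2 e h1]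
        simp [Finset.sum_apply, h2]
    · show z p = Sum.elim a b (lf (ed p)) + Sum.elim a b (rt π (ed p))
      rw [← hall, hc, Pi.add_apply, hc₀.2 _ (hne p), zero_add, hval z p _ (hself p)]
  · let u : H ⊕ H → ZMod 2 := fun s => (Pi.single q 1 : Quot rel → ZMod 2) (Quot.mk rel s)
    have hu : ∀ s t, rel s t → u s = u t := fun s t h => by simp only [u, Quot.sound h]
    let c : H ⊕ H → ZMod 2 := fun e => u (lf e) + u (rt π e)
    have hcs : ∀ x, c (Sum.inr (π x)) = c (Sum.inr x) := fun x => by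
      simp only [c, lf, rt, hπ]; ring
    have hbd : bd φ c = 0 := by
      funext x
      have h1 := hu _ _ (Or.inl ⟨x, rfl, rfl⟩)
      have h2 := hu _ _ (Or.inr (Or.inl ⟨π x, rfl, rfl⟩))
      rw [hπ] at h2
      simp only [bd_apply, c, lf, rt, h1, h2, Pi.zero_apply]
      linear_combination z2_add_self (u (Sum.inl x)) + z2_add_self (u (Sum.inr x)) +
        z2_add_self (u (Sum.inr (π x)))
    have hin : c + ∑ p, c (ed p) • dl π (ed p) ∈ Ins φ π κ := by
      refine ⟨fun x => by rw [Pi.add_apply, Pi.add_apply, hcs, hsym], fun e he => ?_⟩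
      rw [Pi.add_apply]
      by_cases h : ∀ p, dl π (ed p) e = 0
      · have := hu _ _ (Or.inr (Or.inr ⟨e, ⟨he, h⟩, rfl, rfl⟩))
        simp only [c, this, z2_add_self, zero_add]
        simp [Finset.sum_apply, h]
      · push Not at h
        obtain ⟨p, hp⟩ := h
        rw [hval _ p e hp, (dl_ne φ hπ hp).2 c hcs]
        exact z2_add_self _
    refine three_le col hinj (fun p h => hne p (Sym2.mk_isDiag_iff.1 h)) (fun p => c (ed p))
      (fun _ k _ => ?_) hq
    have := pair_ins φ κ hπ hin (fun x hx => by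
      rw [Pi.add_apply]
      simp only [c, lf, rt, hx, z2_add_self, zero_add, Finset.sum_apply, Pi.smul_apply,
        dl_fix π _ x hx hπ, smul_zero, Finset.sum_const_zero]) k
    rwa [map_add, hbd, zero_add, hpair] at this

end Density

open Classical in
theorem planar_lowdeg {H K : Type} [Fintype H] [DecidableEq H] (φ π : Equiv.Perm H)
    (hπ : ∀ x, π (π x) = x) (hp : Planar φ π) (κ : H → K) (S : Finset K) (hS : S.Nonempty)
    (hconn : ∀ x y, κ x = κ y → κ x ∈ S → Relation.ReflTransGen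
      (fun a b => (b = φ a ∨ a = φ b ∨ b = π a) ∧ κ a = κ b) x y) :
    ∃ c ∈ S, (S.filter fun c' => c' ≠ c ∧
      ∃ x y, (y = φ x ∨ x = φ y ∨ y = π x) ∧ κ x = c ∧ κ y = c').card ≤ 6 := by
  by_contra hcon
  push Not at hcon
  let A : Finset (Σ _ : K, K) := S.sigma fun c => S.filter fun c' => c' ≠ c ∧
      ∃ x y, (y = φ x ∨ x = φ y ∨ y = π x) ∧ κ x = c ∧ κ y = c'
  have hA : 7 * S.card ≤ A.card := by
    rw [Finset.card_sigma, mul_comm, ← smul_eq_mul]
    exact Finset.card_nsmul_le_sum _ _ _ fun c hc => hcon c hc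
  let Rs : Finset (Sym2 K) := A.image fun a => s(a.1, a.2)
  have hR : A.card ≤ 2 * Rs.card := by
    refine Finset.card_le_mul_card_image _ _ fun b hb => ?_
    obtain ⟨⟨c, c'⟩, _, rfl⟩ := mem_image.1 hb
    refine (card_le_card (t := {⟨c, c'⟩, ⟨c', c⟩}) fun a ha => ?_).trans card_le_two
    obtain ⟨a1, a2⟩ := a
    rcases Sym2.eq_iff.1 (mem_filter.1 ha).2 with ⟨h1, h2⟩ | ⟨h1, h2⟩ <;>
      simp only at h1 h2 <;> simp [h1, h2]
  have hed : ∀ p : Rs, ∃ e : H ⊕ H, s(κ (Density.e1 φ e), κ (Density.e2 π e)) = p.1 ∧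
      κ (Density.e1 φ e) ≠ κ (Density.e2 π e) ∧ κ (Density.e1 φ e) ∈ S ∧
        κ (Density.e2 π e) ∈ S := by
    rintro ⟨_, hb⟩
    obtain ⟨⟨c, c'⟩, ha, rfl⟩ := mem_image.1 hb
    simp only [A, mem_sigma, mem_filter] at ha
    obtain ⟨h1, h2, h3, x, y, h | h | h, rfl, rfl⟩ := ha
    · exact ⟨Sum.inl y, by simp [Density.e1, Density.e2, h], by
        simpa [Density.e1, Density.e2, h] using h ▸ h3.symm, by
        simpa [Density.e1, h] using h1, h2⟩
    · exact ⟨Sum.inl x, by simp [Density.e1, Density.e2, h], by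
        simpa [Density.e1, Density.e2, h] using h ▸ h3, by
        simpa [Density.e1, h] using h2, h1⟩
    · subst h
      exact ⟨Sum.inr x, rfl, h3.symm, h1, h2⟩
  choose ed h1 h2 h3 h4 using hed
  have := Density.count φ π hπ hp κ S hconn ed
    (fun p p' h => Subtype.ext (by rw [← h1 p, ← h1 p']; exact h)) h2 h3 h4
  rw [Fintype.card_coe] at this
  have := hS.card_pos
  omega

end Vale.Agent.P201
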