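import Vale.Agent.P201.Levels

/-! A design from the projective plane of order 256 with three extra letters. -/

namespace Vale.Agent.P201

open Finset Vale.Agent.GP

namespace Design

theorem exists_plane : ∃ (P Ln : Type) (_ : Fintype P) (_ : DecidableEq P) (_ : Fintype Ln)
    (_ : DecidableEq Ln) (pts : Ln → Finset P), Fintype.card P = 65793 ∧ Fintype.card Ln = 65793 ∧
    (∀ l, (pts l).card = 257) ∧ (∀ p, (univ.filter fun l => p ∈ pts l).card = 257) ∧
    (∀ p p', p ≠ p' → (univ.filter fun l => p ∈ pts l ∧ p' ∈ pts l).card = 1) ∧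
    (∀ l l', l ≠ l' → (pts l ∩ pts l').card = 1) := by
  classical
  let K := GaloisField 2 8
  let P := Projectivization K (Fin 3 → K)
  have : Fintype P := Fintype.ofFinite P
  have hK : Nat.card K = 256 := GaloisField.card 2 8 (by norm_num)
  have hP : Fintype.card P = 65793 := by
    have h := Projectivization.card' K (Fin 3 → K)
    rw [Nat.card_fun, hK, Nat.card_eq_fintype_card (α := Fin 3), Fintype.card_fin,
      Nat.card_eq_fintype_card] at h
    change 256 ^ 3 = Fintype.card P * (256 - 1) + 1 at h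
    omega
  have ho : Configuration.ProjectivePlane.order P P = 256 := by
    have h := Configuration.ProjectivePlane.card_points P P
    rw [hP] at h
    generalize Configuration.ProjectivePlane.order P P = o at h
    rcases lt_trichotomy o 256 with h1 | h1 | h1
    · nlinarith
    · exact h1
    · nlinarith
  refine ⟨P, P, inferInstance, inferInstance, inferInstance, inferInstance,
    fun l => univ.filter fun p => p ∈ l, hP, hP, fun l => ?_, fun p => ?_, fun p p' h => ?_,
    fun l l' h => ?_⟩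
  · have h := Configuration.ProjectivePlane.pointCount_eq P l
    rw [ho, Configuration.pointCount, Nat.card_eq_fintype_card, Fintype.card_subtype] at h
    exact h
  · have h := Configuration.ProjectivePlane.lineCount_eq P p
    rw [ho, Configuration.lineCount, Nat.card_eq_fintype_card, Fintype.card_subtype] at h
    simpa using h
  · obtain ⟨l, hl, hu⟩ := Configuration.HasLines.existsUnique_line P P p p' h
    rw [Finset.card_eq_one]
    refine ⟨l, ?_⟩
    ext m
    simp only [mem_filter, mem_univ, true_and, mem_singleton]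
    exact ⟨fun hm => hu m hm, fun hm => hm ▸ hl⟩
  · obtain ⟨p, hp, hu⟩ := Configuration.HasPoints.existsUnique_point P P l l' h
    rw [Finset.card_eq_one]
    refine ⟨p, ?_⟩
    ext m
    simp only [mem_inter, mem_filter, mem_univ, true_and, mem_singleton]
    exact ⟨fun hm => hu m hm, fun hm => hm ▸ hp⟩

/-- Extra letters. -/
def isE {R : Type} : (Fin 3 ⊕ R) × Bool → Bool
  | (Sum.inl _, true) => true
  | _ => false

def iota {R P : Type} (e : P ≃ Fin 3 ⊕ (R × Bool)) : (Fin 3 ⊕ R) × Bool ≃ P ⊕ Fin 3 where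
  toFun
    | (Sum.inl i, true) => Sum.inr i
    | (Sum.inl i, false) => Sum.inl (e.symm (Sum.inl i))
    | (Sum.inr y, b) => Sum.inl (e.symm (Sum.inr (y, b)))
  invFun
    | Sum.inr i => (Sum.inl i, true)
    | Sum.inl p => Sum.elim (fun i => (Sum.inl i, false)) (fun y => (Sum.inr y.1, y.2)) (e p)
  left_inv := by
    rintro ⟨i | y, _ | _⟩ <;> simp
  right_inv := by
    rintro (p | i)
    · obtain ⟨x, rfl⟩ := e.symm.surjective p
      rcases x with i | ⟨y, b⟩ <;> simp
    · rfl

theorem isE_iota {R P : Type} (e : P ≃ Fin 3 ⊕ (R × Bool)) (t : (Fin 3 ⊕ R) × Bool) :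
    isE t = (iota e t).isRight := by
  rcases t with ⟨i | y, _ | _⟩ <;> rfl

def dd {R R' : Type} (b : Bool) : (Fin 3 × R) ⊕ R' → Finset (Fin 3)
  | Sum.inl p => if b then univ.erase p.1 else (if p.1 = 2 then ∅ else univ)
  | Sum.inr _ => ∅

theorem dd_card {R R' : Type} [Fintype R] [Fintype R'] (b : Bool) (s : Fin 3) :
    (univ.filter fun j : (Fin 3 × R) ⊕ R' => s ∈ dd b j).card = 2 * Fintype.card R := by
  rw [Finset.card_filter, Fintype.sum_sum_type, Fintype.sum_prod_type, Fin.sum_univ_three]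
  cases b <;> fin_cases s <;> simp [dd] <;> ring

theorem dd_even {R R' : Type} (j j' : (Fin 3 × R) ⊕ R') :
    Even (dd true j ∩ dd false j').card := by
  rcases j with ⟨i, x⟩ | y <;> rcases j' with ⟨i', x'⟩ | y' <;> simp only [dd]
  · by_cases h : i' = 2
    · simp [h]
    · simp [h]
  · simp
  · simp
  · simp

theorem count_prod {A B : Type} [Fintype A] [Fintype B] (N : ℕ) (b : Bool) (Q : A → Prop)
    (R : B → Prop) [DecidablePred Q] [DecidablePred R]
    (T : Bool × A × B × Fin N → Prop) [DecidablePred T]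
    (hT : ∀ v, T v ↔ v.1 = b ∧ Q v.2.1 ∧ R v.2.2.1) :
    (univ.filter T).card = (univ.filter Q).card * (univ.filter R).card * N := by
  have : univ.filter T = {b} ×ˢ (univ.filter Q ×ˢ (univ.filter R ×ˢ (univ : Finset (Fin N)))) := by
    ext ⟨c, x, y, z⟩
    simp only [mem_filter, mem_univ, true_and, hT, mem_product, mem_singleton, and_true]
  rw [this]
  simp [mul_assoc]

noncomputable def aa : ℝ := 4 / 1027

noncomputable def pt (u t : Bool) : ℝ := if u then (if t then 2 else 2 * aa) else
  (if t then 2 * aa else aa)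

noncomputable def ps (u : Bool) : ℝ := if u then -(Real.log 5 / 2) else Real.log 5 / 2

noncomputable def ph (u : Bool) : ℝ := if u then 5 else 1 / 5

theorem pt_pos (u t : Bool) : 0 < pt u t := by
  cases u <;> cases t <;> simp [pt, aa]

theorem exp_ps (u : Bool) : Real.exp (2 * ps u) = (ph u)⁻¹ := by
  cases u
  · simp only [ps, ph, Bool.false_eq_true, if_false]
    rw [show 2 * (Real.log 5 / 2) = Real.log 5 by ring, Real.exp_log (by norm_num)]; norm_num
  · simp only [ps, ph, if_true]
    rw [show 2 * -(Real.log 5 / 2) = -Real.log 5 by ring, Real.exp_neg, Real.exp_log (by norm_num)]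

theorem ker_eq (u t s : Bool) :
    Real.exp (-(2 * (ps t + ps s) + 2 * (-Real.log (pt u t) - ps u - ps t)))
      = pt u t ^ 2 * ph s * (ph u)⁻¹ := by
  rw [show -(2 * (ps t + ps s) + 2 * (-Real.log (pt u t) - ps u - ps t))
    = Real.log (pt u t) + Real.log (pt u t) + -(2 * ps s) + 2 * ps u by ring]
  rw [Real.exp_add, Real.exp_add, Real.exp_add, Real.exp_log (pt_pos u t), Real.exp_neg, exp_ps,
    exp_ps, inv_inv, sq]

theorem B_nonneg (u t : Bool) : 0 ≤ -Real.log (pt u t) - ps u - ps t := by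
  have h1 : Real.log aa + Real.log 5 ≤ 0 := by
    rw [← Real.log_mul (by simp [aa]) (by norm_num)]
    exact Real.log_nonpos (by norm_num [aa]) (by norm_num [aa])
  have h2 : Real.log (2 * aa) ≤ 0 :=
    Real.log_nonpos (by norm_num [aa]) (by norm_num [aa])
  have h3 : Real.log 2 ≤ Real.log 5 := Real.log_le_log (by norm_num) (by norm_num)
  cases u <;> cases t <;> simp only [pt, ps, Bool.false_eq_true, if_false, if_true] <;> linarith

theorem exp_lower (u t : Bool) : pt u t * (1 - 1 / 2000) ≤
    Real.exp (-((-Real.log (pt u t) - ps u - ps t) + ps u + ps t + 2 * (1 / 4000))) := by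
  rw [show -((-Real.log (pt u t) - ps u - ps t) + ps u + ps t + 2 * (1 / 4000 : ℝ))
    = Real.log (pt u t) + -(1 / 2000) by ring, Real.exp_add, Real.exp_log (pt_pos u t)]
  refine mul_le_mul_of_nonneg_left ?_ (pt_pos u t).le
  have := Real.add_one_le_exp (-(1 / 2000 : ℝ))
  linarith

theorem aux {R R₁ R₂ : Type} [Fintype R] [DecidableEq R] [Fintype R₁] [DecidableEq R₁]
    [Fintype R₂] [DecidableEq R₂] (hR : Fintype.card R = 32895) (hR₁ : Fintype.card R₁ = 257)
    (hR₂ : Fintype.card R₂ = 130815) :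
    ∃ (k n₀ c₀ : ℕ)
    (ψ : (Fin 3 ⊕ R) × Bool → ℝ) (B : (Fin 3 ⊕ R) × Bool → (Fin 3 ⊕ R) × Bool → ℝ) (η : ℝ),
    0 < η ∧ 0 < n₀ ∧
    (∀ t, 0 ≤ ψ t + ψ (sg t)) ∧ (∀ u t, 0 ≤ B u t) ∧ (∀ u t, B u t = B t u) ∧
    (∀ u, ∑ t, Real.exp (-(2 * (ψ t + ψ (sg t)) + 2 * B u t)) ≤ 1) ∧
    ∀ N : ℕ, ∃ (V : Type) (_ : Fintype V) (_ : DecidableEq V) (part : V → Bool)
      (L : V → Finset ((Fin 3 ⊕ R) × Bool)), Fintype.card V = c₀ * N ∧ (∀ v, (L v).card ≤ k) ∧
      (∀ b s, (univ.filter fun v => part v = b ∧ s ∈ L v).card = n₀ * N) ∧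
      (∀ b u t, u ≠ t → ((univ.filter fun v => part v = b ∧ u ∈ L v ∧ t ∈ L v).card : ℝ) ≤
        Real.exp (-(B u t + ψ u + ψ t + 2 * η)) * (n₀ * N)) ∧
      (∀ v v', part v = true → part v' = false → Odd (L v ∩ L v').card) := by
  obtain ⟨P, Ln, _, _, _, _, pts, hP, hL, h1, h2, h3, h4⟩ := exists_plane
  have e : P ≃ Fin 3 ⊕ (R × Bool) := Fintype.equivOfCardEq (by simp [hP, hR])
  have hJ : Fintype.card ((Fin 3 × R₁) ⊕ R₂) = 131586 := by simp [hR₁, hR₂]
  have hlog : 0 ≤ Real.log 5 := Real.log_nonneg (by norm_num)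
  refine ⟨Fintype.card ((Fin 3 ⊕ R) × Bool), 257 * 131586, 2 * 65793 * 131586,
    fun t => ps (isE t), fun u t => -Real.log (pt (isE u) (isE t)) - ps (isE u) - ps (isE t),
    1 / 4000, by norm_num, by norm_num, ?_, fun u t => B_nonneg _ _, ?_, ?_, fun N => ?_⟩
  · rintro ⟨i | y, _ | _⟩ <;> simp [ps, isE, sg, hlog]
  · intro u t
    have : pt (isE u) (isE t) = pt (isE t) (isE u) := by
      cases isE u <;> cases isE t <;> rfl
    simp only [this]; ring
  · intro u
    simp only [ker_eq]
    rw [Fintype.sum_prod_type, Fintype.sum_sum_type]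
    cases isE u <;> simp [isE, sg, hR, pt, ph, aa] <;> norm_num
  · let L : Bool × Ln × ((Fin 3 × R₁) ⊕ R₂) × Fin N → Finset ((Fin 3 ⊕ R) × Bool) :=
      fun v => ((pts v.2.1).disjSum (dd v.1 v.2.2.1)).map (iota e).symm.toEmbedding
    have hmem : ∀ v s, s ∈ L v ↔ iota e s ∈ (pts v.2.1).disjSum (dd v.1 v.2.2.1) := by
      intro v s
      simp [L]
    have hN : (0 : ℝ) ≤ N := Nat.cast_nonneg N
    have hs : ∀ b s, (univ.filter fun v => v.1 = b ∧ s ∈ L v).card = 257 * 131586 * N := by
      intro b s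
      rcases h : iota e s with p | i
      · rw [count_prod N b (fun l => p ∈ pts l) (fun _ => True) _ (fun v => by simp [hmem, h])]
        simp [h2, hJ]
      · rw [count_prod N b (fun _ => True) (fun j => i ∈ dd b j) _ (fun v => by
          simp only [hmem, h, inr_mem_disjSum, true_and]
          exact and_congr_right fun hb => by rw [hb])]
        rw [dd_card, hR₁]
        simp [hL]
    refine ⟨Bool × Ln × ((Fin 3 × R₁) ⊕ R₂) × Fin N, inferInstance, inferInstance, fun v => v.1, L,
      ?_, fun v => Finset.card_le_univ _, hs, fun b u t hut => ?_, fun v v' hv hv' => ?_⟩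
    · simp only [Fintype.card_prod, hJ, hL, Fintype.card_bool, Fintype.card_fin]; ring
    · refine le_trans ?_ (mul_le_mul_of_nonneg_right (exp_lower (isE u) (isE t)) (by positivity))
      rw [isE_iota e, isE_iota e]
      rcases hu : iota e u with p | i <;> rcases ht : iota e t with p' | i'
      · have hne : p ≠ p' := fun h => hut ((iota e).injective (by rw [hu, ht, h]))
        rw [count_prod N b (fun l => p ∈ pts l ∧ p' ∈ pts l) (fun _ => True) _
          (fun v => by simp [hmem, hu, ht]), h3 p p' hne]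
        simp [hJ, pt, aa]
        nlinarith
      · rw [count_prod N b (fun l => p ∈ pts l) (fun j => i' ∈ dd b j) _ (fun v => by
          simp only [hmem, hu, ht, inr_mem_disjSum, inl_mem_disjSum]
          exact and_congr_right fun hb => by rw [hb]), h2, dd_card, hR₁]
        simp [pt, aa]
        nlinarith
      · rw [count_prod N b (fun l => p' ∈ pts l) (fun j => i ∈ dd b j) _ (fun v => by
          simp only [hmem, hu, ht, inr_mem_disjSum, inl_mem_disjSum]
          exact and_congr_right fun hb => by rw [hb, and_comm]), h2, dd_card, hR₁]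
        simp [pt, aa]
        nlinarith
      · have : (univ.filter fun v => v.1 = b ∧ u ∈ L v ∧ t ∈ L v).card ≤ 257 * 131586 * N := by
          rw [← hs b u]
          exact Finset.card_le_card fun v hv => by
            simp only [mem_filter, mem_univ, true_and] at hv ⊢
            exact ⟨hv.1, hv.2.1⟩
        have : ((univ.filter fun v => v.1 = b ∧ u ∈ L v ∧ t ∈ L v).card : ℝ)
            ≤ 257 * 131586 * N := by exact_mod_cast this
        simp only [Sum.isRight_inr, pt, if_true]
        push_cast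
        nlinarith
    · have : L v ∩ L v' = ((pts v.2.1 ∩ pts v'.2.1).disjSum
          (dd true v.2.2.1 ∩ dd false v'.2.2.1)).map (iota e).symm.toEmbedding := by
        ext s
        simp only at hv hv'
        rw [mem_inter, hmem, hmem, hv, hv']
        rcases h : iota e s with p | i <;> simp [h]
      rw [this, card_map, card_disjSum]
      refine Odd.add_even ?_ (dd_even _ _)
      by_cases h : v.2.1 = v'.2.1
      · rw [h, inter_self, h1]; decide
      · rw [h4 _ _ h]; exact odd_one

end Design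

theorem exists_design : ∃ (Y : Type) (_ : Fintype Y) (_ : DecidableEq Y) (k n₀ c₀ : ℕ)
    (ψ : Y × Bool → ℝ) (B : Y × Bool → Y × Bool → ℝ) (η : ℝ), 0 < η ∧ 0 < n₀ ∧
    (∀ t, 0 ≤ ψ t + ψ (sg t)) ∧ (∀ u t, 0 ≤ B u t) ∧ (∀ u t, B u t = B t u) ∧
    (∀ u, ∑ t, Real.exp (-(2 * (ψ t + ψ (sg t)) + 2 * B u t)) ≤ 1) ∧
    ∀ N : ℕ, ∃ (V : Type) (_ : Fintype V) (_ : DecidableEq V) (part : V → Bool)
      (L : V → Finset (Y × Bool)), Fintype.card V = c₀ * N ∧ (∀ v, (L v).card ≤ k) ∧
      (∀ b s, (univ.filter fun v => part v = b ∧ s ∈ L v).card = n₀ * N) ∧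
      (∀ b u t, u ≠ t → ((univ.filter fun v => part v = b ∧ u ∈ L v ∧ t ∈ L v).card : ℝ) ≤
        Real.exp (-(B u t + ψ u + ψ t + 2 * η)) * (n₀ * N)) ∧
      (∀ v v', part v = true → part v' = false → Odd (L v ∩ L v').card) :=
  ⟨Fin 3 ⊕ Fin 32895, inferInstance, inferInstance,
    Design.aux (R₁ := Fin 257) (R₂ := Fin 130815) (Fintype.card_fin _) (Fintype.card_fin _)
      (Fintype.card_fin _)⟩

end Vale.Agent.P201
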