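import Vale.Agent.P201.Levels

/-! A switching ensemble of labelled graphs with large girth. -/

namespace Vale.Agent.P201

open Finset Vale.Agent.GP

set_option linter.unusedSectionVars false

namespace Ensemble

variable {Y V : Type} [Fintype Y] [DecidableEq Y] [Fintype V] [DecidableEq V]
  {part : V → Bool} {L : V → Finset (Y × Bool)}

variable (L) in
abbrev Dart := {p : V × (Y × Bool) // p.2 ∈ L p.1}

def src (d : Dart L) : V := d.1.1
def lab (d : Dart L) : Y × Bool := d.1.2

theorem dart_ext {x y : Dart L} (h1 : src x = src y) (h2 : lab x = lab y) : x = y :=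
  Subtype.ext (Prod.ext h1 h2)

variable (part) in
structure Valid (r : Dart L → Dart L) : Prop where
  inv : ∀ d, r (r d) = d
  lb : ∀ d, lab (r d) = sg (lab d)
  pt : ∀ d, part (src (r d)) = part (src d)

def Ed (r : Dart L → Dart L) (v : V) (s : Y × Bool) (w : V) : Prop :=
  ∃ h : s ∈ L v, src (r ⟨(v, s), h⟩) = w

def DG (r : Dart L → Dart L) (g : ℕ) : Prop :=
  ∀ (p : ℕ) (a : ℕ → V) (δ : ℕ → Dart L), 0 < p → p ≤ g →
    (∀ i, i < p → src (δ i) = a i ∧ src (r (δ i)) = a (i + 1)) →
    (∀ i, i + 1 < p → δ (i + 1) ≠ r (δ i)) → a p ≠ a 0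

theorem good_of {r : Dart L → Dart L} {g : ℕ} (hv : Valid part r) (hg : DG r g) :
    Good part L g (Ed r) := by
  refine ⟨⟨?_, ?_⟩, ?_, ?_, ?_⟩
  · rintro v s w ⟨h, rfl⟩
    have h1 : sg s ∈ L (src (r ⟨(v, s), h⟩)) := by
      have := (r ⟨(v, s), h⟩).2
      have h2 := hv.lb ⟨(v, s), h⟩
      simp only [lab] at h2
      rwa [h2] at this
    refine ⟨h1, ?_⟩
    have : (⟨(src (r ⟨(v, s), h⟩), sg s), h1⟩ : Dart L) = r ⟨(v, s), h⟩ :=
      dart_ext rfl (by exact (hv.lb ⟨(v, s), h⟩).symm)
    rw [this, hv.inv]; rfl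
  · rintro v s w w' ⟨h, rfl⟩ ⟨h', rfl⟩; rfl
  · exact fun v s => ⟨fun h => ⟨_, h, rfl⟩, fun ⟨_, h, _⟩ => h⟩
  · rintro v s w ⟨h, rfl⟩
    exact (hv.pt ⟨(v, s), h⟩).symm
  · intro p a l hp hpg he hr
    let δ : ℕ → Dart L := fun i =>
      if h : i < p then ⟨(a i, l i), (he i h).1⟩ else ⟨(a 0, l 0), (he 0 hp).1⟩
    refine hg p a δ hp hpg (fun i hi => ?_) (fun i hi h => hr i hi ?_)
    · simp only [δ, dif_pos hi]
      exact ⟨rfl, (he i hi).2⟩
    · have h1 := congrArg lab h
      rw [hv.lb] at h1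
      simpa only [δ, dif_pos hi, dif_pos (show i < p by omega), lab] using h1

def Reach (r : Dart L → Dart L) : ℕ → V → V → Prop
  | 0, x, y => y = x
  | m + 1, x, y => Reach r m x y ∨ ∃ d, Reach r m x (src d) ∧ y = src (r d)

theorem Reach.refl (r : Dart L → Dart L) (m : ℕ) (x : V) : Reach r m x x := by
  induction m with
  | zero => rfl
  | succ m ih => exact Or.inl ih

theorem Reach.mono {r : Dart L → Dart L} {m m' : ℕ} {x y : V} (h : Reach r m x y) (hm : m ≤ m') :
    Reach r m' x y := by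
  induction hm with
  | refl => exact h
  | step _ ih => exact Or.inl ih

theorem Reach.trans {r : Dart L → Dart L} {m m' : ℕ} {x y z : V} (h : Reach r m x y)
    (h' : Reach r m' y z) : Reach r (m + m') x z := by
  induction m' generalizing z with
  | zero => rw [show z = y from h']; exact h
  | succ m' ih =>
    rcases h' with h' | ⟨d, h', rfl⟩
    · exact Or.inl (ih h')
    · exact Or.inr ⟨d, ih h', rfl⟩

theorem Reach.symm {r : Dart L → Dart L} (hv : Valid part r) {m : ℕ} {x y : V}
    (h : Reach r m x y) : Reach r m y x := by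
  induction m generalizing y with
  | zero => exact (show y = x from h).symm
  | succ m ih =>
    rcases h with h | ⟨d, h, rfl⟩
    · exact Or.inl (ih h)
    · have h1 : Reach r 1 (src (r d)) (src d) := Or.inr ⟨r d, rfl, by rw [hv.inv]⟩
      rw [add_comm]
      exact h1.trans (ih h)

open Classical in
theorem card_reach {k : ℕ} (hk : ∀ v, (L v).card ≤ k) (r : Dart L → Dart L) (m : ℕ) (x : V) :
    (univ.filter (Reach r m x)).card ≤ (k + 1) ^ m := by
  induction m with
  | zero =>
    refine (card_le_card (t := {x}) fun y hy => ?_).trans (by simp)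
    exact mem_singleton.2 (mem_filter.1 hy).2
  | succ m ih =>
    refine (card_le_card (t := (univ.filter (Reach r m x)).biUnion fun v =>
      insert v ((univ.filter fun d : Dart L => src d = v).image fun d => src (r d)))
      fun y hy => ?_).trans ?_
    · rcases (mem_filter.1 hy).2 with h | ⟨d, h, rfl⟩
      · exact mem_biUnion.2 ⟨y, mem_filter.2 ⟨mem_univ _, h⟩, mem_insert_self _ _⟩
      · exact mem_biUnion.2 ⟨src d, mem_filter.2 ⟨mem_univ _, h⟩,
          mem_insert_of_mem (mem_image.2 ⟨d, mem_filter.2 ⟨mem_univ _, rfl⟩, rfl⟩)⟩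
    · refine (card_biUnion_le_card_mul _ _ (k + 1) fun v _ => ?_).trans ?_
      · refine (card_insert_le _ _).trans (Nat.succ_le_succ (card_image_le.trans ?_))
        refine le_trans (card_le_card_of_injOn lab (fun d hd => ?_) fun d hd d' hd' h => ?_) (hk v)
        · have := (mem_filter.1 (mem_coe.1 hd)).2
          rw [← this]; exact d.2
        · exact dart_ext ((mem_filter.1 (mem_coe.1 hd)).2.trans
            (mem_filter.1 (mem_coe.1 hd')).2.symm) h
      · rw [pow_succ]; exact Nat.mul_le_mul_right _ ih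

/-- The switched pairing. -/
def sw (r : Dart L → Dart L) (d c : Dart L) : Dart L → Dart L :=
  fun x => Equiv.swap d c (r (Equiv.swap d c x))

variable (part) in
/-- `c` is a legal switching partner of `d`. -/
structure Far (r : Dart L → Dart L) (g : ℕ) (d c : Dart L) : Prop where
  pt : part (src c) = part (src d)
  lb : lab c = lab d
  far : ∀ x y, (x = d ∨ x = r d) → (y = c ∨ y = r c) → ¬ Reach r g (src x) (src y)

section switch

variable {r : Dart L → Dart L} {g : ℕ} {d c : Dart L}

theorem sw_valid (hv : Valid part r) (hf : Far part r g d c) : Valid part (sw r d c) := by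
  have h1 : ∀ x, lab (Equiv.swap d c x) = lab x := fun x =>
    Equiv.apply_swap_eq_self (v := lab) hf.lb.symm x
  have h2 : ∀ x, part (src (Equiv.swap d c x)) = part (src x) := fun x =>
    Equiv.apply_swap_eq_self (v := fun x => part (src x)) hf.pt.symm x
  refine ⟨fun x => by simp [sw, hv.inv], fun x => by rw [sw, h1, hv.lb, h1],
    fun x => by rw [sw, h2, hv.pt, h2]⟩

theorem r_ne (hv : Valid part r) {x y : Dart L} (h : lab x = lab y) : r x ≠ y := by
  intro h'
  have := hv.lb x
  rw [h', ← h] at this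
  exact sg_ne _ this.symm

theorem sw_d (hv : Valid part r) (hf : Far part r g d c) : sw r d c d = r c := by
  rw [sw, Equiv.swap_apply_left, Equiv.swap_apply_of_ne_of_ne (r_ne hv hf.lb) (r_ne hv rfl)]

theorem sw_c (hv : Valid part r) (hf : Far part r g d c) : sw r d c c = r d := by
  rw [sw, Equiv.swap_apply_right, Equiv.swap_apply_of_ne_of_ne (r_ne hv rfl) (r_ne hv hf.lb.symm)]

theorem sw_rd (hv : Valid part r) (hf : Far part r g d c) : sw r d c (r d) = c := by
  rw [← sw_c hv hf, (sw_valid hv hf).inv]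

theorem sw_rc (hv : Valid part r) (hf : Far part r g d c) : sw r d c (r c) = d := by
  rw [← sw_d hv hf, (sw_valid hv hf).inv]

def side (r : Dart L → Dart L) (d c : Dart L) : Bool → Dart L → Prop
  | true, x => x = d ∨ x = r d
  | false, x => x = c ∨ x = r c

theorem sw_other (hv : Valid part r) {x : Dart L} (hx : ¬ ∃ b, side r d c b x) :
    sw r d c x = r x := by
  have h1 : x ≠ d := fun h => hx ⟨true, Or.inl h⟩
  have h2 : x ≠ c := fun h => hx ⟨false, Or.inl h⟩
  have h3 : r x ≠ d := fun h => hx ⟨true, Or.inr (by rw [← h, hv.inv])⟩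
  have h4 : r x ≠ c := fun h => hx ⟨false, Or.inr (by rw [← h, hv.inv])⟩
  rw [sw, Equiv.swap_apply_of_ne_of_ne h1 h2, Equiv.swap_apply_of_ne_of_ne h3 h4]

theorem side_cross (hv : Valid part r) (hf : Far part r g d c) {b : Bool} {x : Dart L}
    (h : side r d c b x) : side r d c (!b) (sw r d c x) := by
  cases b <;> rcases h with rfl | rfl
  · exact Or.inr (sw_c hv hf)
  · exact Or.inl (sw_rc hv hf)
  · exact Or.inr (sw_d hv hf)
  · exact Or.inl (sw_rd hv hf)

theorem side_far (hv : Valid part r) (hf : Far part r g d c) {b : Bool} {x y : Dart L}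
    (hx : side r d c b x) (hy : side r d c (!b) y) : ¬ Reach r g (src x) (src y) := by
  cases b
  · exact fun h => hf.far y x hy hx (h.symm hv)
  · exact hf.far x y hx hy

theorem side_same (hv : Valid part r) {b : Bool} {x y : Dart L}
    (hx : side r d c b x) (hy : side r d c b y) : y = x ∨ y = r x := by
  cases b <;> rcases hx with rfl | rfl <;> rcases hy with rfl | rfl <;> simp [hv.inv]

theorem key (hv : Valid part r) (hg : DG r g) (hf : Far part r g d c) (p : ℕ) (a : ℕ → V)
    (δ : ℕ → Dart L) (hp : p ≤ g + 1)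
    (h1 : ∀ i, i < p → src (δ i) = a i ∧ src (sw r d c (δ i)) = a (i + 1))
    (h2 : ∀ i, i + 1 < p → δ (i + 1) ≠ sw r d c (δ i)) (h3 : a p = a 0) :
    ∀ i, i < p → ¬ ∃ b, side r d c b (δ i) := by
  classical
  by_contra hcon
  push Not at hcon
  have hreach : ∀ u v, u ≤ v → v ≤ p → (∀ i, u ≤ i → i < v → ¬ ∃ b, side r d c b (δ i)) →
      Reach r (v - u) (a u) (a v) := by
    intro u v huv
    induction huv with
    | refl => intro _ _; exact Reach.refl _ _ _
    | @step v huv ih =>
      intro hv' hs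
      have huv' : u ≤ v := huv
      have := ih (by omega) fun i h h' => hs i h (by omega)
      rw [show v.succ - u = (v - u) + 1 by omega]
      refine Or.inr ⟨δ v, by rwa [(h1 v (by omega)).1], ?_⟩
      rw [← sw_other hv (hs v huv' (by omega)), (h1 v (by omega)).2]
  obtain ⟨hi₁, b, hb⟩ := Nat.find_spec hcon
  have hmin : ∀ i, i < Nat.find hcon → ¬ ∃ b, side r d c b (δ i) :=
    fun i hi h => Nat.find_min hcon hi ⟨by omega, h⟩
  generalize Nat.find hcon = i₁ at hi₁ hb hmin
  have hz := side_cross hv hf hb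
  by_cases hex : ∃ j, i₁ < j ∧ j < p ∧ ∃ b, side r d c b (δ j)
  · obtain ⟨hj1, hj2, b', hb'⟩ := Nat.find_spec hex
    have hmin' : ∀ i, i₁ < i → i < Nat.find hex → ¬ ∃ b, side r d c b (δ i) :=
      fun i hi hi' h => Nat.find_min hex hi' ⟨hi, by omega, h⟩
    generalize Nat.find hex = i₂ at hj1 hj2 hb' hmin'
    by_cases hbb : b' = !b
    · subst hbb
      rcases side_same hv hz hb' with h | h
      · by_cases h12 : i₂ = i₁ + 1
        · subst h12; exact h2 i₁ hj2 h
        · refine hg (i₂ - (i₁ + 1)) (fun i => a (i₁ + 1 + i)) (fun i => δ (i₁ + 1 + i))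
            (by omega) (by omega) (fun i hi => ?_) (fun i hi => ?_) ?_
          · rw [← sw_other hv (hmin' (i₁ + 1 + i) (by omega) (by omega))]
            exact h1 _ (by omega)
          · rw [← sw_other hv (hmin' (i₁ + 1 + i) (by omega) (by omega))]
            exact h2 (i₁ + 1 + i) (by omega)
          · simp only [add_zero]
            rw [show i₁ + 1 + (i₂ - (i₁ + 1)) = i₂ by omega, ← (h1 i₂ hj2).1, h, (h1 i₁ hi₁).2]
      · refine hg (i₂ - i₁) (fun i => if i₁ + 1 + i ≤ i₂ then a (i₁ + 1 + i) else a (i₁ + 1))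
          (fun i => δ (i₁ + 1 + i)) (by omega) (by omega) (fun i hi => ?_) (fun i hi => ?_) ?_
        · rw [if_pos (by omega)]
          refine ⟨(h1 _ (by omega)).1, ?_⟩
          by_cases hl : i₁ + 1 + (i + 1) ≤ i₂
          · rw [if_pos hl, ← sw_other hv (hmin' (i₁ + 1 + i) (by omega) (by omega))]
            exact (h1 _ (by omega)).2
          · rw [if_neg hl, show i₁ + 1 + i = i₂ by omega, h, hv.inv, (h1 i₁ hi₁).2]
        · rw [← sw_other hv (hmin' (i₁ + 1 + i) (by omega) (by omega))]
          exact h2 (i₁ + 1 + i) (by omega)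
        · simp only [add_zero]
          rw [if_neg (by omega), if_pos (by omega)]
    · have hbb' : b' = !(!b) := by cases b <;> cases b' <;> simp_all
      subst hbb'
      refine side_far hv hf hz hb' ?_
      rw [(h1 i₁ hi₁).2, (h1 i₂ hj2).1]
      exact (hreach (i₁ + 1) i₂ hj1 hj2.le fun i h h' => hmin' i h h').mono (by omega)
  · refine side_far hv hf hz (by rwa [Bool.not_not]) ?_
    rw [(h1 i₁ hi₁).2, (h1 i₁ hi₁).1]
    have e1 := hreach (i₁ + 1) p hi₁ le_rfl fun i h h' h'' => hex ⟨i, h, h', h''⟩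
    have e2 := hreach 0 i₁ (Nat.zero_le _) hi₁.le fun i _ h' => hmin i h'
    rw [h3] at e1
    exact (e1.trans e2).mono (by omega)

theorem sw_DG (hv : Valid part r) (hg : DG r g) (hf : Far part r g d c) : DG (sw r d c) g := by
  intro p a δ hp hpg h1 h2 h3
  have hk := key hv hg hf p a δ (by omega) h1 h2 h3
  refine hg p a δ hp hpg (fun i hi => ?_) (fun i hi => ?_) h3
  · rw [← sw_other hv (hk i hi)]; exact h1 i hi
  · rw [← sw_other hv (hk i (by omega))]; exact h2 i hi

end switch

theorem card_class {n : ℕ} (hn : ∀ b s, (univ.filter fun v => part v = b ∧ s ∈ L v).card = n)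
    (b : Bool) (s : Y × Bool) :
    (univ.filter fun c : Dart L => part (src c) = b ∧ lab c = s).card = n := by
  rw [← hn b s]
  refine card_bij (fun c _ => src c) (fun c hc => ?_) (fun c hc c' hc' h => ?_) (fun v hv => ?_)
  · obtain ⟨h1, h2⟩ := (mem_filter.1 hc).2
    exact mem_filter.2 ⟨mem_univ _, h1, h2 ▸ c.2⟩
  · exact dart_ext h ((mem_filter.1 hc).2.2.trans (mem_filter.1 hc').2.2.symm)
  · obtain ⟨h1, h2⟩ := (mem_filter.1 hv).2
    exact ⟨⟨(v, s), h2⟩, mem_filter.2 ⟨mem_univ _, h1, rfl⟩, rfl⟩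

open Classical in
theorem card_far {k n : ℕ} (hk : ∀ v, (L v).card ≤ k)
    (hn : ∀ b s, (univ.filter fun v => part v = b ∧ s ∈ L v).card = n)
    {r : Dart L → Dart L} (hv : Valid part r) (g : ℕ) (d : Dart L) :
    n ≤ (univ.filter fun c => Far part r g d c).card + 4 * (k + 1) ^ g := by
  let B : Finset V := univ.filter (Reach r g (src d)) ∪ univ.filter (Reach r g (src (r d)))
  have hB : B.card ≤ 2 * (k + 1) ^ g := by
    refine (card_union_le _ _).trans ?_
    have h1 := card_reach hk r g (src d)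
    have h2 := card_reach hk r g (src (r d))
    omega
  let B1 : Finset (Dart L) := univ.filter fun c => lab c = lab d ∧ src c ∈ B
  let B2 : Finset (Dart L) := univ.filter fun c => lab c = lab d ∧ src (r c) ∈ B
  have h1 : B1.card ≤ B.card :=
    card_le_card_of_injOn src (fun c hc => (mem_filter.1 (mem_coe.1 hc)).2.2)
      fun c hc c' hc' h => dart_ext h
        ((mem_filter.1 (mem_coe.1 hc)).2.1.trans (mem_filter.1 (mem_coe.1 hc')).2.1.symm)
  have h2 : B2.card ≤ B.card :=
    card_le_card_of_injOn (fun c => src (r c)) (fun c hc => (mem_filter.1 (mem_coe.1 hc)).2.2)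
      fun c hc c' hc' h => by
        have : r c = r c' := dart_ext h (by
          rw [hv.lb, hv.lb, (mem_filter.1 (mem_coe.1 hc)).2.1, (mem_filter.1 (mem_coe.1 hc')).2.1])
        rw [← hv.inv c, this, hv.inv]
  have h3 : (univ.filter fun c : Dart L => part (src c) = part (src d) ∧ lab c = lab d) ⊆
      (univ.filter fun c => Far part r g d c) ∪ (B1 ∪ B2) := by
    intro c hc
    obtain ⟨a1, a2⟩ := (mem_filter.1 hc).2
    by_contra h
    simp only [mem_union, mem_filter, mem_univ, true_and, not_or, B1, B2, B, a2] at h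
    refine h.1 ⟨a1, a2, ?_⟩
    rintro x y (rfl | rfl) (rfl | rfl)
    · exact h.2.1.1
    · exact h.2.2.1
    · exact h.2.1.2
    · exact h.2.2.2
  have h4 := card_le_card h3
  rw [card_class hn] at h4
  have h5 := card_union_le (univ.filter fun c => Far part r g d c) (B1 ∪ B2)
  have h6 := card_union_le B1 B2
  omega

theorem exists_valid {n : ℕ}
    (hn : ∀ b s, (univ.filter fun v => part v = b ∧ s ∈ L v).card = n) :
    ∃ r : Dart L → Dart L, Valid part r := by
  have e : ∀ b s, {c : Dart L // part (src c) = b ∧ lab c = s} ≃ Fin n := fun b s =>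
    Fintype.equivFinOfCardEq (by rw [Fintype.card_subtype]; exact card_class hn b s)
  let idx : Dart L → Fin n := fun x => e _ _ ⟨x, rfl, rfl⟩
  have hidx : ∀ b s (x : {c : Dart L // part (src c) = b ∧ lab c = s}), idx x.1 = e b s x := by
    rintro b s ⟨x, rfl, rfl⟩; rfl
  refine ⟨fun x => ((e (part (src x)) (sg (lab x))).symm (idx x)).1, fun x => ?_,
    fun x => ((e _ _).symm (idx x)).2.2, fun x => ((e _ _).symm (idx x)).2.1⟩
  have h0 : ∀ b s i, part (src x) = b → lab x = s → idx x = i → ((e b s).symm i).1 = x := by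
    rintro b s i rfl rfl rfl
    simp [idx]
  refine h0 _ _ _ ((e _ _).symm (idx x)).2.1.symm ?_ ?_
  · rw [((e (part (src x)) (sg (lab x))).symm (idx x)).2.2, sg_sg]
  · rw [hidx]; simp

/-- Closed reduced paths with `g + 1` darts. -/
def CP (r : Dart L → Dart L) (g : ℕ) (δ : Fin (g + 1) → Dart L) : Prop :=
  (∀ i, i < g + 1 → src (r (δ (Fin.ofNat _ i))) = src (δ (Fin.ofNat _ (i + 1)))) ∧
    ∀ i, i + 1 < g + 1 → δ (Fin.ofNat _ (i + 1)) ≠ r (δ (Fin.ofNat _ i))

open Classical in
theorem improve {k n : ℕ} (hk : ∀ v, (L v).card ≤ k)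
    (hn : ∀ b s, (univ.filter fun v => part v = b ∧ s ∈ L v).card = n) (g : ℕ)
    (hroom : 4 * (k + 1) ^ g < n) (N : ℕ) : ∀ r : Dart L → Dart L, Valid part r → DG r g →
      (univ.filter (CP r g)).card ≤ N → ∃ r' : Dart L → Dart L, Valid part r' ∧ DG r' (g + 1) := by
  have base : ∀ r : Dart L → Dart L, DG r g → (∀ δ, ¬ CP r g δ) → DG r (g + 1) := by
    intro r hg h0 p a δ hp hpg h1 h2 h3
    by_cases hp' : p ≤ g
    · exact hg p a δ hp hp' h1 h2 h3
    · obtain rfl : p = g + 1 := by omega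
      refine h0 (fun i => δ i) ⟨fun i hi => ?_, fun i hi => ?_⟩
      · simp only [Fin.val_ofNat, Nat.mod_eq_of_lt hi]
        rw [(h1 i hi).2]
        by_cases hi' : i + 1 < g + 1
        · rw [Nat.mod_eq_of_lt hi', (h1 _ hi').1]
        · obtain rfl : i = g := by omega
          rw [Nat.mod_self, (h1 0 hp).1, h3]
      · simp only [Fin.val_ofNat, Nat.mod_eq_of_lt hi, Nat.mod_eq_of_lt (show i < g + 1 by omega)]
        exact h2 i hi
  induction N with
  | zero =>
    intro r hv hg h
    refine ⟨r, hv, base r hg fun δ hδ => ?_⟩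
    have : δ ∈ univ.filter (CP r g) := mem_filter.2 ⟨mem_univ _, hδ⟩
    rw [card_eq_zero.1 (Nat.le_zero.1 h)] at this
    simp at this
  | succ N ih =>
    intro r hv hg h
    by_cases h0 : ∀ δ, ¬ CP r g δ
    · exact ⟨r, hv, base r hg h0⟩
    push Not at h0
    obtain ⟨δ₀, hδ₀⟩ := h0
    have h1 := card_far hk hn hv g (δ₀ 0)
    obtain ⟨c, hc⟩ : (univ.filter fun c => Far part r g (δ₀ 0) c).Nonempty :=
      card_pos.1 (by omega)
    have hf := (mem_filter.1 hc).2
    have hk' : ∀ δ, CP (sw r (δ₀ 0) c) g δ → ∀ i, i < g + 1 →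
        ¬ ∃ b, side r (δ₀ 0) c b (δ (Fin.ofNat _ i)) := fun δ hδ =>
      key hv hg hf (g + 1) (fun i => src (δ (Fin.ofNat _ i))) (fun i => δ (Fin.ofNat _ i)) le_rfl
        (fun i hi => ⟨rfl, hδ.1 i hi⟩) hδ.2 (by
          congr 2
          ext; simp)
    refine ih _ (sw_valid hv hf) (sw_DG hv hg hf) (Nat.le_of_lt_succ (lt_of_lt_of_le
      (card_lt_card ⟨fun δ hδ => ?_, fun hsub => ?_⟩) h))
    · have hδ' := (mem_filter.1 hδ).2
      refine mem_filter.2 ⟨mem_univ _, fun i hi => ?_, fun i hi => ?_⟩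
      · rw [← sw_other hv (hk' δ hδ' i hi)]; exact hδ'.1 i hi
      · rw [← sw_other hv (hk' δ hδ' i (by omega))]; exact hδ'.2 i hi
    · exact hk' δ₀ (mem_filter.1 (hsub (mem_filter.2 ⟨mem_univ _, hδ₀⟩))).2 0 (by omega)
        ⟨true, Or.inl rfl⟩

theorem exists_DG {k n : ℕ} (hk : ∀ v, (L v).card ≤ k)
    (hn : ∀ b s, (univ.filter fun v => part v = b ∧ s ∈ L v).card = n) (g : ℕ)
    (hroom : 4 * (k + 1) ^ g < n) : ∃ r : Dart L → Dart L, Valid part r ∧ DG r g := by
  induction g with
  | zero =>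
    obtain ⟨r, hr⟩ := exists_valid (part := part) hn
    exact ⟨r, hr, fun p _ _ h1 h2 => by omega⟩
  | succ g ih =>
    have h1 : 4 * (k + 1) ^ g < n :=
      lt_of_le_of_lt (Nat.mul_le_mul_left _ (Nat.pow_le_pow_right (by omega) (by omega))) hroom
    obtain ⟨r, hv, hg⟩ := ih h1
    exact improve hk hn g h1 _ r hv hg le_rfl

open Classical in
theorem ext_step {k n g n' : ℕ} (hk : ∀ v, (L v).card ≤ k)
    (hn : ∀ b s, (univ.filter fun v => part v = b ∧ s ∈ L v).card = n)
    {J : Type} (a b : J → V) (l : J → Y × Bool)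
    (hinj : Function.Injective (fun p : J × Bool =>
      if p.2 = true then (a p.1, l p.1) else (b p.1, sg (l p.1))))
    (T : Finset J) (j : J) (hj : j ∉ T) (hroom : n' + 4 * (k + 1) ^ g + 2 * T.card ≤ n) :
    (univ.filter fun ω : {r : Dart L → Dart L // Valid part r ∧ DG r g} =>
      ∀ i ∈ insert j T, Ed ω.1 (a i) (l i) (b i)).card * n' ≤
    (univ.filter fun ω : {r : Dart L → Dart L // Valid part r ∧ DG r g} =>
      ∀ i ∈ T, Ed ω.1 (a i) (l i) (b i)).card := by
  by_cases hd : l j ∈ L (a j)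
  swap
  · rw [card_eq_zero.2 (filter_eq_empty_iff.2 fun ω _ h => hd (h j (mem_insert_self _ _)).1)]
    simp
  let d : Dart L := ⟨(a j, l j), hd⟩
  have hE : ∀ (r : Dart L → Dart L) (i : J) (h : l i ∈ L (a i)), Valid part r →
      Ed r (a i) (l i) (b i) → (r ⟨(a i, l i), h⟩).1 = (b i, sg (l i)) :=
    fun r i h hv he => Prod.ext he.2 (hv.lb _)
  let F : Finset (V × (Y × Bool)) := (T ×ˢ (univ : Finset Bool)).image fun p : J × Bool =>
      if p.2 = true then (a p.1, l p.1) else (b p.1, sg (l p.1))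
  have hF : F.card ≤ 2 * T.card := card_image_le.trans (by simp [mul_comm])
  rw [← mul_one (card (univ.filter fun ω : {r : Dart L → Dart L // Valid part r ∧ DG r g} =>
      ∀ i ∈ T, Ed ω.1 (a i) (l i) (b i)))]
  refine Finset.card_mul_le_card_mul
    (fun ω ω' => ∃ c, Far part ω.1 g d c ∧ ω'.1 = sw ω.1 d c) (fun ω hω => ?_) (fun ω' _ => ?_)
  · have hω' := (mem_filter.1 hω).2
    obtain ⟨r, hv, hg⟩ := ω
    simp only at hω'
    have h1 := card_far hk hn hv g d
    let G := (univ.filter fun c => Far part r g d c).filter fun c => c.1 ∉ F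
    have h2 : (univ.filter fun c => Far part r g d c).card ≤ G.card + F.card := by
      rw [← card_filter_add_card_filter_not (s := univ.filter fun c => Far part r g d c)
        (fun c => c.1 ∉ F)]
      refine Nat.add_le_add_left (card_le_card_of_injOn (fun c => c.1) (fun c hc => ?_)
        fun c _ c' _ h => Subtype.ext h) _
      exact not_not.1 (mem_filter.1 (mem_coe.1 hc)).2
    refine le_trans (show n' ≤ G.card by omega) ?_
    have hG : ∀ c ∈ G, Far part r g d c := fun c hc => (mem_filter.1 (mem_filter.1 hc).1).2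
    refine card_le_card_of_injOn (fun c => if h : c ∈ G then
      ⟨sw r d c, sw_valid hv (hG c h), sw_DG hv hg (hG c h)⟩ else ⟨r, hv, hg⟩)
      (fun c hc => ?_) (fun c hc c' hc' h => ?_)
    · have hc' : c ∈ G := mem_coe.1 hc
      simp only [dif_pos hc', mem_coe, Finset.mem_bipartiteAbove, mem_filter, mem_univ, true_and]
      refine ⟨fun i hi => ?_, c, hG c hc', rfl⟩
      have he := hω' i (mem_insert_of_mem hi)
      have hne : i ≠ j := fun h => hj (h ▸ hi)
      have hcF : c.1 ∉ F := (mem_filter.1 hc').2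
      refine ⟨he.1, ?_⟩
      rw [sw_other hv]
      · exact he.2
      rintro ⟨_ | _, h | h⟩
      · exact hcF (mem_image.2 ⟨(i, true), by simp [hi], by rw [← h]; simp⟩)
      · refine hcF (mem_image.2 ⟨(i, false), by simp [hi], ?_⟩)
        rw [← hv.inv c, ← h, hE r i he.1 hv he]; simp
      · have : (i, true) = (j, true) := hinj (by
          show (a i, l i) = (a j, l j); exact congrArg Subtype.val h)
        exact hne (congrArg Prod.fst this)
      · have h' := congrArg Subtype.val h
        rw [hE r j hd hv (hω' j (mem_insert_self _ _))] at h'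
        have : (i, true) = (j, false) := hinj (by simpa using h')
        exact hne (congrArg Prod.fst this)
    · have hc1 : c ∈ G := mem_coe.1 hc
      have hc2 : c' ∈ G := mem_coe.1 hc'
      simp only [dif_pos hc1, dif_pos hc2, Subtype.mk.injEq] at h
      rw [← sw_rd hv (hG c hc1), h, sw_rd hv (hG c' hc2)]
  · refine card_le_one.2 fun ω₁ h₁ ω₂ h₂ => ?_
    simp only [Finset.mem_bipartiteBelow, mem_filter, mem_univ, true_and] at h₁ h₂
    obtain ⟨a1, c₁, f1, e1⟩ := h₁
    obtain ⟨a2, c₂, f2, e2⟩ := h₂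
    have hd' : ω₁.1 d = ω₂.1 d := Subtype.ext
      ((hE _ j hd ω₁.2.1 (a1 j (mem_insert_self _ _))).trans
        (hE _ j hd ω₂.2.1 (a2 j (mem_insert_self _ _))).symm)
    have hc : c₁ = c₂ := by
      rw [← sw_rd ω₁.2.1 f1, ← e1, hd', e2, sw_rd ω₂.2.1 f2]
    subst hc
    refine Subtype.ext (funext fun x => ?_)
    have := congrFun (e1.symm.trans e2) (Equiv.swap d c₁ x)
    simpa [sw] using this

end Ensemble

theorem exists_ensemble {Y V : Type} [Fintype Y] [DecidableEq Y] [Fintype V] [DecidableEq V]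
    (part : V → Bool) (L : V → Finset (Y × Bool)) (k n g jmax n' : ℕ)
    (hk : ∀ v, (L v).card ≤ k)
    (hn : ∀ b s, (univ.filter fun v => part v = b ∧ s ∈ L v).card = n)
    (hroom : n' + 4 * (k + 1) ^ (g + 2) + 2 * jmax < n) :
    ∃ (Ω : Type) (_ : Fintype Ω) (_ : Nonempty Ω) (E : Ω → V → Y × Bool → V → Prop),
      (∀ ω, Good part L g (E ω)) ∧ ExtBound E jmax n' := by
  classical
  have hpow : (k + 1) ^ g ≤ (k + 1) ^ (g + 2) := Nat.pow_le_pow_right (by omega) (by omega)
  obtain ⟨r, hr⟩ := Ensemble.exists_DG (part := part) hk hn g (by omega)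
  refine ⟨{r : Ensemble.Dart L → Ensemble.Dart L // Ensemble.Valid part r ∧ Ensemble.DG r g},
    inferInstance, ⟨⟨r, hr⟩⟩, fun ω => Ensemble.Ed ω.1, fun ω => Ensemble.good_of ω.2.1 ω.2.2, ?_⟩
  intro J _ a b l hJ hinj
  have key : ∀ T : Finset J, (univ.filter fun ω : {r : Ensemble.Dart L → Ensemble.Dart L //
      Ensemble.Valid part r ∧ Ensemble.DG r g} =>
      ∀ i ∈ T, Ensemble.Ed ω.1 (a i) (l i) (b i)).card * n' ^ T.card ≤
      Fintype.card {r : Ensemble.Dart L → Ensemble.Dart L //
        Ensemble.Valid part r ∧ Ensemble.DG r g} := by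
    intro T
    induction T using Finset.induction_on with
    | empty => simp
    | insert j T hj ih =>
      have hT : T.card ≤ jmax := (card_le_univ T).trans hJ
      have := Ensemble.ext_step (part := part) (g := g) (n' := n') hk hn a b l hinj T j hj (by omega)
      rw [card_insert_of_notMem hj, pow_succ', ← mul_assoc]
      refine le_trans (Nat.mul_le_mul_right _ ?_) ih
      convert this
  have := key univ
  rw [Nat.card_eq_fintype_card, Fintype.card_subtype]
  simpa using this

end Vale.Agent.P201
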