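import Vale.Agent.P201.Levels

/-! The Euler count for planar pairs. -/

namespace Vale.Agent.P201

open Finset Vale.Agent.GP

namespace Euler

open Equiv

/-- Functions invariant under a permutation. -/
def inv {D : Type} (σ : Perm D) : Submodule (ZMod 2) (D → ZMod 2) where
  carrier := {m | ∀ s, m (σ s) = m s}
  add_mem' := by
    intro a b ha hb s
    simp only [Pi.add_apply, ha s, hb s]
  zero_mem' := by intro s; rfl
  smul_mem' := by
    intro c a ha s
    simp only [Pi.smul_apply, ha s]

theorem inv_pow {D : Type} {σ : Perm D} {m : D → ZMod 2} (hm : m ∈ inv σ) (n : ℕ) (s : D) :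
    m ((σ ^ n) s) = m s := by
  induction n with
  | zero => rfl
  | succ n ih => rw [pow_succ', Perm.mul_apply, hm, ih]

theorem inv_sameCycle {D : Type} [Finite D] {σ : Perm D} {m : D → ZMod 2} (hm : m ∈ inv σ)
    {s u : D} (h : σ.SameCycle s u) : m s = m u := by
  obtain ⟨n, _, rfl⟩ := h.exists_pow_eq'
  rw [inv_pow hm]

theorem finrank_le_card {D : Type} [Fintype D] (σ : Perm D) (B : Finset D)
    (hB : ∀ x, ∃ b ∈ B, σ.SameCycle b x) : Module.finrank (ZMod 2) (inv σ) ≤ B.card := by
  let f : inv σ →ₗ[ZMod 2] (B → ZMod 2) :=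
    { toFun := fun m c => m.1 c.1
      map_add' := fun _ _ => rfl
      map_smul' := fun _ _ => rfl }
  have hf : Function.Injective f := by
    intro m m' h
    ext s
    obtain ⟨b, hb, h1⟩ := hB s
    rw [← inv_sameCycle m.2 h1, ← inv_sameCycle m'.2 h1]
    exact congrFun h ⟨b, hb⟩
  simpa using LinearMap.finrank_le_finrank_of_injective hf

/-- The number of cycles is bounded by any weight giving every cycle total weight at least `c`. -/
theorem finrank_le {D : Type} [Fintype D] [DecidableEq D] (σ : Perm D) (w : D → ℤ) (c : ℤ) (hc : 0 ≤ c)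
    (hw : ∀ s, c ≤ ∑ u ∈ univ.filter (fun u => σ.SameCycle s u), w u) :
    c * (Module.finrank (ZMod 2) (inv σ) : ℤ) ≤ ∑ u, w u := by
  classical
  let Q := Quotient (Perm.SameCycle.setoid σ)
  have h1 : Module.finrank (ZMod 2) (inv σ) ≤ Fintype.card Q := by
    refine (finrank_le_card σ (univ.image fun q : Q => q.out) fun x => ?_).trans ?_
    · exact ⟨_, mem_image_of_mem _ (mem_univ (Quotient.mk (Perm.SameCycle.setoid σ) x)),
        Quotient.mk_out (s := Perm.SameCycle.setoid σ) x⟩
    · exact card_image_le
  have h2 : c * (Fintype.card Q : ℤ) ≤ ∑ u, w u := by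
    rw [← Finset.sum_fiberwise univ (fun u => (Quotient.mk (Perm.SameCycle.setoid σ) u : Q)) w]
    rw [← Finset.card_univ, mul_comm, ← nsmul_eq_mul, ← Finset.sum_const]
    refine Finset.sum_le_sum fun q _ => ?_
    have h3 := hw q.out
    have h4 : univ.filter (fun u => σ.SameCycle q.out u) =
        univ.filter (fun u => (Quotient.mk (Perm.SameCycle.setoid σ) u : Q) = q) := by
      ext u
      simp only [Finset.mem_filter, Finset.mem_univ, true_and]
      constructor
      · intro h
        rw [← Quotient.out_eq q]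
        exact Quotient.sound h.symm
      · intro h
        rw [← h]
        exact Quotient.mk_out (s := Perm.SameCycle.setoid σ) u
    rw [h4] at h3
    exact h3
  exact le_trans (mul_le_mul_of_nonneg_left (by exact_mod_cast h1) hc) h2

theorem pow_inj {D : Type} (σ : Perm D) (s : D) (j : ℕ)
    (h : ∀ i, 0 < i → i < j → (σ ^ i) s ≠ s) {i i' : ℕ} (hi : i < j) (hi' : i' < j)
    (e : (σ ^ i) s = (σ ^ i') s) : i = i' := by
  by_contra hne
  rcases lt_or_gt_of_ne hne with hlt | hlt
  · apply h (i' - i) (by omega) (by omega)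
    apply (σ ^ i).injective
    rw [← Perm.mul_apply, ← pow_add, show i + (i' - i) = i' by omega]
    exact e.symm
  · apply h (i - i') (by omega) (by omega)
    apply (σ ^ i').injective
    rw [← Perm.mul_apply, ← pow_add, show i' + (i - i') = i by omega]
    exact e

theorem card_cycle_ge {D : Type} [Fintype D] [DecidableEq D] (σ : Perm D) (s : D) (j : ℕ)
    (h : ∀ i, 0 < i → i < j → (σ ^ i) s ≠ s) :
    j ≤ (univ.filter (fun u => σ.SameCycle s u)).card := by
  have : ((Finset.range j).image fun i => (σ ^ i) s).card = j := by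
    rw [Finset.card_image_of_injOn, Finset.card_range]
    intro i hi i' hi' e
    simp only [Finset.coe_range, Set.mem_Iio] at hi hi'
    exact pow_inj σ s j h hi hi' e
  rw [← this]
  apply Finset.card_le_card
  intro u hu
  obtain ⟨i, _, rfl⟩ := Finset.mem_image.mp hu
  simp only [Finset.mem_filter, Finset.mem_univ, true_and]
  exact ⟨i, by simp⟩

theorem euler {H : Type} [Fintype H] (φ π : Perm H) (o : H)
    (hπ : ∀ x, π (π x) = x) (ho : π o = o) (hp : Planar φ π) :
    Fintype.card H + 2 ≤ Module.finrank (ZMod 2) (inv φ) +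
      Module.finrank (ZMod 2) (inv (φ * π)) + Module.finrank (ZMod 2) (inv π) := by
  classical
  let Φ : (H → ZMod 2) →ₗ[ZMod 2] (H → ZMod 2) :=
    { toFun := fun k s => k (φ s) + k s - (k (φ (π s)) + k (π s))
      map_add' := by intro a b; ext s; simp only [Pi.add_apply]; ring
      map_smul' := by
        intro c a; ext s; simp only [Pi.smul_apply, smul_eq_mul, RingHom.id_apply]; ring }
  have hone : ∀ σ : Perm H, (fun _ => (1 : ZMod 2)) ∈ inv σ := fun σ s => rfl
  have hr : LinearMap.range Φ < inv π := by
    refine lt_of_le_of_ne ?_ ?_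
    · rintro _ ⟨k, rfl⟩ s
      simp only [Φ, LinearMap.coe_mk, AddHom.coe_mk, hπ, CharTwo.sub_eq_add]
      ring
    · intro e
      have h1 := hone π
      rw [← e] at h1
      obtain ⟨k, hk⟩ := h1
      have h2 := congrFun hk o
      simp [Φ, ho] at h2
  have h1 := Submodule.finrank_lt_finrank_of_lt hr
  have h2 := LinearMap.finrank_range_add_finrank_ker Φ
  have h3 : LinearMap.ker Φ ≤ inv φ ⊔ inv (φ * π) := by
    intro k hk
    obtain ⟨a, b, ha, hb, hab⟩ := hp k (by
      intro s
      have := congrFun (LinearMap.mem_ker.mp hk) s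
      simp only [Φ, LinearMap.coe_mk, AddHom.coe_mk, Pi.zero_apply] at this
      exact sub_eq_zero.1 this)
    exact Submodule.mem_sup.mpr ⟨a, ha, b, hb, funext fun x => (hab x).symm⟩
  have h4 := Submodule.finrank_mono h3
  have h5 := Submodule.finrank_sup_add_finrank_inf_eq (inv φ) (inv (φ * π))
  have h6 : 0 < Module.finrank (ZMod 2)
      (inv φ ⊓ inv (φ * π) : Submodule (ZMod 2) (H → ZMod 2)) := by
    rw [Module.finrank_pos_iff_exists_ne_zero]
    refine ⟨⟨fun _ => 1, hone _, hone _⟩, ?_⟩
    intro e
    have := congrFun (congrArg Subtype.val e) o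
    simp at this
  simp only [Module.finrank_fintype_fun_eq_card] at h2
  omega

end Euler

open Euler in
theorem planar_euler {H : Type} [Fintype H] [DecidableEq H] (φ π : Equiv.Perm H) (o : H)
    (hπ : ∀ x, π (π x) = x) (ho : π o = o) (hne : ∀ x, x ≠ o → π x ≠ x) (hp : Planar φ π)
    (B : Finset H) (hB : ∀ x, ∃ b ∈ B, φ.SameCycle b x) :
    (univ.filter fun x => φ (π (φ (π x))) ≠ x).card + 9 ≤
      3 * (univ.filter fun x => φ (π x) = x).card + 6 * B.card := by
  have h1 := euler φ π o hπ ho hp
  have h2 := finrank_le_card φ B hB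
  have h3 := finrank_le π (fun u => 1 + if u = o then 1 else 0) 2 (by norm_num) (by
    intro s
    by_cases hs : s = o
    · subst hs
      have hz : s ∈ univ.filter (fun u => π.SameCycle s u) := by
        simpa using Equiv.Perm.SameCycle.refl _ _
      have := Finset.single_le_sum (f := fun u => (1 : ℤ) + if u = s then 1 else 0)
        (fun u _ => by split_ifs <;> norm_num) hz
      simp only [if_true] at this
      exact this
    · have h := card_cycle_ge π s 2 (by
        intro i h0 h2
        obtain rfl : i = 1 := by omega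
        simpa using hne s hs)
      calc (2 : ℤ) ≤ ∑ _u ∈ univ.filter (fun u => π.SameCycle s u), (1 : ℤ) := by
            rw [Finset.sum_const, nsmul_eq_mul, mul_one]
            exact_mod_cast h
        _ ≤ _ := by
            refine Finset.sum_le_sum fun u _ => ?_
            split_ifs <;> norm_num)
  have h4 := finrank_le (φ * π)
    (fun u => 3 + (if φ (π u) = u then 3 else 0) - if φ (π (φ (π u))) ≠ u then 1 else 0) 6
    (by norm_num) (by
    intro s
    have hnn : ∀ u, (2 : ℤ) ≤
        3 + (if φ (π u) = u then 3 else 0) - if φ (π (φ (π u))) ≠ u then 1 else 0 := by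
      intro u; split_ifs <;> norm_num
    have hz : s ∈ univ.filter (fun u => (φ * π).SameCycle s u) := by
      simpa using Equiv.Perm.SameCycle.refl _ _
    by_cases hs : φ (π s) = s
    · have := Finset.single_le_sum
        (f := fun u => (3 : ℤ) + (if φ (π u) = u then 3 else 0) -
          if φ (π (φ (π u))) ≠ u then 1 else 0) (fun u _ => le_trans (by norm_num) (hnn u)) hz
      simp only [hs, if_true, ne_eq, not_true_eq_false, if_false] at this
      exact this
    by_cases hs2 : φ (π (φ (π s))) = s
    · have hsub : ({s, φ (π s)} : Finset H) ⊆ univ.filter (fun u => (φ * π).SameCycle s u) := by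
        intro u hu
        simp only [Finset.mem_insert, Finset.mem_singleton] at hu
        rcases hu with rfl | rfl
        · exact hz
        · simp only [Finset.mem_filter, Finset.mem_univ, true_and]
          exact ⟨1, by simp⟩
      have := Finset.sum_le_sum_of_subset_of_nonneg
        (f := fun u => (3 : ℤ) + (if φ (π u) = u then 3 else 0) -
          if φ (π (φ (π u))) ≠ u then 1 else 0) hsub
        (fun u _ _ => le_trans (by norm_num) (hnn u))
      rw [Finset.sum_pair (Ne.symm hs)] at this
      simp only [hs2, hs, ne_eq, not_true_eq_false, if_false] at this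
      refine le_trans ?_ this
      split_ifs <;> norm_num
    · have h := card_cycle_ge (φ * π) s 3 (by
        intro i h0 h2
        obtain rfl | rfl : i = 1 ∨ i = 2 := by omega
        · simpa using hs
        · simpa [pow_two] using hs2)
      calc (6 : ℤ) ≤ ∑ _u ∈ univ.filter (fun u => (φ * π).SameCycle s u), (2 : ℤ) := by
            rw [Finset.sum_const, nsmul_eq_mul]
            omega
        _ ≤ _ := Finset.sum_le_sum fun u _ => hnn u)
  simp only [Finset.sum_add_distrib, Finset.sum_sub_distrib, Finset.sum_const, Finset.card_univ,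
    nsmul_eq_mul, Finset.sum_ite, smul_zero, add_zero, mul_one] at h3 h4
  have h5 : (univ.filter fun u : H => u = o).card = 1 := by
    rw [Finset.filter_eq']; simp
  rw [h5] at h3
  omega

open Classical in
theorem exists_face_reps {H : Type} [Fintype H] [DecidableEq H] (φ : Equiv.Perm H) (o : H) (g : ℕ)
    (h : ∀ x, ¬ φ.SameCycle o x → ∀ p, 0 < p → p ≤ g → (φ ^ p) x ≠ x) :
    ∃ B : Finset H, o ∈ B ∧ (∀ x, ∃ b ∈ B, φ.SameCycle b x) ∧
      (B.card - 1) * (g + 1) ≤ (univ.filter fun x => ¬ φ.SameCycle o x).card := by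
  let rep : H → H := fun x => (Quotient.mk (Equiv.Perm.SameCycle.setoid φ) x).out
  have hrep : ∀ x, φ.SameCycle (rep x) x := fun x =>
    Quotient.mk_out (s := Equiv.Perm.SameCycle.setoid φ) x
  have hrep2 : ∀ x y, φ.SameCycle x y → rep x = rep y := fun x y hxy => by
    have : Quotient.mk (Equiv.Perm.SameCycle.setoid φ) x =
      Quotient.mk (Equiv.Perm.SameCycle.setoid φ) y := Quotient.sound hxy
    simp only [rep, this]
  let B' : Finset H := (univ.filter fun x => ¬ φ.SameCycle o x).image rep
  have hB' : ∀ b ∈ B', ¬ φ.SameCycle o b ∧ rep b = b := by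
    intro b hb
    obtain ⟨x, hx, rfl⟩ := Finset.mem_image.1 hb
    exact ⟨fun h' => (Finset.mem_filter.1 hx).2 (h'.trans (hrep x)), hrep2 _ _ (hrep x)⟩
  refine ⟨insert o B', Finset.mem_insert_self _ _, fun x => ?_, ?_⟩
  · by_cases hx : φ.SameCycle o x
    · exact ⟨o, Finset.mem_insert_self _ _, hx⟩
    · exact ⟨rep x, Finset.mem_insert_of_mem (Finset.mem_image_of_mem _ (by simpa using hx)),
        hrep x⟩
  · have h1 : (insert o B').card - 1 ≤ B'.card := by
      have := Finset.card_insert_le o B'
      omega
    refine le_trans (Nat.mul_le_mul_right _ h1) ?_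
    rw [← Finset.card_range (g + 1), ← Finset.card_product]
    refine Finset.card_le_card_of_injOn (fun p => (φ ^ p.2) p.1) ?_ ?_
    · intro p hp
      obtain ⟨hp1, -⟩ := Finset.mem_product.1 (Finset.mem_coe.1 hp)
      simp only [Finset.coe_filter, Finset.mem_univ, true_and, Set.mem_ofPred_eq]
      intro h'
      exact (hB' _ hp1).1 (by simpa using h')
    · intro p hp q hq e
      obtain ⟨hp1, hp2⟩ := Finset.mem_product.1 (Finset.mem_coe.1 hp)
      obtain ⟨hq1, hq2⟩ := Finset.mem_product.1 (Finset.mem_coe.1 hq)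
      have e' : (φ ^ p.2) p.1 = (φ ^ q.2) q.1 := e
      have hs : φ.SameCycle p.1 q.1 := by
        have h2 : φ.SameCycle p.1 ((φ ^ p.2) p.1) := by simp [Equiv.Perm.SameCycle.refl]
        rw [e'] at h2
        simpa using h2
      have h3 : p.1 = q.1 := by
        rw [← (hB' _ hp1).2, ← (hB' _ hq1).2]; exact hrep2 _ _ hs
      refine Prod.ext h3 ?_
      rw [← h3] at e'
      exact Euler.pow_inj φ p.1 (g + 1)
        (fun i h0 hi => h _ (hB' _ hp1).1 i h0 (by omega))
        (Finset.mem_range.1 hp2) (Finset.mem_range.1 hq2) e'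

end Vale.Agent.P201
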