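import Vale.Agent.P201.LevelSum

/-! First moment bound for one shape and one level. -/

namespace Vale.Agent.P201

open Finset Vale.Agent.GP

namespace FirstMomentAux

open ShB Classical

theorem sum_sum_update {ι T : Type} [Fintype ι] [DecidableEq ι] [Fintype T] (x : ι)
    (f : (ι → T) → ℝ) :
    ∑ lam : ι → T, ∑ t, f (Function.update lam x t) = Fintype.card T * ∑ lam, f lam := by
  let e : (ι → T) × T → (ι → T) × T := fun z => (Function.update z.1 x z.2, z.1 x)
  have he : Function.Involutive e := by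
    intro z
    simp [e]
  rw [← Fintype.sum_prod_type' (fun lam t => f (Function.update lam x t))]
  have := Equiv.sum_comp (he.toPerm e) (fun z : (ι → T) × T => f z.1)
  simp only [Function.Involutive.coe_toPerm, e] at this
  rw [this, Fintype.sum_prod_type]
  simp only [sum_const, card_univ, nsmul_eq_mul, mul_sum]

theorem sum_prod_le_one {ι T : Type} [Fintype ι] [DecidableEq ι] [Fintype T] [Nonempty T]
    (r : ι → ℕ) (μ : ι → (ι → T) → ℝ) (h0 : ∀ x lam, 0 ≤ μ x lam)
    (hdep : ∀ x y lam t, y ≠ x → r x ≤ r y → μ x (Function.update lam y t) = μ x lam)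
    (hsum : ∀ x lam, ∑ t, μ x (Function.update lam x t) ≤ 1) :
    ∑ lam : ι → T, ∏ x, μ x lam ≤ 1 := by
  have hN : (0 : ℝ) < Fintype.card T := by exact_mod_cast Fintype.card_pos
  have key : ∀ s : Finset ι, (Fintype.card T : ℝ) ^ s.card * ∑ lam : ι → T, ∏ x ∈ s, μ x lam
      ≤ (Fintype.card T : ℝ) ^ Fintype.card ι := by
    intro s
    induction s using Finset.induction_on_max_value r with
    | empty => simp
    | insert a s ha hmax ih =>
      rw [card_insert_of_notMem ha, pow_succ, mul_assoc]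
      refine le_trans (mul_le_mul_of_nonneg_left ?_ (by positivity)) ih
      rw [← sum_sum_update a]
      refine sum_le_sum fun lam _ => ?_
      simp only [prod_insert ha]
      have e1 : ∀ t, ∏ x ∈ s, μ x (Function.update lam a t) = ∏ x ∈ s, μ x lam := fun t =>
        prod_congr rfl fun x hx => hdep x a lam t (fun e => ha (e ▸ hx)) (hmax x hx)
      simp only [e1, ← sum_mul]
      exact mul_le_of_le_one_left (prod_nonneg fun x _ => h0 x lam) (hsum a lam)
  have := key univ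
  rw [card_univ] at this
  exact le_of_mul_le_mul_left (this.trans_eq (mul_one _).symm) (by positivity)

variable {m : ℕ} {Z Y : Type} {S : Sh m Z} {lab lab0 : Fin m × ℕ → Y × Bool}
  {nxt : Fin m → Option (Fin m)} {K : ℕ} {i : ℕ}

theorem mem_Ji {x : Fin m × ℕ} : x ∈ S.Ji i ↔ x ∈ S.J ∧ i ≤ S.mult x := by
  unfold Sh.Ji
  simp only [mem_filter]

theorem mem_RJ {x : Fin m × ℕ} : x ∈ S.RJ i ↔ x ∈ S.Ji i ∧ S.Reg (S.src x) := by
  unfold Sh.RJ
  simp only [mem_filter]

theorem rep_mem_Ji {y : Fin m × ℕ} (hy : y ∈ S.X) (h : i ≤ S.mult y) : rep S y ∈ S.Ji i :=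
  mem_Ji.2 ⟨rep_mem hy, by rwa [mult_congr (rep_ed hy)]⟩

/-- The labelling of all occurrences given by a labelling of the edges of level `i`. -/
noncomputable def labOf (S : Sh m Z) (i : ℕ) (lab0 : Fin m × ℕ → Y × Bool)
    (lam : S.Ji i → Y × Bool) (y : Fin m × ℕ) : Y × Bool :=
  if h : rep S y ∈ S.Ji i then
    (if S.src (rep S y) = S.src y then lam ⟨rep S y, h⟩ else sg (lam ⟨rep S y, h⟩))
  else lab0 y

theorem labOf_self (lam : S.Ji i → Y × Bool) (x : S.Ji i) : labOf S i lab0 lam x.1 = lam x := by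
  have e := rep_of_J (mem_Ji.1 x.2).1
  unfold labOf
  rw [dif_pos (by rw [e]; exact x.2), if_pos (by rw [e])]
  congr 1
  exact Subtype.ext e

theorem labOf_update (lam : S.Ji i → Y × Bool) (x : S.Ji i) (t : Y × Bool) {y : Fin m × ℕ}
    (hy : rep S y ≠ x.1) :
    labOf S i lab0 (Function.update lam x t) y = labOf S i lab0 lam y := by
  unfold labOf
  by_cases h : rep S y ∈ S.Ji i
  · rw [dif_pos h, dif_pos h, Function.update_of_ne (fun e => hy (congrArg Subtype.val e))]
  · rw [dif_neg h, dif_neg h]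

theorem labOf_restrict (h : S.OK lab nxt K) {y : Fin m × ℕ} (hy : y ∈ S.X) (hi : i ≤ S.mult y) :
    labOf S i lab0 (fun x => lab x.1) y = lab y := by
  unfold labOf
  rw [dif_pos (rep_mem_Ji hy hi)]
  have hr := J_sub (rep_mem hy)
  rcases ed_eq_iff.1 (rep_ed hy) with ⟨e1, e2⟩ | ⟨e1, e2⟩
  · rw [if_pos e1]
    exact h.lab_same _ hr _ hy e1 e2
  · rw [if_neg (by rw [e1]; exact (src_ne_tgt h hy).symm)]
    simp only
    rw [h.lab_opp _ hr _ hy e1 e2, sg_sg]

theorem expr_congr (ψ : Y × Bool → ℝ) (B : Y × Bool → Y × Bool → ℝ) (η lT Λ Λn : ℝ)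
    (rt : Option Z) {lab lab' : Fin m × ℕ → Y × Bool} (h1 : ∀ x ∈ S.Ji i, lab x = lab' x)
    (h2 : ∀ x ∈ S.RJ i, lab (Sh.pred x) = lab' (Sh.pred x)) :
    S.expr ψ B η lT lab Λ Λn rt i = S.expr ψ B η lT lab' Λ Λn rt i := by
  unfold Sh.expr
  congr 1
  · congr 1
    refine sum_congr rfl fun x hx => ?_
    unfold Sh.gain
    rw [h1 x (mem_RJ.1 hx).1, h2 x hx]
  · refine sum_congr rfl fun x hx => ?_
    unfold Sh.cst
    rw [h1 x hx]
    split_ifs with a b
    · rw [h2 x (mem_RJ.2 ⟨hx, b⟩)]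
    · rfl
    · rfl

theorem exists_forcing {x : Fin m × ℕ} (hx : ¬ S.Free x) :
    ∃ p : (Fin m × ℕ) × (Fin m × ℕ), p.1 ∈ S.occ x ∧ S.mp p.1 = some p.2 ∧ S.rk p.2 < S.rk x := by
  unfold Sh.Free at hx
  push Not at hx
  obtain ⟨y, h1, y', h2, h3⟩ := hx
  exact ⟨(y, y'), h1, h2, h3⟩

/-- The label forced on a constrained edge. -/
noncomputable def forced (S : Sh m Z) (lb : Fin m × ℕ → Y × Bool) (x : Fin m × ℕ)
    (hx : ¬ S.Free x) : Y × Bool :=
  if S.src x = S.src (exists_forcing hx).choose.1 then sg (lb (exists_forcing hx).choose.2)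
  else lb (exists_forcing hx).choose.2

/-- The weight of the label of one edge. -/
noncomputable def ker (S : Sh m Z) (i : ℕ) (lab0 : Fin m × ℕ → Y × Bool) (ψ : Y × Bool → ℝ)
    (B : Y × Bool → Y × Bool → ℝ) (lT : ℝ) (x : S.Ji i) (lam : S.Ji i → Y × Bool) : ℝ :=
  if hx : S.Free x.1 then Real.exp (- S.cst ψ B lT (labOf S i lab0 lam) x.1)
  else if lam x = forced S (labOf S i lab0 lam) x.1 hx then 1 else 0

theorem forced_congr {lb lb' : Fin m × ℕ → Y × Bool} {x : Fin m × ℕ} (hx : ¬ S.Free x)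
    (e : lb (exists_forcing hx).choose.2 = lb' (exists_forcing hx).choose.2) :
    forced S lb x hx = forced S lb' x hx := by
  unfold forced
  rw [e]

theorem forced_eq (h : S.OK lab nxt K) {x : Fin m × ℕ} (hxX : x ∈ S.X) (hx : ¬ S.Free x) :
    lab x = forced S lab x hx := by
  obtain ⟨h1, h2, -⟩ := (exists_forcing hx).choose_spec
  obtain ⟨h3, h4⟩ := mem_occ.1 h1
  have h5 := h.mate_lb _ h3 _ h2
  unfold forced
  rw [h5]
  rcases ed_eq_iff.1 h4.symm with ⟨e1, e2⟩ | ⟨e1, e2⟩
  · rw [if_pos e1, sg_sg]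
    exact h.lab_same _ hxX _ h3 e1 e2
  · rw [if_neg (by rw [e1]; exact (src_ne_tgt h h3).symm)]
    exact h.lab_opp _ hxX _ h3 e1 e2

theorem sum_ker_le [Fintype Y] (h : S.OK lab nxt K) (ψ : Y × Bool → ℝ)
    (B : Y × Bool → Y × Bool → ℝ)
    (hker : ∀ u, ∑ t, Real.exp (-(2 * (ψ t + ψ (sg t)) + 2 * B u t)) ≤ 1) [Nonempty Y] :
    ∑ lam : S.Ji i → Y × Bool, ∏ x, ker S i lab0 ψ B (Real.log (Fintype.card (Y × Bool))) x lam
      ≤ 1 := by
  have hX : ∀ x : S.Ji i, x.1 ∈ S.X := fun x => J_sub (mem_Ji.1 x.2).1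
  have low : ∀ (x y : S.Ji i) (u : Fin m × ℕ), u ∈ S.X → S.rk u < S.rk x.1 → S.rk x.1 ≤ S.rk y.1 →
      rep S u ≠ y.1 := by
    intro x y u hu h1 h2 e
    have := rk_congr (rep_ed hu)
    rw [e] at this
    omega
  refine sum_prod_le_one (fun x => S.rk x.1) _ (fun x lam => ?_) (fun x y lam t hne hr => ?_)
    (fun x lam => ?_)
  · unfold ker
    split_ifs
    · exact (Real.exp_pos _).le
    · exact zero_le_one
    · exact le_rfl
  · have e1 : labOf S i lab0 (Function.update lam y t) x.1 = labOf S i lab0 lam x.1 := by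
      rw [labOf_self, labOf_self, Function.update_of_ne hne.symm]
    unfold ker
    by_cases hx : S.Free x.1
    · rw [dif_pos hx, dif_pos hx]
      unfold Sh.cst
      rw [e1]
      split_ifs with a
      · rw [labOf_update lam y t (low x y _ (pred_mem h (hX x))
          (rk_pred_lt h (mem_Ji.1 x.2).1 a) hr)]
      · rfl
    · rw [dif_neg hx, dif_neg hx, Function.update_of_ne hne.symm]
      obtain ⟨-, h2, h3⟩ := (exists_forcing hx).choose_spec
      rw [forced_congr hx (labOf_update lam y t (low x y _ (mp_mem h h2) h3 hr))]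
  · unfold ker
    by_cases hx : S.Free x.1
    · simp only [dif_pos hx]
      unfold Sh.cst
      simp only [if_pos hx, labOf_self, Function.update_self]
      by_cases a : S.Reg (S.src x.1)
      · simp only [if_pos a]
        have e := fun t => labOf_update (lab0 := lab0) lam x t (low x x _ (pred_mem h (hX x))
          (rk_pred_lt h (mem_Ji.1 x.2).1 a) le_rfl)
        simp only [e]
        exact hker _
      · simp only [if_neg a, sum_const, card_univ, nsmul_eq_mul]
        have hN : (0 : ℝ) < Fintype.card (Y × Bool) := by exact_mod_cast Fintype.card_pos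
        rw [Real.exp_neg, Real.exp_log hN, mul_inv_cancel₀ hN.ne']
    · simp only [dif_neg hx, Function.update_self]
      obtain ⟨-, h2, h3⟩ := (exists_forcing hx).choose_spec
      have e := fun t => forced_congr hx (labOf_update (lab0 := lab0) lam x t
        (low x x _ (mp_mem h h2) h3 le_rfl))
      simp only [e]
      simp

theorem src_mem_Wi {x : Fin m × ℕ} (hx : x ∈ S.Ji i) : S.src x ∈ S.Wi i :=
  LevelSumAux.mem_Wi.2 ⟨x, (mem_Ji.1 hx).1, (mem_Ji.1 hx).2, Or.inl rfl⟩

theorem tgt_mem_Wi {x : Fin m × ℕ} (hx : x ∈ S.Ji i) : S.tgt x ∈ S.Wi i :=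
  LevelSumAux.mem_Wi.2 ⟨x, (mem_Ji.1 hx).1, (mem_Ji.1 hx).2, Or.inr rfl⟩

theorem exists_pos {v : Z} (hv : v ∈ S.Wi i) :
    ∃ p : Fin m × ℕ, p.2 ≤ S.len p.1 ∧ S.z p.1 p.2 = v := by
  obtain ⟨x, hx, -, e | e⟩ := LevelSumAux.mem_Wi.1 hv
  · exact ⟨x, (lt_of_mem_X (J_sub hx)).le, e⟩
  · exact ⟨nx x, lt_of_mem_X (J_sub hx), e⟩

/-- The product of the numbers of allowed images. -/
theorem prod_allowed_le {V : Type} [Fintype V] {S : Sh m V} (h : S.OK lab nxt K)
    (ψ : Y × Bool → ℝ) (B : Y × Bool → Y × Bool → ℝ) (η : ℝ) (lb : Fin m × ℕ → Y × Bool)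
    (n' : ℕ) (hn' : 0 < n') (rt : Option V) (hrt : ∀ v, rt = some v → ¬ S.Reg v)
    (Al : V → Finset V) (h1 : ∀ v, rt = some v → (Al v).card ≤ 2)
    (h2 : ∀ x ∈ S.RJ i, ((Al (S.src x)).card : ℝ) ≤ Real.exp (- Sh.gain ψ B η lb x) * n') :
    ∏ v ∈ S.Wi i, ((Al v).card : ℝ) ≤ Real.exp
      ((((S.Wi i).card : ℝ) - (S.RJ i).card - S.rho rt i) * Real.log (Fintype.card V) +
        S.rho rt i * Real.log 2 + (S.RJ i).card * Real.log n' -
        ∑ x ∈ S.RJ i, Sh.gain ψ B η lb x) := by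
  set Λ := Real.log (Fintype.card V) with hΛ
  let a : V → ℝ := fun v => Λ + (if rt = some v then Real.log 2 - Λ else 0) +
    ∑ x ∈ S.RJ i, if S.src x = v then Real.log n' - Sh.gain ψ B η lb x - Λ else 0
  have e1 : ∑ v ∈ S.Wi i, a v = (((S.Wi i).card : ℝ) - (S.RJ i).card - S.rho rt i) * Λ +
      S.rho rt i * Real.log 2 + (S.RJ i).card * Real.log n' -
      ∑ x ∈ S.RJ i, Sh.gain ψ B η lb x := by
    simp only [a, sum_add_distrib]
    rw [sum_comm]
    have e2 : ∑ x ∈ S.RJ i, ∑ v ∈ S.Wi i,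
        (if S.src x = v then Real.log n' - Sh.gain ψ B η lb x - Λ else 0)
        = ∑ x ∈ S.RJ i, (Real.log n' - Sh.gain ψ B η lb x - Λ) := by
      refine sum_congr rfl fun x hx => ?_
      rw [sum_ite_eq, if_pos (src_mem_Wi (mem_RJ.1 hx).1)]
    have e3 : ∑ v ∈ S.Wi i, (if rt = some v then Real.log 2 - Λ else 0)
        = S.rho rt i * (Real.log 2 - Λ) := by
      unfold Sh.rho
      cases rt with
      | none => simp
      | some r =>
        simp only [Option.some.injEq, sum_ite_eq, exists_eq_left']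
        split_ifs <;> simp
    rw [e2, e3]
    simp only [sum_sub_distrib, sum_const, nsmul_eq_mul]
    ring
  rw [← e1, Real.exp_sum]
  refine prod_le_prod (fun v _ => by positivity) fun v _ => ?_
  by_cases hv : rt = some v
  · have e2 : ∑ x ∈ S.RJ i, (if S.src x = v then Real.log n' - Sh.gain ψ B η lb x - Λ else 0)
        = 0 := sum_eq_zero fun x hx => if_neg fun (e : S.src x = v) =>
          hrt v hv (e ▸ (mem_RJ.1 hx).2)
    simp only [a, if_pos hv, e2]
    rw [show Λ + (Real.log 2 - Λ) + 0 = Real.log 2 by ring, Real.exp_log (by norm_num)]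
    exact_mod_cast h1 v hv
  by_cases hx : ∃ x ∈ S.RJ i, S.src x = v
  · obtain ⟨x, hx, e⟩ := hx
    have e2 : ∑ x ∈ S.RJ i, (if S.src x = v then Real.log n' - Sh.gain ψ B η lb x - Λ else 0)
        = Real.log n' - Sh.gain ψ B η lb x - Λ := by
      rw [sum_eq_single_of_mem x hx, if_pos e]
      intro x' hx' hne
      refine if_neg fun e' => hne ?_
      exact reg_unique_J h (mem_Ji.1 (mem_RJ.1 hx').1).1 (mem_Ji.1 (mem_RJ.1 hx).1).1
        (mem_RJ.1 hx').2 (e.trans e'.symm)
    simp only [a, if_neg hv, e2]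
    rw [show Λ + 0 + (Real.log n' - Sh.gain ψ B η lb x - Λ)
      = - Sh.gain ψ B η lb x + Real.log n' by ring, Real.exp_add,
      Real.exp_log (by exact_mod_cast hn'), ← e]
    exact h2 x hx
  · have e2 : ∑ x ∈ S.RJ i, (if S.src x = v then Real.log n' - Sh.gain ψ B η lb x - Λ else 0)
        = 0 := sum_eq_zero fun x hx' => if_neg fun e => hx ⟨x, hx', e⟩
    simp only [a, if_neg hv, e2, add_zero]
    have : Nonempty V := ⟨v⟩
    rw [hΛ, Real.exp_log (by exact_mod_cast Fintype.card_pos)]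
    exact_mod_cast card_le_univ _

theorem part_vx {Y V U : Type} {part : V → Bool} {L : V → Finset (Y × Bool)} {g w : ℕ}
    {E : V → Y × Bool → V → Prop} (hg : Good part L g E) (c : Cluster E U w) (τ : U) :
    ∀ j, j ≤ c.len τ → part (c.vx τ j) = part (c.vx τ 0) := by
  intro j
  induction j with
  | zero => intro _; rfl
  | succ j ih =>
    intro hj
    rw [← ih (by omega)]
    exact (hg.part_eq _ _ _ (c.edge τ j (by omega))).symm

end FirstMomentAux

set_option maxHeartbeats 1000000 in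
open ShB FirstMomentAux in
theorem first_moment {Y V Ω : Type} [Fintype Y] [DecidableEq Y] [Fintype V] [DecidableEq V]
    [Fintype Ω] (ψ : Y × Bool → ℝ) (B : Y × Bool → Y × Bool → ℝ) (η : ℝ)
    (hker : ∀ u, ∑ t, Real.exp (-(2 * (ψ t + ψ (sg t)) + 2 * B u t)) ≤ 1)
    (part : V → Bool) (L : V → Finset (Y × Bool)) (g m w n' : ℕ) (hn' : 0 < n')
    (roots : Finset V) (hr : roots.card ≤ 2)
    (hcount : ∀ b u t, u ≠ t →
      ((univ.filter fun v => part v = b ∧ u ∈ L v ∧ t ∈ L v).card : ℝ) ≤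
        Real.exp (-(B u t + ψ u + ψ t + η)) * n')
    (E : Ω → V → Y × Bool → V → Prop) (hgood : ∀ ω, Good part L g (E ω))
    (hext : ExtBound E (m * w) n') (S : Sh m V) (hSw : S.w = w) (pt : Fin m → Bool)
    (rt : Option V) (i : ℕ) (t : ℝ) :
    (Nat.card {ω // ∃ (c : Cluster (E ω) (Fin m) w) (K : ℕ), c.len = S.len ∧
        S.OK (fun x => c.lb x.1 x.2) c.nxt K ∧
        (∀ τ j τ' j', j ≤ S.len τ → j' ≤ S.len τ' →
          (c.vx τ j = c.vx τ' j' ↔ S.z τ j = S.z τ' j')) ∧
        (∀ τ, part (c.vx τ 0) = pt τ) ∧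
        (∀ v, rt = some v → ∃ τ, v = S.z τ 0 ∧ c.vx τ 0 ∈ roots) ∧
        S.expr ψ B η (Real.log (Fintype.card (Y × Bool))) (fun x => c.lb x.1 x.2)
          (Real.log (Fintype.card V)) (Real.log n') rt i ≤ -t} : ℝ) ≤
      Real.exp (-t) * Fintype.card Ω := by
  classical
  set lT := Real.log (Fintype.card (Y × Bool)) with hlT
  set Λ := Real.log (Fintype.card V) with hΛ
  set Bad : Ω → Prop := fun ω => ∃ (c : Cluster (E ω) (Fin m) w) (K : ℕ), c.len = S.len ∧
        S.OK (fun x => c.lb x.1 x.2) c.nxt K ∧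
        (∀ τ j τ' j', j ≤ S.len τ → j' ≤ S.len τ' →
          (c.vx τ j = c.vx τ' j' ↔ S.z τ j = S.z τ' j')) ∧
        (∀ τ, part (c.vx τ 0) = pt τ) ∧
        (∀ v, rt = some v → ∃ τ, v = S.z τ 0 ∧ c.vx τ 0 ∈ roots) ∧
        S.expr ψ B η lT (fun x => c.lb x.1 x.2) Λ (Real.log n') rt i ≤ -t with hBad
  rw [Nat.card_eq_fintype_card, Fintype.card_subtype]
  by_cases hne : ∃ ω, Bad ω
  swap
  · rw [filter_eq_empty_iff.2 fun ω _ h => hne ⟨ω, h⟩]
    simp only [card_empty, Nat.cast_zero]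
    positivity
  obtain ⟨ω0, c0, K0, -, h0, -, -, hrt0, hexp0⟩ := hne
  by_cases hY : Nonempty Y
  swap
  · have hm : m = 0 := by
      by_contra hm
      exact hY ⟨(c0.lb ⟨0, Nat.pos_of_ne_zero hm⟩ 0).1⟩
    subst hm
    have hJ : S.Ji i = ∅ := eq_empty_of_forall_notMem fun x _ => x.1.elim0
    have hRJ : S.RJ i = ∅ := eq_empty_of_forall_notMem fun x _ => x.1.elim0
    have hW : S.Wi i = ∅ := by unfold Sh.Wi; simp [hJ]
    have hrho : S.rho rt i = 0 := by unfold Sh.rho; simp [hW]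
    unfold Sh.expr at hexp0
    simp only [hJ, hRJ, hW, hrho, card_empty, Nat.cast_zero, sub_self, zero_mul, sum_empty,
      add_zero] at hexp0
    refine le_trans (by exact_mod_cast card_le_univ _) (le_mul_of_one_le_left (by positivity) ?_)
    exact Real.one_le_exp hexp0
  set lab0 : Fin m × ℕ → Y × Bool := fun x => c0.lb x.1 x.2 with hlab0
  have hrt : ∀ v, rt = some v → ¬ S.Reg v := by
    intro v hv hreg
    obtain ⟨τ, e, -⟩ := hrt0 v hv
    exact absurd (hreg τ 0 (Nat.zero_le _) e.symm).1 (lt_irrefl 0)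
  let lo : (S.Ji i → Y × Bool) → Fin m × ℕ → Y × Bool := labOf S i lab0
  let Gd : Finset (S.Ji i → Y × Bool) := univ.filter fun lam =>
    S.expr ψ B η lT (lo lam) Λ (Real.log n') rt i ≤ -t ∧
    (∀ x ∈ S.RJ i, sg (lo lam (Sh.pred x)) ≠ lo lam x) ∧
    ∀ x, ker S i lab0 ψ B lT x lam = Real.exp (- S.cst ψ B lT (lo lam) x.1)
  let Al : (S.Ji i → Y × Bool) → V → Finset V := fun lam v => univ.filter fun u =>
    (rt = some v → u ∈ roots) ∧ ∀ x ∈ S.RJ i, S.src x = v →
      part u = pt x.1 ∧ sg (lo lam (Sh.pred x)) ∈ L u ∧ lo lam x ∈ L u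
  let sa : (S.Wi i → V) → S.Ji i → V := fun ι x => ι ⟨S.src x.1, src_mem_Wi x.2⟩
  let ta : (S.Wi i → V) → S.Ji i → V := fun ι x => ι ⟨S.tgt x.1, tgt_mem_Wi x.2⟩
  let Emb : (S.Ji i → Y × Bool) → Finset (S.Wi i → V) := fun lam =>
    (Fintype.piFinset fun v : S.Wi i => Al lam v.1).filter fun ι =>
      Function.Injective (fun p : S.Ji i × Bool =>
        if p.2 = true then (sa ι p.1, lam p.1) else (ta ι p.1, sg (lam p.1)))
  let Ev : (S.Ji i → Y × Bool) → (S.Wi i → V) → Finset Ω := fun lam ι =>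
    univ.filter fun ω => ∀ x, E ω (sa ι x) (lam x) (ta ι x)
  have hcover : univ.filter Bad ⊆ Gd.biUnion fun lam => (Emb lam).biUnion fun ι => Ev lam ι := by
    intro ω hω
    obtain ⟨c, K, hlen, h, hiff, hpt, hroot, hexp⟩ := (mem_filter.1 hω).2
    have hg := hgood ω
    set lab : Fin m × ℕ → Y × Bool := fun x => c.lb x.1 x.2 with hlab
    let lam : S.Ji i → Y × Bool := fun x => lab x.1
    have hX : ∀ {x}, x ∈ S.Ji i → x ∈ S.X := fun hx => J_sub (mem_Ji.1 hx).1
    have l1 : ∀ x ∈ S.Ji i, lo lam x = lab x := fun x hx =>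
      labOf_restrict h (hX hx) (mem_Ji.1 hx).2
    have l2 : ∀ x ∈ S.RJ i, lo lam (Sh.pred x) = lab (Sh.pred x) := fun x hx =>
      labOf_restrict h (pred_mem h (hX (mem_RJ.1 hx).1)) (by
        rw [mult_pred h (hX (mem_RJ.1 hx).1) (mem_RJ.1 hx).2]; exact (mem_Ji.1 (mem_RJ.1 hx).1).2)
    let ι : S.Wi i → V := fun v => c.vx (exists_pos v.2).choose.1 (exists_pos v.2).choose.2
    have hι : ∀ (v : S.Wi i) τ j, j ≤ S.len τ → S.z τ j = v.1 → ι v = c.vx τ j := by
      intro v τ j hj e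
      obtain ⟨a1, a2⟩ := (exists_pos v.2).choose_spec
      exact (hiff _ _ _ _ a1 hj).2 (a2.trans e.symm)
    have hsa : ∀ x, sa ι x = c.vx x.1.1 x.1.2 := fun x =>
      hι _ _ _ (lt_of_mem_X (hX x.2)).le rfl
    have hta : ∀ x, ta ι x = c.vx x.1.1 (x.1.2 + 1) := fun x =>
      hι _ _ _ (lt_of_mem_X (hX x.2)) rfl
    have hedge : ∀ y ∈ S.X, E ω (c.vx y.1 y.2) (lab y) (c.vx y.1 (y.2 + 1)) := fun y hy =>
      c.edge y.1 y.2 (by rw [hlen]; exact lt_of_mem_X hy)
    have hEv : ∀ x, E ω (sa ι x) (lam x) (ta ι x) := by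
      intro x
      rw [hsa, hta]
      exact hedge _ (hX x.2)
    refine mem_biUnion.2 ⟨lam, mem_filter.2 ⟨mem_univ _, ?_, ?_, ?_⟩,
      mem_biUnion.2 ⟨ι, mem_filter.2 ⟨Fintype.mem_piFinset.2 fun v => ?_, ?_⟩,
        mem_filter.2 ⟨mem_univ _, hEv⟩⟩⟩
    · rw [expr_congr ψ B η lT Λ _ rt l1 l2]
      exact hexp
    · intro x hx
      rw [l1 x (mem_RJ.1 hx).1, l2 x hx]
      have hxX := hX (mem_RJ.1 hx).1
      have a0 := reg_pos hxX (mem_RJ.1 hx).2
      have a1 := lt_of_mem_X hxX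
      have := c.red x.1 (x.2 - 1) (by rw [hlen]; omega)
      rw [show x.2 - 1 + 1 = x.2 by omega] at this
      exact fun e => this e.symm
    · intro x
      unfold ker
      by_cases hx : S.Free x.1
      · rw [dif_pos hx]
      · rw [dif_neg hx]
        obtain ⟨-, a2, a3⟩ := (exists_forcing hx).choose_spec
        have a4 : lo lam (exists_forcing hx).choose.2 = lab (exists_forcing hx).choose.2 :=
          labOf_restrict h (mp_mem h a2)
            ((mem_Ji.1 x.2).2.trans (mult_le_of_rk_lt h (hX x.2) a3))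
        rw [forced_congr hx a4, if_pos (forced_eq h (hX x.2) hx)]
        unfold Sh.cst
        rw [if_neg hx]
        simp
    · refine mem_filter.2 ⟨mem_univ _, fun hv => ?_, fun x hx e => ?_⟩
      · obtain ⟨τ, a1, a2⟩ := hroot _ hv
        rw [hι v τ 0 (Nat.zero_le _) a1.symm]
        exact a2
      · have hxX := hX (mem_RJ.1 hx).1
        have a0 := reg_pos hxX (mem_RJ.1 hx).2
        have a1 := lt_of_mem_X hxX
        rw [hι v x.1 x.2 a1.le e, l1 x (mem_RJ.1 hx).1, l2 x hx]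
        refine ⟨(part_vx hg c x.1 x.2 (by rw [hlen]; exact a1.le)).trans (hpt _), ?_,
          (hg.total _ _).2 ⟨_, hedge x hxX⟩⟩
        have := hg.folded.symm _ _ _ (hedge _ (pred_mem h hxX))
        simp only [Sh.pred] at this
        rw [show x.2 - 1 + 1 = x.2 by omega] at this
        exact (hg.total _ _).2 ⟨_, this⟩
    · have same : ∀ x x' : S.Ji i, sa ι x = sa ι x' → ta ι x = ta ι x' → x = x' := by
        intro x x' e1 e2
        rw [hsa, hsa] at e1
        rw [hta, hta] at e2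
        have a := lt_of_mem_X (hX x.2)
        have a' := lt_of_mem_X (hX x'.2)
        exact Subtype.ext (J_unique (mem_Ji.1 x.2).1 (mem_Ji.1 x'.2).1 (ed_eq_iff.2 (Or.inl
          ⟨(hiff _ _ _ _ a.le a'.le).1 e1, (hiff _ _ _ _ a a').1 e2⟩)))
      have opp : ∀ x x' : S.Ji i, sa ι x = ta ι x' → lam x = sg (lam x') → False := by
        intro x x' e1 e2
        have b1 := hEv x
        have b2 := hg.folded.symm _ _ _ (hEv x')
        rw [← e1, ← e2] at b2
        have e3 := hg.folded.func _ _ _ _ b1 b2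
        rw [hsa, hta] at e1
        rw [hsa, hta] at e3
        have a := lt_of_mem_X (hX x.2)
        have a' := lt_of_mem_X (hX x'.2)
        have c1 : S.src x.1 = S.tgt x'.1 := (hiff _ _ _ _ a.le a').1 e1
        have c2 : S.tgt x.1 = S.src x'.1 := (hiff _ _ _ _ a a'.le).1 e3
        have c3 := J_unique (mem_Ji.1 x.2).1 (mem_Ji.1 x'.2).1 (ed_eq_iff.2 (Or.inr ⟨c1, c2⟩))
        rw [← c3] at c1
        exact src_ne_tgt h (hX x.2) c1
      rintro ⟨x, b⟩ ⟨x', b'⟩ e
      cases b <;> cases b' <;> simp only [if_true, Bool.false_eq_true, if_false,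
        Prod.mk.injEq] at e
      · have b1 := hg.folded.symm _ _ _ (hEv x)
        have b2 := hg.folded.symm _ _ _ (hEv x')
        rw [← e.1, ← e.2] at b2
        rw [same x x' (hg.folded.func _ _ _ _ b1 b2) e.1]
      · exact (opp x' x e.1.symm e.2.symm).elim
      · exact (opp x x' e.1 e.2).elim
      · have b1 := hEv x
        have b2 := hEv x'
        rw [← e.1, ← e.2] at b2
        rw [same x x' e.1 (hg.folded.func _ _ _ _ b1 b2)]
  have hn'R : (0 : ℝ) < n' := by exact_mod_cast hn'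
  have hJcard : Fintype.card (S.Ji i) ≤ m * w := by
    rw [Fintype.card_coe]
    refine (card_le_card (t := S.X) fun x hx => J_sub (mem_Ji.1 hx).1).trans ?_
    refine (card_filter_le _ _).trans ?_
    simp [hSw]
  have hEv : ∀ lam, ∀ ι ∈ Emb lam, ((Ev lam ι).card : ℝ)
      ≤ Real.exp (-((S.Ji i).card * Real.log n')) * Fintype.card Ω := by
    intro lam ι hι
    have := hext (S.Ji i) (sa ι) (ta ι) lam hJcard (mem_filter.1 hι).2
    rw [Nat.card_eq_fintype_card, Fintype.card_subtype, Fintype.card_coe] at this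
    rw [Real.exp_neg, Real.exp_nat_mul, Real.exp_log hn'R, ← div_eq_inv_mul,
      le_div_iff₀ (by positivity)]
    exact_mod_cast this
  have hEmb : ∀ lam ∈ Gd, ((Emb lam).card : ℝ) * Real.exp (-((S.Ji i).card * Real.log n'))
      ≤ Real.exp (-t) * ∏ x, ker S i lab0 ψ B lT x lam := by
    intro lam hlam
    obtain ⟨-, a1, a2, a3⟩ := mem_filter.1 hlam
    have b1 : ((Emb lam).card : ℝ) ≤ ∏ v ∈ S.Wi i, ((Al lam v).card : ℝ) := by
      rw [← prod_coe_sort (S.Wi i) (fun v => ((Al lam v).card : ℝ))]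
      have := card_filter_le (Fintype.piFinset fun v : S.Wi i => Al lam v.1) (fun ι =>
        Function.Injective (fun p : S.Ji i × Bool =>
          if p.2 = true then (sa ι p.1, lam p.1) else (ta ι p.1, sg (lam p.1))))
      rw [Fintype.card_piFinset] at this
      exact_mod_cast this
    have b2 := prod_allowed_le (i := i) h0 ψ B η (lo lam) n' hn' rt hrt (Al lam)
      (fun v hv => (card_le_card fun u hu => (mem_filter.1 hu).2.1 hv).trans hr)
      (fun x hx => by
        refine le_trans ?_ (hcount (pt x.1) _ _ (a2 x hx))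
        rw [Nat.cast_le]
        exact card_le_card fun u hu => mem_filter.2 ⟨mem_univ _, (mem_filter.1 hu).2.2 x hx rfl⟩)
    refine (mul_le_mul_of_nonneg_right (b1.trans b2) (Real.exp_pos _).le).trans ?_
    simp only [a3]
    rw [← Real.exp_sum, ← Real.exp_add, ← Real.exp_add, Real.exp_le_exp,
      sum_coe_sort (S.Ji i) (fun x => - S.cst ψ B lT (lo lam) x), sum_neg_distrib]
    unfold Sh.expr at a1
    linarith
  calc ((univ.filter Bad).card : ℝ)
      ≤ ∑ lam ∈ Gd, ∑ ι ∈ Emb lam, ((Ev lam ι).card : ℝ) := by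
        have := (card_le_card hcover).trans (card_biUnion_le.trans
          (sum_le_sum fun lam _ => card_biUnion_le))
        exact_mod_cast this
    _ ≤ ∑ lam ∈ Gd, (Real.exp (-t) * ∏ x, ker S i lab0 ψ B lT x lam) * Fintype.card Ω := by
        refine sum_le_sum fun lam hlam => ?_
        refine (sum_le_card_nsmul _ _ _ (hEv lam)).trans ?_
        rw [nsmul_eq_mul, ← mul_assoc]
        exact mul_le_mul_of_nonneg_right (hEmb lam hlam) (by positivity)
    _ ≤ ∑ lam, (Real.exp (-t) * ∏ x, ker S i lab0 ψ B lT x lam) * Fintype.card Ω := by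
        refine sum_le_sum_of_subset_of_nonneg (subset_univ _) fun lam _ _ => ?_
        have : 0 ≤ ∏ x, ker S i lab0 ψ B lT x lam := prod_nonneg fun x _ => by
          unfold ker
          split_ifs
          · exact (Real.exp_pos _).le
          · exact zero_le_one
          · exact le_rfl
        positivity
    _ ≤ _ := by
        rw [← sum_mul, ← mul_sum]
        refine mul_le_mul_of_nonneg_right (mul_le_of_le_one_right (Real.exp_pos _).le ?_)
          (by positivity)
        have := sum_ker_le (i := i) (lab0 := lab0) h0 ψ B hker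
        convert this

end Vale.Agent.P201
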