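import Vale.Agent.P201.Levels

/-! Short reduced paths in a folded graph of large girth. -/

namespace Vale.Agent.P201

open Finset Vale.Agent.GP

namespace ShortPaths

variable {Y V : Type} {E : V → Y × Bool → V → Prop}

/-- A reduced path of length `p`. -/
def RP (E : V → Y × Bool → V → Prop) (p : ℕ) (a : ℕ → V) (l : ℕ → Y × Bool) : Prop :=
  (∀ i, i < p → E (a i) (l i) (a (i + 1))) ∧ (∀ i, i + 1 < p → l (i + 1) ≠ sg (l i))

theorem RP.shift {p : ℕ} {a : ℕ → V} {l : ℕ → Y × Bool} (h : RP E p a l) (j n : ℕ)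
    (hn : j + n ≤ p) : RP E n (fun i => a (j + i)) (fun i => l (j + i)) :=
  ⟨fun i hi => h.1 (j + i) (by omega), fun i hi => h.2 (j + i) (by omega)⟩

theorem RP.rev (hF : Folded E) {p : ℕ} {a : ℕ → V} {l : ℕ → Y × Bool} (h : RP E p a l) :
    RP E p (fun i => a (p - i)) (fun i => sg (l (p - 1 - i))) := by
  refine ⟨fun i hi => ?_, fun i hi => ?_⟩
  · have h1 := hF.symm _ _ _ (h.1 (p - 1 - i) (by omega))
    have e1 : p - 1 - i + 1 = p - i := by omega
    have e2 : p - 1 - i = p - (i + 1) := by omega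
    rw [e1] at h1
    show E (a (p - i)) (sg (l (p - 1 - i))) (a (p - (i + 1)))
    rw [← e2]
    exact h1
  · have h1 := h.2 (p - 1 - (i + 1)) (by omega)
    have e1 : p - 1 - (i + 1) + 1 = p - 1 - i := by omega
    rw [e1] at h1
    intro h2
    apply h1
    have h3 : sg (l (p - 1 - (i + 1))) = sg (sg (l (p - 1 - i))) := h2
    rw [h3, sg_sg]

theorem RP.concat {p q : ℕ} {a b : ℕ → V} {l k : ℕ → Y × Bool} (ha : RP E p a l)
    (hb : RP E q b k) (hab : a p = b 0) (hr : 0 < p → 0 < q → k 0 ≠ sg (l (p - 1))) :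
    RP E (p + q) (fun i => if i ≤ p then a i else b (i - p))
      (fun i => if i < p then l i else k (i - p)) := by
  refine ⟨fun i hi => ?_, fun i hi => ?_⟩
  · by_cases h1 : i < p
    · simp only [if_pos h1, if_pos h1.le, if_pos (show i + 1 ≤ p from h1)]
      exact ha.1 i h1
    · have h2 := hb.1 (i - p) (by omega)
      have e1 : i - p + 1 = i + 1 - p := by omega
      rw [e1] at h2
      simp only [if_neg h1, if_neg (show ¬ i + 1 ≤ p from h1)]
      by_cases h3 : i ≤ p
      · have e2 : i = p := by omega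
        rw [if_pos h3]
        subst e2
        rw [hab]
        simpa using h2
      · rw [if_neg h3]
        exact h2
  · by_cases h1 : i + 1 < p
    · simp only [if_pos h1, if_pos (show i < p by omega)]
      exact ha.2 i h1
    · by_cases h2 : i < p
      · have e1 : i + 1 - p = 0 := by omega
        have e2 : i = p - 1 := by omega
        simp only [if_neg h1, if_pos h2, e1]
        rw [e2]
        exact hr (by omega) (by omega)
      · have e1 : i + 1 - p = i - p + 1 := by omega
        simp only [if_neg h1, if_neg h2, e1]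
        exact hb.2 _ (by omega)

theorem RP.closed {g p : ℕ} (hg : Girth E g) {a : ℕ → V} {l : ℕ → Y × Bool} (h : RP E p a l)
    (hp : p ≤ g) (hc : a p = a 0) : p = 0 := by
  by_contra h0
  exact hg p a l (Nat.pos_of_ne_zero h0) hp h.1 h.2 hc

theorem RP.inj {g p : ℕ} (hg : Girth E g) {a : ℕ → V} {l : ℕ → Y × Bool} (h : RP E p a l)
    (hp : p ≤ g) {i j : ℕ} (hi : i ≤ p) (hj : j ≤ p) (hij : a i = a j) : i = j := by
  wlog hle : i ≤ j generalizing i j
  · exact (this hj hi hij.symm (by omega)).symm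
  have h1 := (h.shift i (j - i) (by omega)).closed hg (by omega) (by
    show a (i + (j - i)) = a (i + 0)
    rw [show i + (j - i) = j by omega, add_zero, hij])
  omega

theorem unique (hF : Folded E) {g : ℕ} (hg : Girth E g) : ∀ (p q : ℕ) (a b : ℕ → V)
    (l k : ℕ → Y × Bool), RP E p a l → RP E q b k → a 0 = b 0 → a p = b q → p + q ≤ g →
    p = q ∧ (∀ i, i ≤ p → a i = b i) ∧ ∀ i, i < p → l i = k i := by
  intro p
  induction p with
  | zero =>
    intro q a b l k _ hb h0 h1 hpq
    have := hb.closed hg (by omega) (h1.symm.trans h0)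
    refine ⟨this.symm, fun i hi => ?_, fun i hi => absurd hi (by omega)⟩
    rw [Nat.le_zero.1 hi]
    exact h0
  | succ p ih =>
    intro q a b l k ha hb h0 h1 hpq
    cases q with
    | zero => exact absurd (ha.closed hg (by omega) (h1.trans h0.symm)) (by omega)
    | succ q =>
      by_cases hl : l 0 = k 0
      · have e1 : a 1 = b 1 := by
          have h2 := ha.1 0 (by omega)
          have h3 := hb.1 0 (by omega)
          rw [← h0, ← hl] at h3
          exact hF.func _ _ _ _ h2 h3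
        obtain ⟨r1, r2, r3⟩ := ih q _ _ _ _ (ha.shift 1 p (by omega)) (hb.shift 1 q (by omega))
          e1 (by
            show a (1 + p) = b (1 + q)
            rw [add_comm 1 p, add_comm 1 q]
            exact h1) (by omega)
        refine ⟨by omega, fun i hi => ?_, fun i hi => ?_⟩
        · cases i with
          | zero => exact h0
          | succ i =>
            have := r2 i (by omega)
            simpa [add_comm] using this
        · cases i with
          | zero => exact hl
          | succ i =>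
            have := r3 i (by omega)
            simpa [add_comm] using this
      · exfalso
        have hc := (ha.rev hF).concat hb (by simpa using h0) (by
          intro _ _ h
          apply hl
          simpa using h.symm)
        have := hc.closed hg hpq (by
          simp only [Nat.zero_le, if_true, Nat.sub_zero]
          rw [if_neg (by omega), h1]
          congr 1
          omega)
        omega

theorem edge_unique (hF : Folded E) {g : ℕ} (hg : Girth E g) (h2 : 2 ≤ g) {v w : V}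
    {s t : Y × Bool} (hs : E v s w) (ht : E v t w) : s = t := by
  have key : ∀ u, E v u w → RP E 1 (fun i => if i = 0 then v else w) (fun _ => u) := by
    intro u hu
    refine ⟨fun i hi => ?_, fun i hi => absurd hi (by omega)⟩
    have : i = 0 := by omega
    subst this
    simpa using hu
  exact (unique hF hg 1 1 _ _ _ _ (key s hs) (key t ht) rfl rfl h2).2.2 0 (by omega)

/-- The description of a run of coincidences. -/
def Dec (s e s' : ℕ) (ne dir : Bool) (j j' : ℕ) : Prop :=
  ne = true ∧ s ≤ j ∧ j ≤ e ∧ (if dir = true then j' + s = s' + j else j' + j = s' + s)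

theorem run (hF : Folded E) {g : ℕ} (hg : Girth E g) {p q : ℕ} {a b : ℕ → V}
    {l k : ℕ → Y × Bool} (ha : RP E p a l) (hb : RP E q b k) (hpq : p + q ≤ g) :
    ∃ (s e s' : ℕ) (ne dir : Bool), s ≤ p ∧ e ≤ p ∧ s' ≤ q ∧
      (dir = true → s' + e ≤ q + s) ∧ (dir = false → e ≤ s' + s) ∧
      ∀ j j', j ≤ p → j' ≤ q → (a j = b j' ↔ Dec s e s' ne dir j j') := by
  classical
  let S : Finset ℕ := (range (p + 1)).filter fun j => ∃ j', j' ≤ q ∧ a j = b j'
  have hS : ∀ j, j ∈ S ↔ j ≤ p ∧ ∃ j', j' ≤ q ∧ a j = b j' := by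
    intro j
    simp [S]
  by_cases hne : S.Nonempty
  · obtain ⟨hs, s', hs', has⟩ := (hS _).1 (S.min'_mem hne)
    obtain ⟨he, e', he', hae⟩ := (hS _).1 (S.max'_mem hne)
    have hmin : ∀ j ∈ S, S.min' hne ≤ j := fun j hj => S.min'_le j hj
    have hmax : ∀ j ∈ S, j ≤ S.max' hne := fun j hj => S.le_max' j hj
    have hse : S.min' hne ≤ S.max' hne := hmin _ (S.max'_mem hne)
    generalize S.min' hne = s at *
    generalize S.max' hne = e at *
    by_cases hd : s' ≤ e'
    · obtain ⟨r1, r2, -⟩ := unique hF hg (e - s) (e' - s') _ _ _ _ (ha.shift s _ (by omega))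
        (hb.shift s' _ (by omega)) has (by
          show a (s + (e - s)) = b (s' + (e' - s'))
          rw [show s + (e - s) = e by omega, show s' + (e' - s') = e' by omega]
          exact hae) (by omega)
      refine ⟨s, e, s', true, true, hs, he, hs', fun _ => by omega, fun h => absurd h (by simp),
        fun j j' hj hj' => ?_⟩
      simp only [Dec, true_and, if_true]
      constructor
      · intro h
        have hjS : j ∈ S := (hS j).2 ⟨hj, j', hj', h⟩
        have h1 := hmin j hjS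
        have h2 := hmax j hjS
        have h3 : a (s + (j - s)) = b (s' + (j - s)) := r2 (j - s) (by omega)
        rw [show s + (j - s) = j by omega, h] at h3
        have := hb.inj hg (by omega) hj' (by omega) h3
        omega
      · rintro ⟨h1, h2, h3⟩
        have h4 : a (s + (j - s)) = b (s' + (j - s)) := r2 (j - s) (by omega)
        rw [show s + (j - s) = j by omega, show s' + (j - s) = j' by omega] at h4
        exact h4
    · obtain ⟨r1, r2, -⟩ := unique hF hg (e - s) (s' - e') _ _ _ _ (ha.shift s _ (by omega))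
        ((hb.shift e' (s' - e') (by omega)).rev hF) (by
          show a (s + 0) = b (e' + (s' - e' - 0))
          rw [show e' + (s' - e' - 0) = s' by omega]
          exact has) (by
          show a (s + (e - s)) = b (e' + (s' - e' - (s' - e')))
          rw [show s + (e - s) = e by omega, show e' + (s' - e' - (s' - e')) = e' by omega]
          exact hae) (by omega)
      refine ⟨s, e, s', true, false, hs, he, hs', fun h => absurd h (by simp), fun _ => by omega,
        fun j j' hj hj' => ?_⟩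
      simp only [Dec, true_and, Bool.false_eq_true, if_false]
      constructor
      · intro h
        have hjS : j ∈ S := (hS j).2 ⟨hj, j', hj', h⟩
        have h1 := hmin j hjS
        have h2 := hmax j hjS
        have h3 : a (s + (j - s)) = b (e' + (s' - e' - (j - s))) := r2 (j - s) (by omega)
        rw [show s + (j - s) = j by omega, h] at h3
        have := hb.inj hg (by omega) hj' (by omega) h3
        omega
      · rintro ⟨h1, h2, h3⟩
        have h4 : a (s + (j - s)) = b (e' + (s' - e' - (j - s))) := r2 (j - s) (by omega)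
        rw [show s + (j - s) = j by omega, show e' + (s' - e' - (j - s)) = j' by omega] at h4
        exact h4
  · refine ⟨0, 0, 0, false, false, by omega, by omega, by omega, fun h => absurd h (by simp),
      fun _ => by omega, fun j j' hj hj' => ?_⟩
    simp only [Dec, Bool.false_eq_true, false_and, iff_false]
    exact fun h => hne ⟨j, (hS j).2 ⟨hj, j', hj', h⟩⟩

theorem unit_rp {U : Type} {w : ℕ} (c : Cluster E U w) (τ : U) :
    RP E (c.len τ) (c.vx τ) (c.lb τ) := ⟨c.edge τ, c.red τ⟩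

theorem mem_X {m : ℕ} {Z : Type} (S : Sh m Z) (x : Fin m × ℕ) :
    x ∈ S.X ↔ x.2 < S.w ∧ x.2 < S.len x.1 := by
  simp [Sh.X]

theorem mp_eq {m : ℕ} {Z : Type} (S : Sh m Z) {x y : Fin m × ℕ} (h : S.mp x = some y) :
    S.mate x.1 = some y.1 ∧ y.2 = S.len x.1 - 1 - x.2 := by
  unfold Sh.mp at h
  cases hm : S.mate x.1 with
  | none => simp [hm] at h
  | some τ' =>
    rw [hm, Option.map_some, Option.some.injEq] at h
    subst h
    exact ⟨rfl, rfl⟩

end ShortPaths

open ShortPaths

theorem cluster_ok {Y V : Type} {E : V → Y × Bool → V → Prop} (hF : Folded E) {g m w : ℕ}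
    (hg : Girth E g) (hw : 2 * w ≤ g) (c : Cluster E (Fin m) w) :
    (shOf c).OK (fun x => c.lb x.1 x.2) c.nxt (2 * m + 2 * m * m) := by
  classical
  have h2 : ∀ τ : Fin m, 2 ≤ g := fun τ => by
    have := c.len_pos τ
    have := c.len_le τ
    omega
  have hlg : ∀ τ τ', c.len τ + c.len τ' ≤ g := fun τ τ' => by
    have := c.len_le τ
    have := c.len_le τ'
    omega
  have hX : ∀ x ∈ (shOf c).X, x.2 < c.len x.1 := fun x hx => ((mem_X _ x).1 hx).2
  refine
    { len_pos := c.len_pos
      len_le := c.len_le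
      inj := fun τ j j' hj hj' h =>
        (unit_rp c τ).inj hg (by have := hlg τ τ; omega) hj hj' h
      lab_same := fun x hx y hy h1 h3 => ?_
      lab_opp := fun x hx y hy h1 h3 => ?_
      mate_symm := c.mate_symm
      mate_len := c.mate_len
      mate_lb := fun x hx y hy => ?_
      mate_ne := fun x hx y hy h => ?_
      nxt_inj := c.nxt_inj
      nxt_z := c.nxt_vx
      nxt_ne := fun τ τ' h h1 => ?_
      irr := ?_ }
  · have e1 := c.edge x.1 x.2 (hX x hx)
    have e2 := c.edge y.1 y.2 (hX y hy)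
    have h1' : c.vx x.1 x.2 = c.vx y.1 y.2 := h1
    have h3' : c.vx x.1 (x.2 + 1) = c.vx y.1 (y.2 + 1) := h3
    rw [← h1', ← h3'] at e2
    exact edge_unique hF hg (h2 x.1) e1 e2
  · have e1 := c.edge x.1 x.2 (hX x hx)
    have e2 := hF.symm _ _ _ (c.edge y.1 y.2 (hX y hy))
    have h1' : c.vx x.1 x.2 = c.vx y.1 (y.2 + 1) := h1
    have h3' : c.vx x.1 (x.2 + 1) = c.vx y.1 y.2 := h3
    rw [← h1', ← h3'] at e2
    exact edge_unique hF hg (h2 x.1) e1 e2
  · obtain ⟨h1, h3⟩ := mp_eq _ hy
    show c.lb y.1 y.2 = sg (c.lb x.1 x.2)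
    rw [h3]
    exact c.mate_lb _ _ _ h1 (hX x hx)
  · obtain ⟨h1, h3⟩ := mp_eq _ hy
    have h3' : y.2 = c.len x.1 - 1 - x.2 := h3
    have hx2 := hX x hx
    have hlen := c.mate_len _ _ h1
    have hlb := c.mate_lb _ _ _ h1 hx2
    rw [← h3'] at hlb
    rcases Sym2.eq_iff.1 h with ⟨h4, h5⟩ | ⟨h4, -⟩
    · have e1 := c.edge x.1 x.2 hx2
      have e2 := c.edge y.1 y.2 (by omega)
      have h4' : c.vx y.1 y.2 = c.vx x.1 x.2 := h4
      have h5' : c.vx y.1 (y.2 + 1) = c.vx x.1 (x.2 + 1) := h5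
      rw [h4', h5', hlb] at e2
      exact sg_ne _ (edge_unique hF hg (h2 x.1) e2 e1)
    · have h4' : c.vx y.1 y.2 = c.vx x.1 (x.2 + 1) := h4
      rw [h3'] at h4'
      exact c.mate_ne _ _ _ h1 hx2 h4'
  · have hp := c.len_pos τ
    have e1 := c.edge τ' 0 (c.len_pos τ')
    have e2 := hF.symm _ _ _ (c.edge τ (c.len τ - 1) (by omega))
    have h1' : c.vx τ' 1 = c.vx τ (c.len τ - 1) := h1
    rw [show c.len τ - 1 + 1 = c.len τ by omega, ← c.nxt_vx _ _ h, ← h1'] at e2
    exact c.nxt_red _ _ h (edge_unique hF hg (h2 τ) e1 e2)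
  · choose s e s' ne dir hs he hs' hd1 hd2 hrun using
      fun τ τ' => run hF hg (unit_rp c τ) (unit_rp c τ') (hlg τ τ')
    refine ⟨((univ.image fun τ : Fin m => (τ, 0)) ∪ (univ.image fun τ : Fin m => (τ, c.len τ))) ∪
      ((univ.image fun x : Fin m × Fin m => (x.1, s x.1 x.2)) ∪
        (univ.image fun x : Fin m × Fin m => (x.1, e x.1 x.2))), ?_, ?_, ?_⟩
    · have a1 : (univ.image fun τ : Fin m => (τ, 0)).card ≤ m :=
        card_image_le.trans (by simp)
      have a2 : (univ.image fun τ : Fin m => (τ, c.len τ)).card ≤ m :=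
        card_image_le.trans (by simp)
      have a3 : (univ.image fun x : Fin m × Fin m => (x.1, s x.1 x.2)).card ≤ m * m :=
        card_image_le.trans (by simp)
      have a4 : (univ.image fun x : Fin m × Fin m => (x.1, e x.1 x.2)).card ≤ m * m :=
        card_image_le.trans (by simp)
      refine (card_union_le _ _).trans ((Nat.add_le_add (card_union_le _ _)
        (card_union_le _ _)).trans ?_)
      rw [mul_assoc]
      omega
    · intro b hb
      simp only [mem_union, mem_image, mem_univ, true_and] at hb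
      rcases hb with (⟨τ, rfl⟩ | ⟨τ, rfl⟩) | (⟨x, rfl⟩ | ⟨x, rfl⟩)
      · exact Nat.zero_le _
      · exact le_rfl
      · exact hs _ _
      · exact he _ _
    · intro τ0 j0 _ hreg
      by_contra hcon
      apply hreg
      have hno : ∀ τ j, (j = 0 ∨ j = c.len τ ∨ ∃ τ', j = s τ τ' ∨ j = e τ τ') →
          c.vx τ j ≠ c.vx τ0 j0 := by
        intro τ j hj h
        apply hcon
        refine ⟨(τ, j), ?_, h⟩
        simp only [mem_union, mem_image, mem_univ, true_and]
        rcases hj with rfl | rfl | ⟨τ', rfl | rfl⟩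
        · exact Or.inl (Or.inl ⟨τ, rfl⟩)
        · exact Or.inl (Or.inr ⟨τ, rfl⟩)
        · exact Or.inr (Or.inl ⟨(τ, τ'), rfl⟩)
        · exact Or.inr (Or.inr ⟨(τ, τ'), rfl⟩)
      intro τ j hj hv
      have hj' : j ≤ c.len τ := hj
      have hv' : c.vx τ j = c.vx τ0 j0 := hv
      have n0 : j ≠ 0 := fun h => hno τ j (Or.inl h) hv'
      have n1 : j ≠ c.len τ := fun h => hno τ j (Or.inr (Or.inl h)) hv'
      refine ⟨Nat.pos_of_ne_zero n0, lt_of_le_of_ne hj' n1, fun τ' j' hj1 hv1 => ?_⟩
      have hj1' : j' ≤ c.len τ' := hj1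
      have hv1' : c.vx τ' j' = c.vx τ0 j0 := hv1
      have n2 : j ≠ s τ τ' := fun h => hno τ j (Or.inr (Or.inr ⟨τ', Or.inl h⟩)) hv'
      have n3 : j ≠ e τ τ' := fun h => hno τ j (Or.inr (Or.inr ⟨τ', Or.inr h⟩)) hv'
      obtain ⟨d1, d2, d3, d4⟩ := (hrun τ τ' j j' hj' hj1').1 (hv'.trans hv1'.symm)
      have hs1 := hs' τ τ'
      show s(c.vx τ (j - 1), c.vx τ (j + 1)) = s(c.vx τ' (j' - 1), c.vx τ' (j' + 1))
      cases hdir : dir τ τ' with
      | true =>
        have := hd1 τ τ' hdir
        rw [if_pos hdir] at d4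
        rw [(hrun τ τ' (j - 1) (j' - 1) (by omega) (by omega)).2
            ⟨d1, by omega, by omega, by rw [if_pos hdir]; omega⟩,
          (hrun τ τ' (j + 1) (j' + 1) (by omega) (by omega)).2
            ⟨d1, by omega, by omega, by rw [if_pos hdir]; omega⟩]
      | false =>
        have := hd2 τ τ' hdir
        have hdir' : ¬ dir τ τ' = true := by simp [hdir]
        rw [if_neg hdir'] at d4
        rw [(hrun τ τ' (j - 1) (j' + 1) (by omega) (by omega)).2
            ⟨d1, by omega, by omega, by rw [if_neg hdir']; omega⟩,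
          (hrun τ τ' (j + 1) (j' - 1) (by omega) (by omega)).2
            ⟨d1, by omega, by omega, by rw [if_neg hdir']; omega⟩, Sym2.eq_swap]

theorem ok_transfer {m : ℕ} {Z Z' Y : Type} (S : Sh m Z) (S' : Sh m Z') (hw : S'.w = S.w)
    (hl : S'.len = S.len) (hm : S'.mate = S.mate)
    (hz : ∀ τ j τ' j', j ≤ S.len τ → j' ≤ S.len τ' →
      (S.z τ j = S.z τ' j' ↔ S'.z τ j = S'.z τ' j'))
    {lab : Fin m × ℕ → Y × Bool} {nxt : Fin m → Option (Fin m)} {K : ℕ} (h : S.OK lab nxt K) :
    S'.OK lab nxt K := by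
  have hX : ∀ x, x ∈ S'.X ↔ x ∈ S.X := fun x => by rw [mem_X, mem_X, hw, hl]
  have hX2 : ∀ x ∈ S'.X, x.2 < S.len x.1 := fun x hx => ((mem_X _ x).1 ((hX x).1 hx)).2
  have hmp : ∀ x, S'.mp x = S.mp x := fun x => by unfold Sh.mp; rw [hm, hl]
  refine
    { len_pos := by rw [hl]; exact h.len_pos
      len_le := by rw [hl, hw]; exact h.len_le
      inj := fun τ j j' hj hj' h1 => ?_
      lab_same := fun x hx y hy h1 h3 => ?_
      lab_opp := fun x hx y hy h1 h3 => ?_
      mate_symm := by rw [hm]; exact h.mate_symm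
      mate_len := by rw [hm, hl]; exact h.mate_len
      mate_lb := fun x hx y hy => h.mate_lb x ((hX x).1 hx) y (hmp x ▸ hy)
      mate_ne := fun x hx y hy h1 => ?_
      nxt_inj := h.nxt_inj
      nxt_z := fun τ τ' h1 => ?_
      nxt_ne := fun τ τ' h1 h3 => ?_
      irr := ?_ }
  · rw [hl] at hj hj'
    exact h.inj τ j j' hj hj' ((hz _ _ _ _ hj hj').2 h1)
  · have a1 := hX2 x hx
    have a2 := hX2 y hy
    exact h.lab_same x ((hX x).1 hx) y ((hX y).1 hy) ((hz _ _ _ _ a1.le a2.le).2 h1)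
      ((hz _ _ _ _ a1 a2).2 h3)
  · have a1 := hX2 x hx
    have a2 := hX2 y hy
    exact h.lab_opp x ((hX x).1 hx) y ((hX y).1 hy) ((hz _ _ _ _ a1.le a2).2 h1)
      ((hz _ _ _ _ a1 a2.le).2 h3)
  · rw [hmp] at hy
    obtain ⟨b1, b2⟩ := mp_eq _ hy
    have a1 := hX2 x hx
    have a2 : y.2 < S.len y.1 := by
      rw [h.mate_len _ _ b1]
      omega
    apply h.mate_ne x ((hX x).1 hx) y hy
    rcases Sym2.eq_iff.1 h1 with ⟨h4, h5⟩ | ⟨h4, h5⟩
    · exact Sym2.eq_iff.2 (Or.inl ⟨(hz _ _ _ _ a2.le a1.le).2 h4, (hz _ _ _ _ a2 a1).2 h5⟩)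
    · exact Sym2.eq_iff.2 (Or.inr ⟨(hz _ _ _ _ a2.le a1).2 h4, (hz _ _ _ _ a2 a1.le).2 h5⟩)
  · rw [hl]
    exact (hz _ _ _ _ (Nat.zero_le _) le_rfl).1 (h.nxt_z τ τ' h1)
  · rw [hl] at h3
    exact h.nxt_ne τ τ' h1 ((hz _ _ _ _ (h.len_pos τ') (Nat.sub_le _ _)).2 h3)
  · obtain ⟨I, hI, hI2, hI3⟩ := h.irr
    refine ⟨I, hI, by rw [hl]; exact hI2, fun τ j hj hreg => ?_⟩
    rw [hl] at hj
    have hreg' : ¬ S.Reg (S.z τ j) := by
      intro hr
      apply hreg
      intro τ1 j1 hj1 hv1
      rw [hl] at hj1 ⊢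
      obtain ⟨c1, c2, c3⟩ := hr τ1 j1 hj1 ((hz _ _ _ _ hj1 hj).2 hv1)
      refine ⟨c1, c2, fun τ2 j2 hj2 hv2 => ?_⟩
      have hv2' := (hz _ _ _ _ hj2 hj).2 hv2
      obtain ⟨-, c4, -⟩ := hr τ2 j2 hj2 hv2'
      rcases Sym2.eq_iff.1 (c3 τ2 j2 hj2 hv2') with ⟨h4, h5⟩ | ⟨h4, h5⟩
      · exact Sym2.eq_iff.2 (Or.inl ⟨(hz _ _ _ _ (by omega) (by omega)).1 h4,
          (hz _ _ _ _ (by omega) (by omega)).1 h5⟩)
      · exact Sym2.eq_iff.2 (Or.inr ⟨(hz _ _ _ _ (by omega) (by omega)).1 h4,
          (hz _ _ _ _ (by omega) (by omega)).1 h5⟩)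
    obtain ⟨b, hb, hb2⟩ := hI3 τ j hj hreg'
    exact ⟨b, hb, (hz _ _ _ _ (hI2 b hb) hj).1 hb2⟩

theorem exists_code (m w : ℕ) : ∃ (Par : Type) (_ : Fintype Par)
    (dec : Par → Fin m → ℕ → Fin m → ℕ → Prop), Fintype.card Par ≤ (4 * (w + 1) ^ 3) ^ (m * m) ∧
    ∀ (Y V : Type) (E : V → Y × Bool → V → Prop) (g : ℕ), Folded E → Girth E g → 2 * w ≤ g →
      ∀ c : Cluster E (Fin m) w, ∃ par : Par, ∀ τ j τ' j', j ≤ c.len τ → j' ≤ c.len τ' →
        (c.vx τ j = c.vx τ' j' ↔ dec par τ j τ' j') := by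
  refine ⟨Fin m × Fin m → (Fin (w + 1) × Fin (w + 1) × Fin (w + 1)) × Bool × Bool, inferInstance,
    fun par τ j τ' j' => Dec (par (τ, τ')).1.1 (par (τ, τ')).1.2.1 (par (τ, τ')).1.2.2
      (par (τ, τ')).2.1 (par (τ, τ')).2.2 j j', ?_, ?_⟩
  · apply le_of_eq
    simp only [Fintype.card_fun, Fintype.card_prod, Fintype.card_fin, Fintype.card_bool]
    congr 1
    ring
  · intro Y V E g hF hg hw c
    have hlg : ∀ τ τ', c.len τ + c.len τ' ≤ g := fun τ τ' => by
      have := c.len_le τ
      have := c.len_le τ'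
      omega
    choose s e s' ne dir hs he hs' _ _ hrun using
      fun τ τ' => run hF hg (unit_rp c τ) (unit_rp c τ') (hlg τ τ')
    exact ⟨fun x => ((⟨s x.1 x.2, Nat.lt_succ_of_le ((hs _ _).trans (c.len_le _))⟩,
      ⟨e x.1 x.2, Nat.lt_succ_of_le ((he _ _).trans (c.len_le _))⟩,
      ⟨s' x.1 x.2, Nat.lt_succ_of_le ((hs' _ _).trans (c.len_le _))⟩), ne x.1 x.2, dir x.1 x.2),
      fun τ j τ' j' hj hj' => hrun τ τ' j j' hj hj'⟩

end Vale.Agent.P201
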