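import Vale.Agent.P201.LevelSum
import Vale.Agent.P201.ShortPaths
import Vale.Agent.P201.FirstMoment

/-! Existence of a graph in the ensemble with the local expansion property. -/

namespace Vale.Agent.P201

open Finset Vale.Agent.GP

namespace ExistsLEP

/-- Transport of a cluster along a bijection of the units. -/
def reindex {X V U U' : Type} {E : V → X × Bool → V → Prop} {w : ℕ} (c : Cluster E U w)
    (e : U' ≃ U) : Cluster E U' w where
  len τ := c.len (e τ)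
  vx τ := c.vx (e τ)
  lb τ := c.lb (e τ)
  nxt τ := (c.nxt (e τ)).map e.symm
  mate τ := (c.mate (e τ)).map e.symm
  len_pos τ := c.len_pos _
  len_le τ := c.len_le _
  edge τ := c.edge _
  red τ := c.red _
  nxt_inj τ₁ τ₂ τ h1 h2 := by
    obtain ⟨a, ha, rfl⟩ := Option.map_eq_some_iff.1 h1
    obtain ⟨b, hb, hab⟩ := Option.map_eq_some_iff.1 h2
    rw [e.symm.injective hab] at hb
    exact e.injective (c.nxt_inj _ _ _ ha hb)
  nxt_vx τ τ' h := by
    obtain ⟨a, ha, rfl⟩ := Option.map_eq_some_iff.1 h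
    rw [e.apply_symm_apply]
    exact c.nxt_vx _ _ ha
  nxt_red τ τ' h := by
    obtain ⟨a, ha, rfl⟩ := Option.map_eq_some_iff.1 h
    rw [e.apply_symm_apply]
    exact c.nxt_red _ _ ha
  mate_symm τ τ' h := by
    obtain ⟨a, ha, rfl⟩ := Option.map_eq_some_iff.1 h
    rw [e.apply_symm_apply, c.mate_symm _ _ ha, Option.map_some, e.symm_apply_apply]
  mate_len τ τ' h := by
    obtain ⟨a, ha, rfl⟩ := Option.map_eq_some_iff.1 h
    rw [e.apply_symm_apply]
    exact c.mate_len _ _ ha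
  mate_lb τ τ' j h := by
    obtain ⟨a, ha, rfl⟩ := Option.map_eq_some_iff.1 h
    rw [e.apply_symm_apply]
    exact c.mate_lb _ _ j ha
  mate_ne τ τ' j h := by
    obtain ⟨a, ha, rfl⟩ := Option.map_eq_some_iff.1 h
    rw [e.apply_symm_apply]
    exact c.mate_ne _ _ j ha

/-- The expansion inequality for all clusters indexed by `Fin m`. -/
def Exp {X V : Type} (E : V → X × Bool → V → Prop) (roots : Set V) (m w : ℕ)
    (η C Λ K : ℝ) : Prop :=
  ∀ (c : Cluster E (Fin m) w) (ρ : ℕ), (ρ = 0 ∨ (ρ = 1 ∧ ∃ τ, c.vx τ 0 ∈ roots)) →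
    η * (∑ τ, (c.len τ : ℝ)) ≤
      (((univ.filter fun τ => c.nxt τ = none).card : ℝ) - ρ) * Λ +
        C * (∑ τ ∈ univ.filter fun τ => c.mate τ = none, (c.len τ : ℝ)) + K

theorem Exp.mono {X V : Type} {E : V → X × Bool → V → Prop} {roots : Set V} {m w : ℕ}
    {η C Λ K K' : ℝ} (h : Exp E roots m w η C Λ K) (hK : K ≤ K') : Exp E roots m w η C Λ K' :=
  fun c ρ hρ => (h c ρ hρ).trans (by linarith)

theorem lep_of_exp {X V : Type} {E : V → X × Bool → V → Prop} {roots : Set V} {m w : ℕ}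
    {η C Λ K : ℝ} (h : ∀ m' ≤ m, Exp E roots m' w η C Λ K) : LEP E roots m w η C Λ K := by
  intro U _ _ hU c ρ hρ
  set e := (Fintype.equivFin U).symm with he
  have := h _ hU (reindex c e) ρ (hρ.imp id fun h' => ⟨h'.1, by
    obtain ⟨τ, hτ⟩ := h'.2
    exact ⟨e.symm τ, by simpa [reindex] using hτ⟩⟩)
  have e1 : ∑ τ, ((reindex c e).len τ : ℝ) = ∑ τ, (c.len τ : ℝ) :=
    e.sum_comp fun τ => (c.len τ : ℝ)
  have e2 : (univ.filter fun τ => (reindex c e).nxt τ = none).card =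
      (univ.filter fun τ => c.nxt τ = none).card :=
    card_equiv e fun τ => by simp [reindex]
  have e3 : ∑ τ ∈ univ.filter fun τ => (reindex c e).mate τ = none, ((reindex c e).len τ : ℝ) =
      ∑ τ ∈ univ.filter fun τ => c.mate τ = none, (c.len τ : ℝ) :=
    sum_equiv e (fun τ => by simp [reindex]) fun τ _ => rfl
  rwa [e1, e2, e3] at this

theorem card_union_le {Ω ι : Type} [Fintype Ω] (s : Finset ι) (P : Ω → Prop) (Q : ι → Ω → Prop)
    (h : ∀ ω, P ω → ∃ i ∈ s, Q i ω) :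
    (Nat.card {ω // P ω} : ℝ) ≤ ∑ i ∈ s, (Nat.card {ω // Q i ω} : ℝ) := by
  classical
  simp only [Nat.card_eq_fintype_card, Fintype.card_subtype]
  have : univ.filter P ⊆ s.biUnion fun i => univ.filter (Q i) := fun ω hω => by
    obtain ⟨i, hi, hq⟩ := h ω (mem_filter.1 hω).2
    exact mem_biUnion.2 ⟨i, hi, mem_filter.2 ⟨mem_univ _, hq⟩⟩
  exact_mod_cast (card_le_card this).trans card_biUnion_le

theorem core {Y : Type} [Fintype Y] [DecidableEq Y]
    (ψ : Y × Bool → ℝ) (B : Y × Bool → Y × Bool → ℝ) (η c₁ C : ℝ) (hη : 0 < η)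
    (hA : ∀ t, 0 ≤ ψ t + ψ (sg t)) (hB : ∀ u t, 0 ≤ B u t) (hBs : ∀ u t, B u t = B t u)
    (hker : ∀ u, ∑ t, Real.exp (-(2 * (ψ t + ψ (sg t)) + 2 * B u t)) ≤ 1)
    (hAC : ∀ t, ψ t + ψ (sg t) ≤ C) (hBC : ∀ u t, B u t ≤ C) (hψC : ∀ t, ψ t ≤ C) (hC : 0 ≤ C)
    (m : ℕ) (δ : ℝ) (hδ : 0 < δ) : ∃ K : ℝ, 0 ≤ K ∧
      ∀ (V Ω : Type) [Fintype V] [DecidableEq V] [Fintype Ω] (part : V → Bool)
        (L : V → Finset (Y × Bool)) (g w n' : ℕ) (roots : Finset V)
        (E : Ω → V → Y × Bool → V → Prop), 2 * w ≤ g → 0 < n' → roots.card ≤ 2 →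
        (Fintype.card V : ℝ) ≤ c₁ * n' →
        (∀ b u t, u ≠ t → ((univ.filter fun v => part v = b ∧ u ∈ L v ∧ t ∈ L v).card : ℝ) ≤
          Real.exp (-(B u t + ψ u + ψ t + η)) * n') →
        (∀ ω, Good part L g (E ω)) → ExtBound E (m * w) n' →
        (Nat.card {ω // ¬ Exp (E ω) (↑roots) m w η (2 * C) (Real.log (Fintype.card V))
          (K * (1 + Real.log (w + 1)))} : ℝ) ≤ δ * Fintype.card Ω := by
  classical
  set lT := Real.log (Fintype.card (Y × Bool)) with hlT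
  set Λ' := Real.log (max c₁ 1) with hΛ'
  have lT0 : 0 ≤ lT := Real.log_natCast_nonneg _
  have Λ'0 : 0 ≤ Λ' := Real.log_nonneg (le_max_right _ _)
  set D : ℝ := (((m + 1) ^ m * 2 ^ m * (m + 1) * 4 ^ (m * m) * m : ℕ) : ℝ) with hD
  have D0 : 0 ≤ D := Nat.cast_nonneg _
  set a : ℝ := Real.log (D / δ + 1) with ha
  have a0 : 0 ≤ a := Real.log_nonneg (by have := div_nonneg D0 hδ.le; linarith)
  set k : ℕ := m + 3 * (m * m) with hk
  set R : ℝ := 2 * m * ((2 * m + 2 * m * m : ℕ) : ℝ) * (Λ' + 3 * C + η + lT) + m with hR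
  have R0 : 0 ≤ R := by positivity
  refine ⟨m * (a + k) + R, by positivity, ?_⟩
  intro V Ω _ _ _ part L g w n' roots E hw hn' hr hV hcount hgood hext
  set Λ := Real.log (Fintype.card V) with hΛ
  have Λ0 : 0 ≤ Λ := Real.log_natCast_nonneg _
  have hn1 : (1 : ℝ) ≤ n' := by exact_mod_cast hn'
  have hΛn : Λ - Real.log n' ≤ Λ' := by
    have l0 : 0 ≤ Real.log n' := Real.log_nonneg hn1
    rcases Nat.eq_zero_or_pos (Fintype.card V) with h | h
    · rw [hΛ, h, Nat.cast_zero, Real.log_zero]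
      linarith
    · have h1 : (0 : ℝ) < max c₁ 1 := lt_of_lt_of_le one_pos (le_max_right _ _)
      rw [sub_le_iff_le_add, hΛ', ← Real.log_mul h1.ne' (by linarith)]
      refine Real.log_le_log (by exact_mod_cast h) (hV.trans ?_)
      exact mul_le_mul_of_nonneg_right (le_max_left _ _) (by linarith)
  set lw := Real.log ((w : ℝ) + 1) with hlw
  have lw0 : 0 ≤ lw := Real.log_nonneg (by have : (0 : ℝ) ≤ w := Nat.cast_nonneg _; linarith)
  set t : ℝ := a + k * lw with ht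
  have hK : m * t + R ≤ (m * (a + k) + R) * (1 + lw) := by
    have b1 : (0 : ℝ) ≤ m * a * lw := by positivity
    have b2 : (0 : ℝ) ≤ m * k := by positivity
    have b3 : (0 : ℝ) ≤ R * lw := by positivity
    rw [ht]
    nlinarith
  obtain ⟨Par, _, dec, hPar, hdec⟩ := exists_code m w
  set Code := (Fin m → Fin (w + 1)) × (Fin m → Option (Fin m)) × (Fin m → Bool) ×
    Option (Fin m) × Par with hCode
  set Q : Code → Ω → Prop := fun cd ω => ∃ c : Cluster (E ω) (Fin m) w,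
    (∀ τ, c.len τ = cd.1 τ) ∧ c.mate = cd.2.1 ∧ (∀ τ, part (c.vx τ 0) = cd.2.2.1 τ) ∧
    (∀ τ, cd.2.2.2.1 = some τ → c.vx τ 0 ∈ roots) ∧
    (∀ τ j τ' j', j ≤ c.len τ → j' ≤ c.len τ' → (c.vx τ j = c.vx τ' j' ↔ dec cd.2.2.2.2 τ j τ' j')) ∧
    ∃ ρ : ℕ, (ρ = 0 ∨ (ρ = 1 ∧ ∃ τ, cd.2.2.2.1 = some τ)) ∧
      (((univ.filter fun τ => c.nxt τ = none).card : ℝ) - ρ) * Λ +
        2 * C * (∑ τ ∈ univ.filter fun τ => c.mate τ = none, (c.len τ : ℝ)) + (m * t + R) <
        η * (∑ τ, (c.len τ : ℝ)) with hQ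
  have step1 := card_union_le (univ : Finset Code)
    (fun ω => ¬ Exp (E ω) (↑roots) m w η (2 * C) Λ ((m * (a + k) + R) * (1 + lw))) Q (by
      intro ω hω
      unfold Exp at hω
      push Not at hω
      obtain ⟨c, ρ, hρ, hlt⟩ := hω
      obtain ⟨par, hpar⟩ := hdec Y V (E ω) g (hgood ω).folded (hgood ω).girth hw c
      obtain ⟨r, hr1, hr2⟩ : ∃ r : Option (Fin m), (∀ τ, r = some τ → c.vx τ 0 ∈ roots) ∧
          (ρ = 0 ∨ (ρ = 1 ∧ ∃ τ, r = some τ)) := by
        rcases hρ with h | ⟨h, τ, hτ⟩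
        · exact ⟨none, by simp, Or.inl h⟩
        · refine ⟨some τ, fun τ' h' => ?_, Or.inr ⟨h, τ, rfl⟩⟩
          rw [← Option.some.inj h']
          exact hτ
      refine ⟨(fun τ => ⟨c.len τ, Nat.lt_succ_of_le (c.len_le τ)⟩, c.mate,
        fun τ => part (c.vx τ 0), r, par), mem_univ _, c, fun τ => rfl, rfl, fun τ => rfl, hr1,
        hpar, ρ, hr2, ?_⟩
      linarith)
  have step2 : ∀ cd : Code, (Nat.card {ω // Q cd ω} : ℝ) ≤ m * (Real.exp (-t) * Fintype.card Ω) := by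
    intro cd
    by_cases hex : ∃ ω, Q cd ω
    swap
    · have : IsEmpty {ω // Q cd ω} := ⟨fun x => hex ⟨x.1, x.2⟩⟩
      rw [Nat.card_of_isEmpty, Nat.cast_zero]
      positivity
    obtain ⟨ω₀, c₀, p1, p2, p3, p4, p5, -⟩ := hex
    set S : Sh m V := shOf c₀ with hS
    set rt : Option V := cd.2.2.2.1.map fun τ => c₀.vx τ 0 with hrt
    refine (card_union_le (Icc 1 m) _ (fun i ω => ∃ (c : Cluster (E ω) (Fin m) w) (K : ℕ),
        c.len = S.len ∧ S.OK (fun x => c.lb x.1 x.2) c.nxt K ∧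
        (∀ τ j τ' j', j ≤ S.len τ → j' ≤ S.len τ' →
          (c.vx τ j = c.vx τ' j' ↔ S.z τ j = S.z τ' j')) ∧
        (∀ τ, part (c.vx τ 0) = cd.2.2.1 τ) ∧
        (∀ v, rt = some v → ∃ τ, v = S.z τ 0 ∧ c.vx τ 0 ∈ roots) ∧
        S.expr ψ B η lT (fun x => c.lb x.1 x.2) Λ (Real.log n') rt i ≤ -t) ?_).trans ?_
    · rintro ω ⟨c, q1, q2, q3, q4, q5, ρ, hρ, hlt⟩
      have l1 : c.len = S.len := funext fun τ => (q1 τ).trans (p1 τ).symm
      have l2 : S.mate = c.mate := p2.trans q2.symm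
      have l3 : ∀ τ j τ' j', j ≤ S.len τ → j' ≤ S.len τ' →
          (c.vx τ j = c.vx τ' j' ↔ S.z τ j = S.z τ' j') := fun τ j τ' j' h1 h2 =>
        (q5 τ j τ' j' (l1 ▸ h1) (l1 ▸ h2)).trans (p5 τ j τ' j' h1 h2).symm
      have ok : S.OK (fun x => c.lb x.1 x.2) c.nxt (2 * m + 2 * m * m) :=
        ok_transfer (shOf c) S rfl l1.symm l2 (fun τ j τ' j' h1 h2 =>
          l3 τ j τ' j' (l1 ▸ h1) (l1 ▸ h2)) (cluster_ok (hgood ω).folded (hgood ω).girth hw c)
      have ls := level_sum S _ c.nxt _ ok ψ B η lT C Λ (Real.log n') Λ' hA hB hBs hAC hBC hψC hC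
        hη.le lT0 Λ0 Λ'0 hΛn rt ρ (hρ.imp id fun h => ⟨h.1, by
          obtain ⟨τ, hτ⟩ := h.2
          exact ⟨τ, by rw [hrt, hτ]; rfl⟩⟩)
      rw [l2, ← l1] at ls
      obtain ⟨i, hi, hle⟩ : ∃ i ∈ Icc 1 m,
          S.expr ψ B η lT (fun x => c.lb x.1 x.2) Λ (Real.log n') rt i ≤ -t := by
        by_contra hcon
        push Not at hcon
        have := card_nsmul_le_sum (Icc 1 m) _ _ fun i hi => (hcon i hi).le
        rw [Nat.card_Icc, Nat.add_sub_cancel, nsmul_eq_mul] at this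
        linarith
      refine ⟨i, hi, c, _, l1, ok, l3, q3, fun v hv => ?_, hle⟩
      obtain ⟨τ, h1, h2⟩ := Option.map_eq_some_iff.1 hv
      exact ⟨τ, h2.symm, q4 τ h1⟩
    · refine (sum_le_card_nsmul _ _ (Real.exp (-t) * Fintype.card Ω) fun i _ =>
        first_moment ψ B η hker part L g m w n' hn' roots hr hcount E hgood hext S rfl _ rt i t).trans ?_
      rw [Nat.card_Icc, Nat.add_sub_cancel, nsmul_eq_mul]
  refine step1.trans ((sum_le_card_nsmul _ _ _ fun cd _ => step2 cd).trans ?_)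
  rw [nsmul_eq_mul, card_univ, ← mul_assoc, ← mul_assoc]
  refine mul_le_mul_of_nonneg_right ?_ (Nat.cast_nonneg _)
  have c1 : Fintype.card Code * m ≤ ((m + 1) ^ m * 2 ^ m * (m + 1) * 4 ^ (m * m) * m) * (w + 1) ^ k := by
    simp only [hCode, Fintype.card_prod, Fintype.card_fun, Fintype.card_fin, Fintype.card_option,
      Fintype.card_bool]
    calc (w + 1) ^ m * ((m + 1) ^ m * (2 ^ m * ((m + 1) * Fintype.card Par))) * m
        ≤ (w + 1) ^ m * ((m + 1) ^ m * (2 ^ m * ((m + 1) * (4 * (w + 1) ^ 3) ^ (m * m)))) * m := by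
          gcongr
      _ = _ := by
          rw [hk, pow_add, mul_pow, ← pow_mul]
          ring
  have c2 : (Fintype.card Code : ℝ) * m ≤ D * ((w : ℝ) + 1) ^ k := by
    rw [hD]
    exact_mod_cast c1
  have hw1 : (0 : ℝ) < (w : ℝ) + 1 := by positivity
  have hD1 : 0 < D / δ + 1 := by positivity
  have c3 : Real.exp t = (D / δ + 1) * ((w : ℝ) + 1) ^ k := by
    rw [ht, Real.exp_add, ha, Real.exp_log hD1, hlw, ← Real.log_pow, Real.exp_log (by positivity)]
  rw [Real.exp_neg, ← div_eq_mul_inv, div_le_iff₀ (Real.exp_pos _), c3, ← mul_assoc]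
  refine c2.trans (mul_le_mul_of_nonneg_right ?_ (by positivity))
  rw [mul_add, mul_div_cancel₀ _ hδ.ne']
  linarith

end ExistsLEP

theorem exists_lep {Y : Type} [Fintype Y] [DecidableEq Y]
    (ψ : Y × Bool → ℝ) (B : Y × Bool → Y × Bool → ℝ) (η c₁ : ℝ) (hη : 0 < η)
    (hA : ∀ t, 0 ≤ ψ t + ψ (sg t)) (hB : ∀ u t, 0 ≤ B u t) (hBs : ∀ u t, B u t = B t u)
    (hker : ∀ u, ∑ t, Real.exp (-(2 * (ψ t + ψ (sg t)) + 2 * B u t)) ≤ 1) :
    ∃ C : ℝ, 0 ≤ C ∧ ∀ m : ℕ, ∃ K : ℝ, 0 ≤ K ∧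
      ∀ (V Ω : Type) [Fintype V] [DecidableEq V] [Fintype Ω] [Nonempty Ω] (part : V → Bool)
        (L : V → Finset (Y × Bool)) (g w n' : ℕ) (roots : Finset V)
        (E : Ω → V → Y × Bool → V → Prop), 2 * w ≤ g → 0 < n' → roots.card ≤ 2 →
        (Fintype.card V : ℝ) ≤ c₁ * n' →
        (∀ b u t, u ≠ t → ((univ.filter fun v => part v = b ∧ u ∈ L v ∧ t ∈ L v).card : ℝ) ≤
          Real.exp (-(B u t + ψ u + ψ t + η)) * n') →
        (∀ ω, Good part L g (E ω)) → ExtBound E (m * w) n' →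
        ∃ ω, LEP (E ω) (↑roots) m w η C (Real.log (Fintype.card V))
          (K * (1 + Real.log (w + 1))) := by
  classical
  set C : ℝ := 2 * ∑ t, |ψ t| + ∑ u, ∑ t, B u t with hC
  have s0 : 0 ≤ ∑ t, |ψ t| := sum_nonneg fun _ _ => abs_nonneg _
  have s1 : 0 ≤ ∑ u, ∑ t, B u t := sum_nonneg fun _ _ => sum_nonneg fun _ _ => hB _ _
  have s2 : ∀ t, ψ t ≤ ∑ t, |ψ t| := fun t =>
    (le_abs_self _).trans (single_le_sum (f := fun t => |ψ t|) (fun _ _ => abs_nonneg _) (mem_univ t))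
  have s3 : ∀ u t, B u t ≤ ∑ u, ∑ t, B u t := fun u t =>
    (single_le_sum (f := fun t => B u t) (fun _ _ => hB _ _) (mem_univ t)).trans
      (single_le_sum (f := fun u => ∑ t, B u t) (fun _ _ => sum_nonneg fun _ _ => hB _ _) (mem_univ u))
  have C0 : 0 ≤ C := by positivity
  refine ⟨2 * C, by positivity, fun m => ?_⟩
  have hδ : (0 : ℝ) < 1 / (2 * (m + 1)) := by positivity
  choose K K0 hK using fun m' => ExistsLEP.core ψ B η c₁ C hη hA hB hBs hker
    (fun t => by have := s2 t; have := s2 (sg t); linarith)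
    (fun u t => by have := s3 u t; linarith) (fun t => by have := s2 t; linarith) C0 m' _ hδ
  refine ⟨∑ m' ∈ range (m + 1), K m', sum_nonneg fun _ _ => K0 _, ?_⟩
  intro V Ω _ _ _ _ part L g w n' roots E hw hn' hr hV hcount hgood hext
  by_contra hcon
  push Not at hcon
  have lw0 : 0 ≤ 1 + Real.log ((w : ℝ) + 1) := by
    have := Real.log_nonneg (x := (w : ℝ) + 1) (by have : (0 : ℝ) ≤ w := Nat.cast_nonneg _; linarith)
    linarith
  have h1 := ExistsLEP.card_union_le (range (m + 1)) (fun _ : Ω => True)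
    (fun m' ω => ¬ ExistsLEP.Exp (E ω) (↑roots) m' w η (2 * C) (Real.log (Fintype.card V))
      (K m' * (1 + Real.log (w + 1)))) (fun ω _ => by
      by_contra h
      push Not at h
      refine hcon ω (ExistsLEP.lep_of_exp fun m' hm' => (h m' (mem_range.2 (by omega))).mono ?_)
      exact mul_le_mul_of_nonneg_right
        (single_le_sum (f := K) (fun _ _ => K0 _) (mem_range.2 (by omega))) lw0)
  have h2 := h1.trans (sum_le_card_nsmul _ _ (1 / (2 * (m + 1)) * (Fintype.card Ω : ℝ))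
    fun m' hm' => hK m' V Ω part L g w n' roots E hw hn' hr hV hcount hgood
      fun J _ a b l hJ => hext J a b l (hJ.trans (Nat.mul_le_mul_right _
        (Nat.lt_succ_iff.1 (mem_range.1 hm')))))
  rw [Nat.card_eq_fintype_card, Fintype.card_subtype_true, card_range, nsmul_eq_mul] at h2
  have h3 : (0 : ℝ) < Fintype.card Ω := by exact_mod_cast Fintype.card_pos
  have h4 : ((m + 1 : ℕ) : ℝ) * (1 / (2 * (m + 1)) * (Fintype.card Ω : ℝ)) =
      Fintype.card Ω / 2 := by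
    push_cast
    field_simp
  linarith

end Vale.Agent.P201
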