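import Vale.Agent.P201.ShBasic

/-! The deterministic level-sum inequality. -/

namespace Vale.Agent.P201

open Finset Vale.Agent.GP

namespace LevelSumAux

open ShB Classical

variable {m : ℕ} {Z Y : Type} {S : Sh m Z} {lab : Fin m × ℕ → Y × Bool}
  {nxt : Fin m → Option (Fin m)} {K : ℕ}

theorem sum_J_mult (f : Fin m × ℕ → ℝ) :
    ∑ x ∈ S.J, (S.mult x : ℝ) * f x = ∑ y ∈ S.X, f (rep S y) := by
  rw [← sum_fiberwise_of_maps_to (s := S.X) (t := S.J) (g := rep S) (fun y hy => rep_mem hy)]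
  refine sum_congr rfl fun x hx => ?_
  rw [sum_congr rfl (g := fun _ => f x) (fun y hy => by rw [(mem_filter.1 hy).2]), sum_const,
    nsmul_eq_mul]
  congr 2
  unfold Sh.mult
  congr 1
  ext y
  rw [mem_occ, mem_filter]
  exact and_congr_right fun hy => (rep_eq_iff hx hy).symm

theorem sum_Ji_mult (h : S.OK lab nxt K) (f : Fin m × ℕ → ℝ) :
    ∑ i ∈ Icc 1 m, ∑ x ∈ S.Ji i, f x = ∑ x ∈ S.J, (S.mult x : ℝ) * f x := by
  unfold Sh.Ji
  simp only [sum_filter]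
  rw [sum_comm]
  refine sum_congr rfl fun x _ => ?_
  rw [← sum_filter, sum_const, nsmul_eq_mul]
  congr 2
  have : (Icc 1 m).filter (fun i => i ≤ S.mult x) = Icc 1 (S.mult x) := by
    have := mult_le h x
    ext i
    simp only [mem_filter, mem_Icc]
    omega
  rw [this]
  simp

theorem sum_Ji (h : S.OK lab nxt K) (f : Fin m × ℕ → ℝ) :
    ∑ i ∈ Icc 1 m, ∑ x ∈ S.Ji i, f x = ∑ y ∈ S.X, f (rep S y) := by
  rw [sum_Ji_mult h, sum_J_mult]

theorem sum_RJ_eq (i : ℕ) (f : Fin m × ℕ → ℝ) :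
    ∑ x ∈ S.RJ i, f x = ∑ x ∈ S.Ji i, if S.Reg (S.src x) then f x else 0 := by
  unfold Sh.RJ
  rw [sum_filter]

theorem sum_reg (h : S.OK lab nxt K) (g : Fin m × ℕ → ℝ)
    (hg : ∀ y ∈ S.X, ∀ y' ∈ S.X, S.Reg (S.src y) → S.src y' = S.src y → g y = g y') :
    ∑ i ∈ Icc 1 m, ∑ x ∈ S.Ji i, (if S.Reg (S.src x) then g x else 0)
      = ∑ y ∈ S.X, if S.Reg (S.src y) then g y else 0 := by
  rw [sum_Ji_mult h]
  have e1 : ∀ x ∈ S.J, (S.mult x : ℝ) * (if S.Reg (S.src x) then g x else 0)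
      = ∑ y ∈ S.X, if S.src y = S.src x then (if S.Reg (S.src y) then g y else 0) else 0 := by
    intro x hx
    by_cases hv : S.Reg (S.src x)
    · rw [if_pos hv, reg_mult h (J_sub hx) hv (Or.inl rfl), ← sum_filter,
        sum_congr rfl (g := fun _ => g x), sum_const, nsmul_eq_mul]
      intro y hy
      obtain ⟨h1, h2⟩ := mem_filter.1 hy
      rw [if_pos (h2 ▸ hv), hg x (J_sub hx) y h1 hv h2]
    · rw [if_neg hv, mul_zero]
      symm
      refine sum_eq_zero fun y _ => ?_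
      split_ifs with h1 h2
      · exact absurd (h1 ▸ h2) hv
      · rfl
      · rfl
  rw [sum_congr rfl e1, sum_comm]
  refine sum_congr rfl fun y hy => ?_
  by_cases hv : S.Reg (S.src y)
  · obtain ⟨x, hx, e⟩ := reg_exists_J h hy hv
    rw [sum_eq_single_of_mem x hx, if_pos e.symm]
    intro x' hx' hne
    rw [if_neg]
    intro e'
    exact hne (reg_unique_J h hx' hx (e' ▸ hv) (e.trans e'))
  · simp [hv]

theorem card_irr_src (h : S.OK lab nxt K) :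
    ((S.X.filter fun y => ¬ S.Reg (S.src y)).card : ℝ) ≤ m * K := by
  obtain ⟨I, hI, -, hI2⟩ := h.irr
  have : (S.X.filter fun y => ¬ S.Reg (S.src y)).card ≤ K * m := by
    refine (card_le_card (t := I.biUnion fun b => S.X.filter fun y => S.src y = S.z b.1 b.2)
      fun y hy => ?_).trans (card_biUnion_le.trans ?_)
    · obtain ⟨h1, h2⟩ := mem_filter.1 hy
      obtain ⟨b, hb, e⟩ := hI2 y.1 y.2 (lt_of_mem_X h1).le h2
      exact mem_biUnion.2 ⟨b, hb, mem_filter.2 ⟨h1, e.symm⟩⟩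
    · refine (sum_le_card_nsmul I _ m fun b _ => ?_).trans (by
        rw [smul_eq_mul]; exact Nat.mul_le_mul_right _ hI)
      exact card_le_of_fst_inj fun y hy y' hy' e => src_inj h (mem_filter.1 hy).1
        (mem_filter.1 hy').1 e ((mem_filter.1 hy).2.trans (mem_filter.1 hy').2.symm)
  rw [mul_comm]
  exact_mod_cast this

theorem card_irr_tgt (h : S.OK lab nxt K) :
    ((S.X.filter fun y => ¬ S.Reg (S.tgt y)).card : ℝ) ≤ m * K := by
  obtain ⟨I, hI, -, hI2⟩ := h.irr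
  have : (S.X.filter fun y => ¬ S.Reg (S.tgt y)).card ≤ K * m := by
    refine (card_le_card (t := I.biUnion fun b => S.X.filter fun y => S.tgt y = S.z b.1 b.2)
      fun y hy => ?_).trans (card_biUnion_le.trans ?_)
    · obtain ⟨h1, h2⟩ := mem_filter.1 hy
      obtain ⟨b, hb, e⟩ := hI2 y.1 (y.2 + 1) (lt_of_mem_X h1) h2
      exact mem_biUnion.2 ⟨b, hb, mem_filter.2 ⟨h1, e.symm⟩⟩
    · refine (sum_le_card_nsmul I _ m fun b _ => ?_).trans (by
        rw [smul_eq_mul]; exact Nat.mul_le_mul_right _ hI)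
      exact card_le_of_fst_inj fun y hy y' hy' e => tgt_inj h (mem_filter.1 hy).1
        (mem_filter.1 hy').1 e ((mem_filter.1 hy).2.trans (mem_filter.1 hy').2.symm)
  rw [mul_comm]
  exact_mod_cast this

theorem sum_irr_rep (h : S.OK lab nxt K) :
    ∑ y ∈ S.X, (if S.Reg (S.src (rep S y)) then (0 : ℝ) else 1) ≤ 2 * m * K := by
  have h1 := card_irr_src h
  have h2 := card_irr_tgt h
  rw [← sum_boole] at h1 h2
  refine le_trans (sum_le_sum fun y hy => ?_) ((sum_add_distrib.trans_le (add_le_add h1 h2)).trans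
    (le_of_eq (by ring)))
  rcases ed_eq_iff.1 (rep_ed hy) with ⟨e, -⟩ | ⟨e, -⟩ <;> rw [e] <;> split_ifs <;> norm_num

theorem sum_X (h : S.OK lab nxt K) (F : Fin m → ℝ) :
    ∑ y ∈ S.X, F y.1 = ∑ τ, (S.len τ : ℝ) * F τ := by
  unfold Sh.X
  rw [sum_filter, sum_product]
  refine sum_congr rfl fun τ _ => ?_
  simp only
  rw [← sum_filter, sum_const, nsmul_eq_mul]
  congr 2
  have := h.len_le τ
  have e : (range S.w).filter (fun j => j < S.len τ) = range (S.len τ) := by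
    ext j
    simp only [mem_filter, mem_range]
    omega
  rw [e, card_range]

theorem mult_le_out (h : S.OK lab nxt K) {x : Fin m × ℕ} {v : Z}
    (e : S.src x = v ∨ S.tgt x = v) :
    S.mult x ≤ (S.X.filter fun y => S.src y = v).card +
      (univ.filter fun τ => nxt τ = none ∧ S.z τ (S.len τ) = v).card := by
  let f : Fin m × ℕ → (Fin m × ℕ) ⊕ Fin m := fun y =>
    if S.src y = v then Sum.inl y else if y.2 + 1 < S.len y.1 then Sum.inl (nx y) else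
      match nxt y.1 with
      | some τ => Sum.inl (τ, 0)
      | none => Sum.inr y.1
  have hv : ∀ y ∈ S.occ x, S.src y = v ∨ S.tgt y = v := by
    intro y hy
    rcases ed_eq_iff.1 (mem_occ.1 hy).2 with ⟨e2, e3⟩ | ⟨e2, e3⟩ <;> rw [e2, e3] <;> tauto
  have cases : ∀ y ∈ S.occ x, (S.src y = v ∧ f y = Sum.inl y) ∨
      (S.tgt y = v ∧ ∃ u ∈ S.X, f y = Sum.inl u ∧ S.src u = v ∧ S.ed u ≠ S.ed y ∧
        ((y.2 + 1 < S.len y.1 ∧ u = nx y) ∨
          (y.2 + 1 = S.len y.1 ∧ nxt y.1 = some u.1 ∧ u.2 = 0))) ∨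
      (S.tgt y = v ∧ y.2 + 1 = S.len y.1 ∧ nxt y.1 = none ∧ f y = Sum.inr y.1) := by
    intro y hy
    have hyX := (mem_occ.1 hy).1
    have hlt := lt_of_mem_X hyX
    by_cases h1 : S.src y = v
    · exact Or.inl ⟨h1, by simp only [f, if_pos h1]⟩
    have ht : S.tgt y = v := (hv y hy).resolve_left h1
    by_cases h2 : y.2 + 1 < S.len y.1
    · have hn : nx y ∈ S.X := (mem_X h).2 h2
      refine Or.inr (Or.inl ⟨ht, nx y, hn, by simp only [f, if_neg h1, if_pos h2], ht, ?_,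
        Or.inl ⟨h2, rfl⟩⟩)
      have := ed_ne_pred h hn (by simp [nx])
      rw [pred_nx] at this
      exact this.symm
    have h3 : y.2 + 1 = S.len y.1 := by omega
    cases hn : nxt y.1 with
    | none => exact Or.inr (Or.inr ⟨ht, h3, rfl, by simp only [f, if_neg h1, if_neg h2, hn]⟩)
    | some τ =>
      have e1 : S.src (τ, 0) = v := by
        rw [← ht]; unfold Sh.src Sh.tgt; rw [h3]; exact h.nxt_z _ _ hn
      refine Or.inr (Or.inl ⟨ht, (τ, 0), (mem_X h).2 (h.len_pos τ),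
        by simp only [f, if_neg h1, if_neg h2, hn], e1, ?_, Or.inr ⟨h3, rfl, rfl⟩⟩)
      intro e2
      rcases ed_eq_iff.1 e2 with ⟨e3, -⟩ | ⟨-, e3⟩
      · exact h1 (e3.symm.trans e1)
      · refine h.nxt_ne _ _ hn ?_
        rw [← h3]
        exact e3
  unfold Sh.mult
  rw [← card_disjSum]
  refine card_le_card_of_injOn f (fun y hy => ?_) (fun y hy y' hy' e' => ?_)
  · have hy := mem_coe.1 hy
    rw [mem_coe]
    rcases cases y hy with ⟨e1, e2⟩ | ⟨-, u, hu, e2, e3, -⟩ | ⟨e1, e2, e3, e4⟩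
    · rw [e2, inl_mem_disjSum]; exact mem_filter.2 ⟨(mem_occ.1 hy).1, e1⟩
    · rw [e2, inl_mem_disjSum]; exact mem_filter.2 ⟨hu, e3⟩
    · rw [e4, inr_mem_disjSum]
      exact mem_filter.2 ⟨mem_univ _, e3, by rw [← e2]; exact e1⟩
  · have hy := mem_coe.1 hy
    have hy' := mem_coe.1 hy'
    have hed : S.ed y = S.ed y' := (mem_occ.1 hy).2.trans (mem_occ.1 hy').2.symm
    rcases cases y hy with ⟨e1, e2⟩ | ⟨-, u, hu, e2, e3, e4, e5⟩ | ⟨e1, e2, e3, e4⟩ <;>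
      rcases cases y' hy' with ⟨e1', e2'⟩ | ⟨-, u', hu', e2', e3', e4', e5'⟩ | ⟨e1', e2', e3', e4'⟩
    · rw [e2, e2'] at e'; exact Sum.inl.inj e'
    · rw [e2, e2'] at e'
      exact absurd (by rw [← Sum.inl.inj e', hed]) e4'
    · rw [e2, e4'] at e'; exact absurd e' (by simp)
    · rw [e2, e2'] at e'
      exact absurd (by rw [Sum.inl.inj e', hed]) e4
    · rw [e2, e2'] at e'
      have huu : u = u' := Sum.inl.inj e'
      rcases e5 with ⟨a1, a2⟩ | ⟨a1, a2, a3⟩ <;> rcases e5' with ⟨b1, b2⟩ | ⟨b1, b2, b3⟩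
      · rw [← pred_nx y, ← a2, huu, b2, pred_nx]
      · rw [← huu, a2] at b3; simp [nx] at b3
      · rw [huu, b2] at a3; simp [nx] at a3
      · rw [← huu] at b2
        exact ed_inj h (mem_occ.1 hy).1 (mem_occ.1 hy').1 (h.nxt_inj _ _ _ a2 b2) hed
    · rw [e2, e4'] at e'; exact absurd e' (by simp)
    · rw [e4, e2'] at e'; exact absurd e' (by simp)
    · rw [e4, e2'] at e'; exact absurd e' (by simp)
    · rw [e4, e4'] at e'
      exact ed_inj h (mem_occ.1 hy).1 (mem_occ.1 hy').1 (Sum.inr.inj e') hed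

theorem mem_Wi {i : ℕ} {v : Z} :
    v ∈ S.Wi i ↔ ∃ x ∈ S.J, i ≤ S.mult x ∧ (S.src x = v ∨ S.tgt x = v) := by
  unfold Sh.Wi Sh.Ji
  simp only [mem_union, mem_image, mem_filter]
  constructor
  · rintro (⟨x, ⟨h1, h2⟩, e⟩ | ⟨x, ⟨h1, h2⟩, e⟩)
    · exact ⟨x, h1, h2, Or.inl e⟩
    · exact ⟨x, h1, h2, Or.inr e⟩
  · rintro ⟨x, h1, h2, e | e⟩
    · exact Or.inl ⟨x, ⟨h1, h2⟩, e⟩
    · exact Or.inr ⟨x, ⟨h1, h2⟩, e⟩

theorem sum_Wi_le (h : S.OK lab nxt K) :
    ∑ i ∈ Icc 1 m, (S.Wi i).card ≤ S.X.card + (univ.filter fun τ => nxt τ = none).card := by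
  set Wa := S.Wi 0 with hWa
  have e1 : ∀ i, (S.Wi i).card = ∑ v ∈ Wa, if v ∈ S.Wi i then 1 else 0 := by
    intro i
    rw [sum_boole, Nat.cast_id, filter_mem_eq_inter, inter_eq_right.2]
    intro v hv
    obtain ⟨x, h1, -, h3⟩ := mem_Wi.1 hv
    exact mem_Wi.2 ⟨x, h1, Nat.zero_le _, h3⟩
  simp only [e1]
  rw [sum_comm]
  have e2 : ∀ v ∈ Wa, ∑ i ∈ Icc 1 m, (if v ∈ S.Wi i then 1 else 0)
      ≤ (S.X.filter fun y => S.src y = v).card +
        (univ.filter fun τ => nxt τ = none ∧ S.z τ (S.len τ) = v).card := by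
    intro v _
    rw [sum_boole, Nat.cast_id]
    refine (card_le_card (t := Icc 1 ((S.X.filter fun y => S.src y = v).card +
        (univ.filter fun τ => nxt τ = none ∧ S.z τ (S.len τ) = v).card)) fun i hi => ?_).trans
      (by simp)
    obtain ⟨h1, h2⟩ := mem_filter.1 hi
    obtain ⟨x, -, h4, h5⟩ := mem_Wi.1 h2
    exact mem_Icc.2 ⟨(mem_Icc.1 h1).1, h4.trans (mult_le_out h h5)⟩
  refine (sum_le_sum e2).trans ?_
  rw [sum_add_distrib]
  refine add_le_add ?_ ?_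
  · exact (sum_card_fiberwise_eq_card_filter S.X Wa S.src).trans_le (card_filter_le _ _)
  · simp only [← filter_filter]
    exact (sum_card_fiberwise_eq_card_filter (univ.filter fun τ => nxt τ = none) Wa
      (fun τ => S.z τ (S.len τ))).trans_le (card_filter_le _ _)

theorem rho_le_one (rt : Option Z) (i : ℕ) : S.rho rt i ≤ 1 := by
  unfold Sh.rho; split_ifs <;> norm_num

theorem rho_nonneg (rt : Option Z) (i : ℕ) : 0 ≤ S.rho rt i := by
  unfold Sh.rho; split_ifs <;> norm_num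

theorem le_sum_rho (h : S.OK lab nxt K) (rt : Option Z) (ρ : ℕ)
    (hρ : ρ = 0 ∨ (ρ = 1 ∧ ∃ τ, rt = some (S.z τ 0))) : (ρ : ℝ) ≤ ∑ i ∈ Icc 1 m, S.rho rt i := by
  rcases hρ with rfl | ⟨rfl, τ, hτ⟩
  · simpa using sum_nonneg fun i _ => rho_nonneg (S := S) rt i
  · have hm : 1 ∈ Icc 1 m := mem_Icc.2 ⟨le_rfl, τ.pos⟩
    refine le_trans (le_of_eq ?_) (single_le_sum (fun i _ => rho_nonneg rt i) hm)
    have hx : (τ, 0) ∈ S.X := (mem_X h).2 (h.len_pos τ)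
    unfold Sh.rho
    rw [if_pos, Nat.cast_one]
    refine ⟨_, hτ, mem_Wi.2 ⟨rep S (τ, 0), rep_mem hx, mult_pos (J_sub (rep_mem hx)), ?_⟩⟩
    rcases ed_eq_iff.1 (rep_ed hx) with ⟨e, -⟩ | ⟨-, e⟩
    · exact Or.inl e
    · exact Or.inr e

theorem sum_pred_reg (h : S.OK lab nxt K) (f : Fin m × ℕ → ℝ) :
    ∑ y ∈ S.X.filter (fun y => S.Reg (S.src y)), f (Sh.pred y)
      = ∑ y ∈ S.X.filter (fun y => S.Reg (S.tgt y)), f y := by
  refine sum_nbij' Sh.pred nx ?_ ?_ ?_ ?_ ?_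
  · intro y hy
    obtain ⟨h1, h2⟩ := mem_filter.1 hy
    exact mem_filter.2 ⟨pred_mem h h1, by rwa [tgt_pred (reg_pos h1 h2)]⟩
  · intro y hy
    obtain ⟨h1, h2⟩ := mem_filter.1 hy
    exact mem_filter.2 ⟨nx_mem h h1 h2, h2⟩
  · intro y hy
    obtain ⟨h1, h2⟩ := mem_filter.1 hy
    exact nx_pred (reg_pos h1 h2)
  · intro y _
    exact pred_nx y
  · intro y _
    rfl

theorem sum_filter_ge {ι : Type} (s : Finset ι) (P : ι → Prop) (f : ι → ℝ) (C N : ℝ)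
    (hf : ∀ y, f y ≤ C) (hC : 0 ≤ C) (hN : ((s.filter fun y => ¬ P y).card : ℝ) ≤ N) :
    ∑ y ∈ s, f y - C * N ≤ ∑ y ∈ s.filter P, f y := by
  rw [← sum_filter_add_sum_filter_not s P f]
  have : ∑ y ∈ s.filter (fun y => ¬ P y), f y ≤ C * N := by
    refine (sum_le_card_nsmul _ _ C fun y _ => hf y).trans ?_
    rw [nsmul_eq_mul, mul_comm]
    exact mul_le_mul_of_nonneg_left hN hC
  linarith

/-- A sum over a set is bounded through an injection into a disjoint part. -/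
theorem two_sum_le {ι : Type} [DecidableEq ι] (s D G : Finset ι) (f : ι → ℝ) (σ : ι → ι) (C N : ℝ)
    (hD : D ⊆ s) (hG : G ⊆ D) (hf0 : ∀ y, 0 ≤ f y) (hf : ∀ y, f y ≤ C) (hC : 0 ≤ C)
    (hN : ((D \ G).card : ℝ) ≤ N) (hσ : ∀ y ∈ G, σ y ∈ s ∧ σ y ∉ D ∧ f (σ y) = f y)
    (hinj : Set.InjOn σ G) : 2 * ∑ y ∈ D, f y ≤ ∑ y ∈ s, f y + C * N := by
  have e1 : ∑ y ∈ D, f y = ∑ y ∈ D \ G, f y + ∑ y ∈ G, f y := (sum_sdiff hG).symm
  have e2 : ∑ y ∈ D \ G, f y ≤ C * N := by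
    refine (sum_le_card_nsmul _ _ C fun y _ => hf y).trans ?_
    rw [nsmul_eq_mul, mul_comm]
    exact mul_le_mul_of_nonneg_left hN hC
  have e3 : ∑ y ∈ G, f y ≤ ∑ y ∈ s \ D, f y := by
    rw [← sum_congr rfl fun y hy => (hσ y hy).2.2, ← sum_image hinj]
    refine sum_le_sum_of_subset_of_nonneg (fun u hu => ?_) fun y _ _ => hf0 y
    obtain ⟨y, hy, rfl⟩ := mem_image.1 hu
    exact mem_sdiff.2 ⟨(hσ y hy).1, (hσ y hy).2.1⟩
  have e4 := sum_sdiff (f := f) hD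
  linarith

theorem card_unmatched (h : S.OK lab nxt K) :
    ((S.X.filter fun y => S.mate y.1 = none).card : ℝ)
      = ∑ τ ∈ univ.filter fun τ => S.mate τ = none, (S.len τ : ℝ) := by
  rw [← sum_boole, sum_X h (fun τ => if S.mate τ = none then 1 else 0), sum_filter]
  refine sum_congr rfl fun τ _ => ?_
  split_ifs <;> simp

theorem cost_A (h : S.OK lab nxt K) (A : Y × Bool → ℝ) (hAs : ∀ t, A (sg t) = A t) (C : ℝ)
    (hA : ∀ t, 0 ≤ A t) (hAC : ∀ t, A t ≤ C) (hC : 0 ≤ C) :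
    2 * ∑ y ∈ S.X.filter S.Free, A (lab y) ≤ ∑ y ∈ S.X, A (lab y) +
      C * ∑ τ ∈ univ.filter fun τ => S.mate τ = none, (S.len τ : ℝ) := by
  refine two_sum_le S.X (S.X.filter S.Free) ((S.X.filter S.Free).filter fun y => S.mate y.1 ≠ none)
    (fun y => A (lab y)) (fun y => (S.mp y).getD y) C _ (filter_subset _ _) (filter_subset _ _)
    (fun y => hA _) (fun y => hAC _) hC ?_ ?_ ?_
  · rw [← card_unmatched h, Nat.cast_le]
    refine card_le_card fun y hy => ?_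
    obtain ⟨h1, h2⟩ := mem_sdiff.1 hy
    refine mem_filter.2 ⟨(mem_filter.1 h1).1, ?_⟩
    by_contra hne
    exact h2 (mem_filter.2 ⟨h1, hne⟩)
  · intro y hy
    obtain ⟨h1, h2⟩ := mem_filter.1 hy
    obtain ⟨h3, h4⟩ := mem_filter.1 h1
    obtain ⟨τ, hτ⟩ := Option.ne_none_iff_exists'.1 h2
    have e := mp_of_mate (S := S) (x := y) hτ
    simp only [e, Option.getD_some]
    refine ⟨mp_mem h e, fun hf => ?_, by rw [h.mate_lb y h3 _ e, hAs]⟩
    have a1 := rk_lt_of_free h h3 rfl h4 e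
    have a2 := rk_lt_of_free h (mp_mem h e) rfl (mem_filter.1 hf).2 (mp_symm h h3 e)
    omega
  · intro y hy y' hy' e'
    obtain ⟨h1, h2⟩ := mem_filter.1 (mem_coe.1 hy)
    obtain ⟨h1', h2'⟩ := mem_filter.1 (mem_coe.1 hy')
    obtain ⟨τ, hτ⟩ := Option.ne_none_iff_exists'.1 h2
    obtain ⟨τ', hτ'⟩ := Option.ne_none_iff_exists'.1 h2'
    have e := mp_of_mate (S := S) (x := y) hτ
    have e2 := mp_of_mate (S := S) (x := y') hτ'
    simp only [e, e2, Option.getD_some] at e'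
    have a1 := mp_symm h (mem_filter.1 h1).1 e
    have a2 := mp_symm h (mem_filter.1 h1').1 e2
    rw [e', a2] at a1
    exact (Option.some.inj a1).symm

/-- The edge assigned to the source vertex is free. -/
def FreeV (S : Sh m Z) (y : Fin m × ℕ) : Prop := ∃ x ∈ S.J, S.src x = S.src y ∧ S.Free x

theorem freeV_bound (h : S.OK lab nxt K) {y u u' : Fin m × ℕ} (hy : y ∈ S.X)
    (hv : S.Reg (S.src y)) {x : Fin m × ℕ} (hx : x ∈ S.J) (e : S.src x = S.src y) (hf : S.Free x)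
    (e1 : S.mp y = some u) (e2 : S.mp (Sh.pred y) = some u') :
    (S.rk x < S.rk u ∨ S.rk x < S.rk u') ∧ S.rk y ≤ S.rk x ∧ S.rk (Sh.pred y) ≤ S.rk x := by
  have hlt := rk_pred_lt h hx (e ▸ hv)
  rcases reg_ed hy (J_sub hx) hv e with ⟨a1, a2⟩ | ⟨a1, a2⟩
  · exact ⟨Or.inl (rk_lt_of_free h hy a1 hf e1), (rk_congr a1).le, (rk_congr a2).le.trans hlt.le⟩
  · exact ⟨Or.inr (rk_lt_of_free h (pred_mem h hy) a2 hf e2), (rk_congr a1).le.trans hlt.le,
      (rk_congr a2).le⟩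

theorem cost_B (h : S.OK lab nxt K) (B : Y × Bool → Y × Bool → ℝ) (C : ℝ)
    (hB : ∀ u t, 0 ≤ B u t) (hBs : ∀ u t, B u t = B t u) (hBC : ∀ u t, B u t ≤ C) (hC : 0 ≤ C) :
    2 * ∑ y ∈ (S.X.filter fun y => S.Reg (S.src y)).filter (FreeV S),
        B (sg (lab (Sh.pred y))) (lab y)
      ≤ ∑ y ∈ S.X.filter fun y => S.Reg (S.src y), B (sg (lab (Sh.pred y))) (lab y) +
        C * (∑ τ ∈ univ.filter fun τ => S.mate τ = none, (S.len τ : ℝ) + m * K) := by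
  let σ : Fin m × ℕ → Fin m × ℕ := fun y => (S.mp (Sh.pred y)).getD y
  set Bs := S.X.filter fun y => S.Reg (S.src y) with hBsdef
  have hσ : ∀ y ∈ Bs, S.mate y.1 ≠ none →
      S.mp (Sh.pred y) = some (σ y) ∧ S.mp y = some (Sh.pred (σ y)) := by
    intro y hy hm
    obtain ⟨h1, h2⟩ := mem_filter.1 hy
    obtain ⟨τ, hτ⟩ := Option.ne_none_iff_exists'.1 hm
    have e := mp_of_mate (S := S) (x := Sh.pred y) hτ
    have h0 := reg_pos h1 h2
    have h3 := lt_of_mem_X h1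
    have e' : σ y = (τ, S.len y.1 - 1 - (y.2 - 1)) := by
      simp only [σ, e, Option.getD_some]
      rfl
    refine ⟨by rw [e, e']; rfl, ?_⟩
    rw [mp_of_mate hτ, e']
    simp only [Sh.pred]
    congr 2
    omega
  have hinj : ∀ y ∈ Bs, S.mate y.1 ≠ none → ∀ y' ∈ Bs, S.mate y'.1 ≠ none → σ y = σ y' →
      y = y' := by
    intro y hy hm y' hy' hm' e
    have a1 := mp_symm h (mem_filter.1 hy).1 (hσ y hy hm).2
    have a2 := mp_symm h (mem_filter.1 hy').1 (hσ y' hy' hm').2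
    rw [e, a2] at a1
    exact (Option.some.inj a1).symm
  refine two_sum_le Bs (Bs.filter (FreeV S))
    ((Bs.filter (FreeV S)).filter fun y => S.mate y.1 ≠ none ∧ σ y ∈ Bs)
    (fun y => B (sg (lab (Sh.pred y))) (lab y)) σ C _ (filter_subset _ _) (filter_subset _ _)
    (fun y => hB _ _) (fun y => hBC _ _) hC ?_ ?_ ?_
  · rw [← card_unmatched h]
    have e1 : ((Bs.filter fun y => S.mate y.1 ≠ none ∧ σ y ∉ Bs).card : ℝ) ≤ m * K := by
      refine le_trans ?_ (card_irr_src h)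
      rw [Nat.cast_le]
      refine card_le_card_of_injOn σ (fun y hy => ?_) (fun y hy y' hy' e => ?_)
      · obtain ⟨h1, h2, h3⟩ := mem_filter.1 (mem_coe.1 hy)
        have h4 := mp_mem h (hσ y h1 h2).1
        exact mem_coe.2 (mem_filter.2 ⟨h4, fun h5 => h3 (mem_filter.2 ⟨h4, h5⟩)⟩)
      · obtain ⟨h1, h2, -⟩ := mem_filter.1 (mem_coe.1 hy)
        obtain ⟨h1', h2', -⟩ := mem_filter.1 (mem_coe.1 hy')
        exact hinj y h1 h2 y' h1' h2' e
    refine le_trans ?_ (add_le_add le_rfl e1)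
    rw [← Nat.cast_add, Nat.cast_le]
    refine (card_le_card fun y hy => ?_).trans (card_union_le _ _)
    obtain ⟨h1, h2⟩ := mem_sdiff.1 hy
    have h3 := (mem_filter.1 h1).1
    by_cases hm : S.mate y.1 = none
    · exact mem_union_left _ (mem_filter.2 ⟨(mem_filter.1 h3).1, hm⟩)
    · exact mem_union_right _ (mem_filter.2 ⟨h3, hm, fun h4 => h2 (mem_filter.2 ⟨h1, hm, h4⟩)⟩)
  · intro y hy
    obtain ⟨h1, hm, h2⟩ := mem_filter.1 hy
    obtain ⟨h3, x, hx, ex, hfx⟩ := mem_filter.1 h1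
    obtain ⟨e1, e2⟩ := hσ y h3 hm
    have hyX := (mem_filter.1 h3).1
    refine ⟨h2, fun hf => ?_, ?_⟩
    · obtain ⟨-, x', hx', ex', hfx'⟩ := mem_filter.1 hf
      obtain ⟨a1, a2, a3⟩ := freeV_bound h hyX (mem_filter.1 h3).2 hx ex hfx e2 e1
      obtain ⟨b1, b2, b3⟩ := freeV_bound h (mem_filter.1 h2).1 (mem_filter.1 h2).2 hx' ex' hfx'
        (mp_symm h (pred_mem h hyX) e1) (mp_symm h hyX e2)
      omega
    · rw [h.mate_lb _ (pred_mem h hyX) _ e1, h.mate_lb _ hyX _ e2, sg_sg, hBs]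
  · intro y hy y' hy' e
    obtain ⟨h1, hm, -⟩ := mem_filter.1 (mem_coe.1 hy)
    obtain ⟨h1', hm', -⟩ := mem_filter.1 (mem_coe.1 hy')
    exact hinj y (mem_filter.1 h1).1 hm y' (mem_filter.1 h1').1 hm' e

end LevelSumAux

open ShB LevelSumAux in
theorem level_sum {m : ℕ} {Z Y : Type} (S : Sh m Z) (lab : Fin m × ℕ → Y × Bool)
    (nxt : Fin m → Option (Fin m)) (K : ℕ) (h : S.OK lab nxt K)
    (ψ : Y × Bool → ℝ) (B : Y × Bool → Y × Bool → ℝ) (η lT C Λ Λn Λ' : ℝ)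
    (hA : ∀ t, 0 ≤ ψ t + ψ (sg t)) (hB : ∀ u t, 0 ≤ B u t) (hBs : ∀ u t, B u t = B t u)
    (hAC : ∀ t, ψ t + ψ (sg t) ≤ C) (hBC : ∀ u t, B u t ≤ C) (hψC : ∀ t, ψ t ≤ C)
    (hC : 0 ≤ C) (hη : 0 ≤ η) (hlT : 0 ≤ lT) (hΛ : 0 ≤ Λ) (hΛ' : 0 ≤ Λ') (hΛn : Λ - Λn ≤ Λ')
    (rt : Option Z) (ρ : ℕ) (hρ : ρ = 0 ∨ (ρ = 1 ∧ ∃ τ, rt = some (S.z τ 0))) :
    ∑ i ∈ Icc 1 m, S.expr ψ B η lT lab Λ Λn rt i ≤
      (((univ.filter fun τ => nxt τ = none).card : ℝ) - ρ) * Λ - η * (∑ τ, (S.len τ : ℝ)) +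
        2 * C * (∑ τ ∈ univ.filter fun τ => S.mate τ = none, (S.len τ : ℝ)) +
        2 * m * K * (Λ' + 3 * C + η + lT) + m := by
  classical
  set u := ∑ τ ∈ univ.filter fun τ => S.mate τ = none, (S.len τ : ℝ) with hu
  set Ln := ∑ τ, (S.len τ : ℝ) with hLn
  set Bs := S.X.filter fun y => S.Reg (S.src y) with hBsdef
  have hX : (S.X.card : ℝ) = Ln := by
    have := sum_X h (fun _ => 1)
    simpa using this
  have hsplit : ∑ i ∈ Icc 1 m, S.expr ψ B η lT lab Λ Λn rt i =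
      (∑ i ∈ Icc 1 m, ((S.Wi i).card : ℝ) - ∑ i ∈ Icc 1 m, ((S.Ji i).card : ℝ) -
        ∑ i ∈ Icc 1 m, S.rho rt i) * Λ +
      (∑ i ∈ Icc 1 m, (((S.Ji i).card : ℝ) - (S.RJ i).card)) * (Λ - Λn) +
      (∑ i ∈ Icc 1 m, S.rho rt i) * Real.log 2 -
      ∑ i ∈ Icc 1 m, ∑ x ∈ S.RJ i, Sh.gain ψ B η lab x +
      ∑ i ∈ Icc 1 m, ∑ x ∈ S.Ji i, S.cst ψ B lT lab x := by
    simp only [sum_mul, ← sum_sub_distrib, ← sum_add_distrib]
    refine sum_congr rfl fun i _ => ?_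
    unfold Sh.expr
    ring
  have e1 : ∑ i ∈ Icc 1 m, ((S.Wi i).card : ℝ)
      ≤ Ln + (univ.filter fun τ => nxt τ = none).card := by
    rw [← hX]
    exact_mod_cast sum_Wi_le h
  have e2 : ∑ i ∈ Icc 1 m, ((S.Ji i).card : ℝ) = Ln := by
    have := sum_Ji h (fun _ => 1)
    simpa [hX] using this
  have e3 := le_sum_rho h rt ρ hρ
  have e4 : ∑ i ∈ Icc 1 m, S.rho rt i ≤ m := by
    refine (sum_le_card_nsmul _ _ 1 fun i _ => rho_le_one rt i).trans ?_
    simp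
  have e4' : 0 ≤ ∑ i ∈ Icc 1 m, S.rho rt i := sum_nonneg fun i _ => rho_nonneg rt i
  have e5' : ∑ i ∈ Icc 1 m, (((S.Ji i).card : ℝ) - (S.RJ i).card)
      = ∑ y ∈ S.X, (if S.Reg (S.src (rep S y)) then (0 : ℝ) else 1) := by
    rw [← sum_Ji h (fun x => if S.Reg (S.src x) then (0 : ℝ) else 1)]
    refine sum_congr rfl fun i _ => ?_
    rw [card_eq_sum_ones, card_eq_sum_ones, Nat.cast_sum, Nat.cast_sum, sum_RJ_eq,
      ← sum_sub_distrib]
    refine sum_congr rfl fun x _ => ?_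
    split_ifs <;> simp
  have e5 := sum_irr_rep h
  have e5'' : 0 ≤ ∑ y ∈ S.X, (if S.Reg (S.src (rep S y)) then (0 : ℝ) else 1) :=
    sum_nonneg fun y _ => by split_ifs <;> norm_num
  have hBc : ∀ y ∈ S.X, ∀ y' ∈ S.X, S.Reg (S.src y) → S.src y' = S.src y →
      B (sg (lab (Sh.pred y))) (lab y) = B (sg (lab (Sh.pred y'))) (lab y') := by
    intro y hy y' hy' hv e
    rcases reg_lab h hy hy' hv e with ⟨a1, a2⟩ | ⟨a1, a2⟩
    · rw [a1, a2]
    · rw [a1, a2, hBs]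
  have e6 : ∑ y ∈ Bs, B (sg (lab (Sh.pred y))) (lab y) + ∑ y ∈ S.X, (ψ (lab y) + ψ (sg (lab y)))
      - 2 * C * (m * K) + η * (Ln - m * K)
      ≤ ∑ i ∈ Icc 1 m, ∑ x ∈ S.RJ i, Sh.gain ψ B η lab x := by
    simp only [sum_RJ_eq]
    rw [sum_reg h (Sh.gain ψ B η lab), ← sum_filter]
    · unfold Sh.gain
      rw [sum_add_distrib, sum_add_distrib, sum_add_distrib, sum_add_distrib,
        sum_pred_reg h (fun y => ψ (sg (lab y)))]
      have a1 := sum_filter_ge S.X (fun y => S.Reg (S.src y)) (fun y => ψ (lab y)) C _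
        (fun y => hψC _) hC (card_irr_src h)
      have a2 := sum_filter_ge S.X (fun y => S.Reg (S.tgt y)) (fun y => ψ (sg (lab y))) C _
        (fun y => hψC _) hC (card_irr_tgt h)
      have a3 := sum_filter_ge S.X (fun y => S.Reg (S.src y)) (fun _ => η) η _
        (fun y => le_rfl) hη (card_irr_src h)
      rw [sum_const, nsmul_eq_mul, hX] at a3
      linarith
    · intro y hy y' hy' hv e
      unfold Sh.gain
      rw [hBc y hy y' hy' hv e]
      rcases reg_lab h hy hy' hv e with ⟨a1, a2⟩ | ⟨a1, a2⟩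
      · rw [a1, a2]
      · rw [a1, a2]; ring
  have e7 : ∑ i ∈ Icc 1 m, ∑ x ∈ S.Ji i, S.cst ψ B lT lab x ≤
      2 * ∑ y ∈ S.X.filter S.Free, (ψ (lab y) + ψ (sg (lab y))) +
      2 * ∑ y ∈ Bs.filter (FreeV S), B (sg (lab (Sh.pred y))) (lab y) + lT * (2 * m * K) := by
    have a1 : ∑ i ∈ Icc 1 m, ∑ x ∈ S.Ji i,
        (if S.Free x then ψ (lab x) + ψ (sg (lab x)) else 0)
        = ∑ y ∈ S.X.filter S.Free, (ψ (lab y) + ψ (sg (lab y))) := by
      rw [sum_Ji h, sum_filter]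
      refine sum_congr rfl fun y hy => ?_
      refine if_congr (free_congr (rep_ed hy)) ?_ rfl
      rcases lab_of_ed h (J_sub (rep_mem hy)) hy (rep_ed hy) with a | a
      · rw [a]
      · rw [a, sg_sg, add_comm]
    have a2 : ∑ i ∈ Icc 1 m, ∑ x ∈ S.Ji i, (if S.Reg (S.src x) then
        (if FreeV S x then B (sg (lab (Sh.pred x))) (lab x) else 0) else 0)
        = ∑ y ∈ Bs.filter (FreeV S), B (sg (lab (Sh.pred y))) (lab y) := by
      rw [sum_reg h (fun x => if FreeV S x then B (sg (lab (Sh.pred x))) (lab x) else 0),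
        sum_filter, hBsdef, sum_filter]
      intro y hy y' hy' hv e
      refine if_congr ?_ (hBc y hy y' hy' hv e) rfl
      unfold FreeV
      rw [e]
    have a3 : ∑ i ∈ Icc 1 m, ∑ x ∈ S.Ji i, (if S.Reg (S.src x) then (0 : ℝ) else 1)
        ≤ 2 * m * K := by
      rw [sum_Ji h]; exact e5
    refine le_trans ?_ (add_le_add le_rfl (mul_le_mul_of_nonneg_left a3 hlT))
    rw [← a1, ← a2]
    simp only [mul_sum, ← sum_add_distrib]
    refine sum_le_sum fun i _ => sum_le_sum fun x hx => ?_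
    have hxJ : x ∈ S.J := (mem_filter.1 hx).1
    unfold Sh.cst
    have b1 := hA (lab x)
    have b2 := hB (sg (lab (Sh.pred x))) (lab x)
    by_cases hf : S.Free x
    · have hfv : FreeV S x := ⟨x, hxJ, rfl, hf⟩
      by_cases hv : S.Reg (S.src x)
      · simp only [hf, hv, hfv, if_true]; linarith
      · simp only [hf, hv, if_true, if_false]; linarith
    · simp only [hf, if_false]
      split_ifs <;> linarith
  have e8 := cost_A h (fun t => ψ t + ψ (sg t)) (fun t => by rw [sg_sg, add_comm]) C hA hAC hC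
  have e9 := cost_B h B C hB hBs hBC hC
  rw [hsplit, e5']
  have f1 : (∑ i ∈ Icc 1 m, ((S.Wi i).card : ℝ) - ∑ i ∈ Icc 1 m, ((S.Ji i).card : ℝ) -
      ∑ i ∈ Icc 1 m, S.rho rt i) * Λ ≤ (((univ.filter fun τ => nxt τ = none).card : ℝ) - ρ) * Λ :=
    mul_le_mul_of_nonneg_right (by linarith) hΛ
  have f2 : (∑ y ∈ S.X, (if S.Reg (S.src (rep S y)) then (0 : ℝ) else 1)) * (Λ - Λn)
      ≤ 2 * m * K * Λ' :=
    (mul_le_mul_of_nonneg_left hΛn e5'').trans (mul_le_mul_of_nonneg_right e5 hΛ')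
  have f3 : (∑ i ∈ Icc 1 m, S.rho rt i) * Real.log 2 ≤ m := by
    have : Real.log 2 ≤ 1 := by linarith [Real.log_two_lt_d9]
    nlinarith
  have g1 : (0 : ℝ) ≤ m * K := by positivity
  have g2 := mul_nonneg hC g1
  have g3 := mul_nonneg hη g1
  rw [← hBsdef, ← hu] at e9
  rw [← hu] at e8
  nlinarith

end Vale.Agent.P201
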