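import Vale.Agent.Lib.GP.Defs

/-! Multiplicity levels of a family of embedded paths (shared definitions for the first moment
argument). -/

namespace Vale.Agent.P201

open Finset Vale.Agent.GP

/-- Shape of a family of `m` paths: lengths, vertex names, matching of units. -/
structure Sh (m : ℕ) (Z : Type) where
  w : ℕ
  len : Fin m → ℕ
  z : Fin m → ℕ → Z
  mate : Fin m → Option (Fin m)

namespace Sh

variable {m : ℕ} {Z : Type} (S : Sh m Z)

/-- Occurrences of edges: unit and position. -/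
def X : Finset (Fin m × ℕ) := (univ ×ˢ range S.w).filter fun x => x.2 < S.len x.1

def src (x : Fin m × ℕ) : Z := S.z x.1 x.2

def tgt (x : Fin m × ℕ) : Z := S.z x.1 (x.2 + 1)

/-- The unoriented edge of an occurrence. -/
def ed (x : Fin m × ℕ) : Sym2 Z := s(S.src x, S.tgt x)

/-- The previous position in the same unit. -/
def pred (x : Fin m × ℕ) : Fin m × ℕ := (x.1, x.2 - 1)

open Classical in
/-- All occurrences of the same edge. -/
noncomputable def occ (x : Fin m × ℕ) : Finset (Fin m × ℕ) := S.X.filter fun y => S.ed y = S.ed x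

noncomputable def mult (x : Fin m × ℕ) : ℕ := (S.occ x).card

def idx (x : Fin m × ℕ) : ℕ := x.1.val * S.w + x.2

/-- Index of the first occurrence of the edge. -/
noncomputable def fidx (x : Fin m × ℕ) : ℕ := sInf {n | ∃ y ∈ S.occ x, S.idx y = n}

/-- Exposure rank of the edge: larger multiplicity first, then by first occurrence. -/
noncomputable def rk (x : Fin m × ℕ) : ℕ := (m - S.mult x) * (m * S.w) + S.fidx x

/-- First occurrences. -/
noncomputable def J : Finset (Fin m × ℕ) := S.X.filter fun x => S.idx x = S.fidx x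

/-- The occurrence matched with a given one. -/
def mp (x : Fin m × ℕ) : Option (Fin m × ℕ) :=
  (S.mate x.1).map fun τ' => (τ', S.len x.1 - 1 - x.2)

/-- The edge is not matched with an earlier edge. -/
def Free (x : Fin m × ℕ) : Prop :=
  ∀ y ∈ S.occ x, ∀ y', S.mp y = some y' → ¬ S.rk y' < S.rk x

/-- All visits of the vertex are interior and use the same pair of neighbours. -/
def Reg (v : Z) : Prop :=
  ∀ τ j, j ≤ S.len τ → S.z τ j = v → 0 < j ∧ j < S.len τ ∧
    ∀ τ' j', j' ≤ S.len τ' → S.z τ' j' = v →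
      s(S.z τ (j - 1), S.z τ (j + 1)) = s(S.z τ' (j' - 1), S.z τ' (j' + 1))

/-- Edges of multiplicity at least `i`. -/
noncomputable def Ji (i : ℕ) : Finset (Fin m × ℕ) := S.J.filter fun x => i ≤ S.mult x

open Classical in
/-- Those with a regular source. -/
noncomputable def RJ (i : ℕ) : Finset (Fin m × ℕ) := (S.Ji i).filter fun x => S.Reg (S.src x)

open Classical in
/-- Vertices of level `i`. -/
noncomputable def Wi (i : ℕ) : Finset Z := (S.Ji i).image S.src ∪ (S.Ji i).image S.tgt

open Classical in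
/-- Whether the root vertex is used at level `i`. -/
noncomputable def rho (rt : Option Z) (i : ℕ) : ℝ :=
  if ∃ v, rt = some v ∧ v ∈ S.Wi i then 1 else 0

section Cost

variable {Y : Type} (ψ : Y × Bool → ℝ) (B : Y × Bool → Y × Bool → ℝ) (η lT : ℝ)
  (lab : Fin m × ℕ → Y × Bool)

open Classical in
/-- Information cost of the label of an edge. -/
noncomputable def cst (x : Fin m × ℕ) : ℝ :=
  if S.Free x then
    (if S.Reg (S.src x) then
      2 * (ψ (lab x) + ψ (sg (lab x))) + 2 * B (sg (lab (pred x))) (lab x) else lT)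
  else 0

/-- Gain at a regular corner. -/
noncomputable def gain (x : Fin m × ℕ) : ℝ :=
  B (sg (lab (pred x))) (lab x) + ψ (sg (lab (pred x))) + ψ (lab x) + η

/-- Logarithm of (expected number of embeddings of level `i`) / (weight of the labelling). -/
noncomputable def expr (Λ Λn : ℝ) (rt : Option Z) (i : ℕ) : ℝ :=
  (((S.Wi i).card : ℝ) - (S.RJ i).card - S.rho rt i) * Λ + S.rho rt i * Real.log 2 +
    (((S.RJ i).card : ℝ) - (S.Ji i).card) * Λn - ∑ x ∈ S.RJ i, gain ψ B η lab x +
    ∑ x ∈ S.Ji i, S.cst ψ B lT lab x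

end Cost

/-- Axioms of an abstract cluster: shape, labels, successor map, at most `K` irregular vertices. -/
structure OK {Y : Type} (lab : Fin m × ℕ → Y × Bool) (nxt : Fin m → Option (Fin m)) (K : ℕ) :
    Prop where
  len_pos : ∀ τ, 0 < S.len τ
  len_le : ∀ τ, S.len τ ≤ S.w
  inj : ∀ τ j j', j ≤ S.len τ → j' ≤ S.len τ → S.z τ j = S.z τ j' → j = j'
  lab_same : ∀ x ∈ S.X, ∀ y ∈ S.X, S.src x = S.src y → S.tgt x = S.tgt y → lab x = lab y
  lab_opp : ∀ x ∈ S.X, ∀ y ∈ S.X, S.src x = S.tgt y → S.tgt x = S.src y → lab x = sg (lab y)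
  mate_symm : ∀ τ τ', S.mate τ = some τ' → S.mate τ' = some τ
  mate_len : ∀ τ τ', S.mate τ = some τ' → S.len τ' = S.len τ
  mate_lb : ∀ x ∈ S.X, ∀ y, S.mp x = some y → lab y = sg (lab x)
  mate_ne : ∀ x ∈ S.X, ∀ y, S.mp x = some y → S.ed y ≠ S.ed x
  nxt_inj : ∀ τ₁ τ₂ τ, nxt τ₁ = some τ → nxt τ₂ = some τ → τ₁ = τ₂
  nxt_z : ∀ τ τ', nxt τ = some τ' → S.z τ' 0 = S.z τ (S.len τ)
  nxt_ne : ∀ τ τ', nxt τ = some τ' → S.z τ' 1 ≠ S.z τ (S.len τ - 1)
  irr : ∃ I : Finset (Fin m × ℕ), I.card ≤ K ∧ (∀ b ∈ I, b.2 ≤ S.len b.1) ∧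
    ∀ τ j, j ≤ S.len τ → ¬ S.Reg (S.z τ j) → ∃ b ∈ I, S.z b.1 b.2 = S.z τ j

end Sh

/-- The shape of a cluster, with the actual vertices as names. -/
def shOf {Y V : Type} {E : V → Y × Bool → V → Prop} {m w : ℕ} (c : Cluster E (Fin m) w) :
    Sh m V := ⟨w, c.len, c.vx, c.mate⟩

/-- The extension bound for an ensemble of graphs: `j` prescribed edges with distinct darts are
present with probability at most `n'⁻ʲ`. -/
def ExtBound {Y V Ω : Type} [Fintype Ω] (E : Ω → V → Y × Bool → V → Prop) (jmax n' : ℕ) : Prop :=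
  ∀ (J : Type) [Fintype J] (a b : J → V) (l : J → Y × Bool), Fintype.card J ≤ jmax →
    Function.Injective (fun p : J × Bool =>
      if p.2 = true then (a p.1, l p.1) else (b p.1, sg (l p.1))) →
    Nat.card {ω // ∀ j, E ω (a j) (l j) (b j)} * n' ^ Fintype.card J ≤ Fintype.card Ω

end Vale.Agent.P201
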