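import Vale.Agent.P201.Levels
import Vale.Agent.Lib.GP.DerBasic

/-! Asphericity implies that the group is torsion-free. -/

namespace Vale.Agent.P201

open Finset Vale.Agent.GP

namespace Torsion

variable {Y V : Type} {E : V → Y × Bool → V → Prop}

/-- Antisymmetric functions on darts of the Cayley graph. -/
def AntiC (E : V → Y × Bool → V → Prop) {A : Type} [AddCommGroup A]
    (F : Grp E × (Y × Bool) → A) : Prop :=
  ∀ g s, F (g * lv E s, sg s) = -F (g, s)

theorem wordMS_step {A : Type} [AddCommGroup A] {F : Grp E × (Y × Bool) → A} (hF : AntiC E F)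
    (g : Grp E) {w w' : List (Y × Bool)} (h : FreeGroup.Red.Step w w') :
    ((wordMS E g w).map F).sum = ((wordMS E g w').map F).sum := by
  cases h with
  | @not L₁ L₂ x b =>
    have h1 : lv E (x, !b) = (lv E (x, b))⁻¹ := lv_sg (x, b)
    have h2 := hF (g * pr E (FreeGroup.mk L₁)) (x, b)
    simp only [sg] at h2
    simp only [wordMS_append, wordMS, Multiset.map_add, Multiset.sum_add, Multiset.map_cons,
      Multiset.sum_cons, h1, mul_inv_cancel_right, h2, add_neg_cancel_left]

/-- The sum of an antisymmetric function along an element of the free group. -/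
def ws {A : Type} [AddCommGroup A] {F : Grp E × (Y × Bool) → A} (hF : AntiC E F)
    (g : Grp E) (f : FreeGroup Y) : A :=
  Quot.lift (fun w => ((wordMS E g w).map F).sum) (fun _ _ h => wordMS_step hF g h) f

section ws

variable {A : Type} [AddCommGroup A] {F : Grp E × (Y × Bool) → A} (hF : AntiC E F)

theorem ws_mk (g : Grp E) (w : List (Y × Bool)) :
    ws hF g (FreeGroup.mk w) = ((wordMS E g w).map F).sum := rfl

theorem exists_mk (f : FreeGroup Y) : ∃ w, f = FreeGroup.mk w := by
  induction f using Quot.inductionOn with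
  | h w => exact ⟨w, rfl⟩

theorem ws_one (g : Grp E) : ws hF g 1 = 0 := by
  rw [FreeGroup.one_eq_mk, ws_mk]; simp [wordMS]

theorem ws_mul (g : Grp E) (f f' : FreeGroup Y) :
    ws hF g (f * f') = ws hF g f + ws hF (g * pr E f) f' := by
  obtain ⟨w, rfl⟩ := exists_mk f
  obtain ⟨w', rfl⟩ := exists_mk f'
  rw [FreeGroup.mul_mk, ws_mk, ws_mk, ws_mk, wordMS_append, Multiset.map_add, Multiset.sum_add]

theorem ws_inv (g : Grp E) (f : FreeGroup Y) : ws hF (g * pr E f) f⁻¹ = -ws hF g f := by
  have := ws_mul hF g f f⁻¹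
  rw [mul_inv_cancel, ws_one] at this
  exact eq_neg_of_add_eq_zero_right this.symm

theorem ws_pow (f : FreeGroup Y) (n : ℕ) :
    ws hF 1 (f ^ n) = ∑ j ∈ range n, ws hF (pr E f ^ j) f := by
  induction n with
  | zero => simp [ws_one]
  | succ n ih => rw [pow_succ, ws_mul, ih, Finset.sum_range_succ, one_mul, map_pow]

theorem walk_word (g : Grp E) (v : V) (l : List ((Y × Bool) × V)) :
    (walkMS E g v l).map (fun x => (x.1, x.2.2)) = wordMS E g (l.map Prod.fst) := by
  induction l generalizing g v with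
  | nil => simp [walkMS, wordMS]
  | cons p l ih => simp [walkMS, wordMS, ih]

theorem der_ws {f : FreeGroup Y} {c} (h : Der E f c) :
    ws hF 1 f + (c.map fun x => F (x.1, x.2.2)).sum = 0 := by
  induction h with
  | one => simp [ws_one]
  | step u v l hl _ ih =>
    have h1 := pr_closed hl
    have h2 := ws_inv hF (pr E u) (FreeGroup.mk (l.map Prod.fst))
    have h3 := ws_inv hF 1 u
    rw [h1, mul_one] at h2
    rw [one_mul] at h3
    have h4 : ((walkMS E (pr E u) v l).map fun x => F (x.1, x.2.2)).sum =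
        ws hF (pr E u) (FreeGroup.mk (l.map Prod.fst)) := by
      rw [ws_mk, ← walk_word (pr E u) v l, Multiset.map_map]; rfl
    simp only [ws_mul, map_mul, map_inv, h1, inv_one, mul_one, one_mul, mul_inv_cancel, h2, h3,
      Multiset.map_add, Multiset.sum_add, h4]
    rw [← ih]; abel

end ws

/-- Translation of positioned darts. -/
def tr (t : Grp E) (x : Grp E × V × (Y × Bool)) : Grp E × V × (Y × Bool) := (t * x.1, x.2)

theorem walkMS_tr (t g : Grp E) (v : V) (l : List ((Y × Bool) × V)) :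
    walkMS E (t * g) v l = (walkMS E g v l).map (tr t) := by
  induction l generalizing g v with
  | nil => simp [walkMS]
  | cons p l ih => simp [walkMS, tr, mul_assoc, ih]

theorem wordMS_tr (t g : Grp E) (w : List (Y × Bool)) :
    wordMS E (t * g) w = (wordMS E g w).map (fun x => (t * x.1, x.2)) := by
  induction w generalizing g with
  | nil => simp [wordMS]
  | cons p l ih => simp [wordMS, mul_assoc, ih]

theorem der_conj (u : FreeGroup Y) {f : FreeGroup Y} {c} (h : Der E f c) :
    Der E (u * f * u⁻¹) (c.map (tr (pr E u))) := by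
  induction h with
  | one => simpa using Der.one
  | step u' v l hl _ ih =>
    have := Der.step (u * u') v l hl ih
    rw [map_mul, walkMS_tr, ← Multiset.map_add] at this
    simpa [mul_assoc] using this

theorem walk_rev (hE : Folded E) {A : Type} [AddCommGroup A] {Φ : Grp E × V × (Y × Bool) → A}
    (hΦ : Anti E Φ) {v w : V} {l : List ((Y × Bool) × V)} (h : IsWalk E v l w) (g : Grp E) :
    ((walkMS E (g * pr E (FreeGroup.mk (l.map Prod.fst))) w (revWalk v l)).map Φ).sum =
      -((walkMS E g v l).map Φ).sum := by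
  induction l generalizing g v with
  | nil => simp [walkMS, revWalk]
  | cons p l ih =>
    have h1 := ih h.2 (g * lv E p.1)
    have h2 := hΦ g v p.1 p.2 h.1
    rw [revWalk, walkMS_append _ _ p.2 _ _ (isWalk_rev hE h.2), mk_revWalk, List.map_cons,
      pr_mk_cons, ← mul_assoc, map_inv, mul_inv_cancel_right, Multiset.map_add, Multiset.sum_add,
      h1]
    simp only [walkMS, Multiset.map_cons, Multiset.sum_cons, Multiset.map_zero, Multiset.sum_zero,
      h2]
    abel

theorem der_inv (hE : Folded E) {f : FreeGroup Y} {c} (h : Der E f c) :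
    ∃ c', Der E f⁻¹ c' ∧ ∀ (A : Type) [AddCommGroup A] (Φ : Grp E × V × (Y × Bool) → A),
      Anti E Φ → (c'.map Φ).sum = -(c.map Φ).sum := by
  induction h with
  | one => exact ⟨0, by simpa using Der.one, by simp⟩
  | step u v l hl _ ih =>
    obtain ⟨c', h1, h2⟩ := ih
    have h3 := h1.mul (Der.step u v (revWalk v l) (isWalk_rev hE hl) Der.one)
    rw [mk_revWalk, inv_inv] at h3
    refine ⟨_, by simpa [mul_assoc] using h3, fun A _ Φ hΦ => ?_⟩
    have h4 := walk_rev hE hΦ hl (pr E u)
    rw [pr_closed hl, mul_one] at h4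
    simp only [Multiset.map_add, Multiset.sum_add, h2 A Φ hΦ, h4]
    abel

theorem walk_tele {A : Type} [CommRing A] {kv : V → Grp E}
    (hkv : ∀ v s w, E v s w → kv w = kv v * lv E s) (χ ρ : Grp E → A)
    {v w : V} {l : List ((Y × Bool) × V)} (h : IsWalk E v l w) (g : Grp E) :
    ((walkMS E g v l).map fun x => χ (x.1 * (kv x.2.1)⁻¹) * (ρ (x.1 * lv E x.2.2) - ρ x.1)).sum =
      χ (g * (kv v)⁻¹) * (ρ (g * pr E (FreeGroup.mk (l.map Prod.fst))) - ρ g) := by
  induction l generalizing g v with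
  | nil => simp [walkMS, pr_mk_nil]
  | cons p l ih =>
    simp only [walkMS, Multiset.map_cons, Multiset.sum_cons, ih h.2, List.map_cons, pr_mk_cons,
      hkv _ _ _ h.1, mul_inv_rev, mul_assoc, mul_inv_cancel_left]
    ring

theorem der_tele {A : Type} [CommRing A] {kv : V → Grp E}
    (hkv : ∀ v s w, E v s w → kv w = kv v * lv E s) (χ ρ : Grp E → A)
    {f : FreeGroup Y} {c} (h : Der E f c) :
    (c.map fun x => χ (x.1 * (kv x.2.1)⁻¹) * (ρ (x.1 * lv E x.2.2) - ρ x.1)).sum = 0 := by
  induction h with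
  | one => simp
  | step u v l hl _ ih =>
    rw [Multiset.map_add, Multiset.sum_add, ih, walk_tele hkv χ ρ hl, pr_closed hl]
    simp

theorem word_tele {A : Type} [AddCommGroup A] (ρ : Grp E → A) (w : List (Y × Bool)) (g : Grp E) :
    ((wordMS E g w).map fun x => ρ (x.1 * lv E x.2) - ρ x.1).sum =
      ρ (g * pr E (FreeGroup.mk w)) - ρ g := by
  induction w generalizing g with
  | nil => simp [wordMS, pr_mk_nil]
  | cons s w ih =>
    simp only [wordMS, Multiset.map_cons, Multiset.sum_cons, ih, pr_mk_cons, mul_assoc]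
    abel

theorem exists_rho {G : Type} [Group G] (t : G) :
    ∃ ρ : G → ZMod (orderOf t), ∀ g, ρ (t * g) = ρ g + 1 := by
  let rep : G → G := fun g => (Quotient.mk (QuotientGroup.rightRel (Subgroup.zpowers t)) g).out
  have h1 : ∀ g, ∃ k : ℤ, t ^ k = g * (rep g)⁻¹ := fun g => by
    have := Quotient.mk_out (s := QuotientGroup.rightRel (Subgroup.zpowers t)) g
    exact Subgroup.mem_zpowers_iff.1 (QuotientGroup.rightRel_apply.1 this)
  have h2 : ∀ g, rep (t * g) = rep g := fun g => by
    have : Quotient.mk (QuotientGroup.rightRel (Subgroup.zpowers t)) g =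
        Quotient.mk (QuotientGroup.rightRel (Subgroup.zpowers t)) (t * g) :=
      Quotient.sound (QuotientGroup.rightRel_apply.2 (by simp))
    simp only [rep, this]
  choose k hk using h1
  refine ⟨fun g => (k g : ZMod (orderOf t)), fun g => ?_⟩
  have h3 : t ^ k (t * g) = t ^ (k g + 1) := by
    rw [hk, h2, add_comm, zpow_add, hk, zpow_one, mul_assoc]
  have h4 := (ZMod.intCast_eq_intCast_iff _ _ _).2 (zpow_eq_zpow_iff_modEq.1 h3)
  simpa using h4

theorem sum_range_cast (n : ℕ) [NeZero n] {A : Type} [AddCommMonoid A] (f : ZMod n → A) :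
    ∑ j ∈ range n, f (j : ZMod n) = ∑ a, f a := by
  refine Finset.sum_nbij' (fun j => (j : ZMod n)) (fun a => a.val) ?_ ?_ ?_ ?_ ?_
  · intro _ _; simp
  · intro a _; simpa using ZMod.val_lt a
  · intro j hj; exact ZMod.val_cast_of_lt (Finset.mem_range.1 hj)
  · intro a _; simp
  · intro _ _; rfl

theorem sum_map_sum {ι X A : Type} [AddCommMonoid A] (s : Finset ι) (c : Multiset X)
    (f : ι → X → A) : ∑ j ∈ s, (c.map (f j)).sum = (c.map fun x => ∑ j ∈ s, f j x).sum := by
  induction c using Multiset.induction_on with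
  | empty => simp
  | cons a c ih => simp [Finset.sum_add_distrib, ih]

end Torsion

open _root_.Vale.Agent.P201.Torsion in
theorem torsion_free {Y V : Type} {E : V → Y × Bool → V → Prop} (hE : Folded E)
    (hasp : ∀ c, Der E 1 c → AEq E c 0) (t : Grp E) (n : ℕ) (hn : 0 < n) (ht : t ^ n = 1) :
    t = 1 := by
  classical
  have hfin : IsOfFinOrder t := isOfFinOrder_iff_pow_eq_one.2 ⟨n, hn, ht⟩
  have hpos : 0 < orderOf t := hfin.orderOf_pos
  have : NeZero (orderOf t) := ⟨hpos.ne'⟩
  obtain ⟨ρ, hρ⟩ := exists_rho t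
  obtain ⟨kv, hkv⟩ := exists_kv hE
  obtain ⟨W, hW⟩ := pr_surjective t
  obtain ⟨c, hc⟩ := exists_der hE (f := W ^ orderOf t) (by rw [map_pow, hW, pow_orderOf_eq_one])
  obtain ⟨c', hc', hcc⟩ := der_inv hE hc
  have hinv : ∀ (j : ℕ) (Φ : Grp E × V × (Y × Bool) → ZMod (orderOf t)), Anti E Φ →
      (c.map Φ).sum = (c.map fun x => Φ (tr (t ^ j)⁻¹ x)).sum := by
    intro j Φ hΦ
    have h1 := der_conj (W ^ j)⁻¹ hc
    rw [inv_inv, mul_assoc, pow_mul_comm W, inv_mul_cancel_left, map_inv, map_pow, hW] at h1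
    have h2 := h1.mul hc'
    rw [mul_inv_cancel] at h2
    have h3 := hasp _ h2 _ Φ hΦ
    rw [Multiset.map_add, Multiset.sum_add, hcc _ Φ hΦ, Multiset.map_map] at h3
    simp only [Multiset.map_zero, Multiset.sum_zero] at h3
    exact (add_neg_eq_zero.1 h3).symm
  have hρp : ∀ (j : ℕ) g, ρ (t ^ j * g) = ρ g + j := by
    intro j g
    induction j with
    | zero => simp
    | succ j ih => rw [pow_succ', mul_assoc, hρ, ih]; push_cast; ring
  have hρm : ∀ (j : ℕ) g, ρ ((t ^ j)⁻¹ * g) = ρ g - j := by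
    intro j g
    have := hρp j ((t ^ j)⁻¹ * g)
    rw [mul_inv_cancel_left] at this
    rw [this]; ring
  let ind : Grp E → ZMod (orderOf t) := fun g => if ρ g = 0 then 1 else 0
  have hind1 : ∀ g, ∑ j ∈ range (orderOf t), ind (t ^ j * g) = 1 := by
    intro g
    simp only [ind, hρp]
    rw [sum_range_cast (orderOf t) (fun a => if ρ g + a = 0 then (1 : ZMod (orderOf t)) else 0)]
    simp [add_eq_zero_iff_neg_eq]
  have hind2 : ∀ g, ∑ j ∈ range (orderOf t), ind ((t ^ j)⁻¹ * g) = 1 := by
    intro g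
    simp only [ind, hρm]
    rw [sum_range_cast (orderOf t) (fun a => if ρ g - a = 0 then (1 : ZMod (orderOf t)) else 0)]
    simp [sub_eq_zero]
  let F : Grp E × (Y × Bool) → ZMod (orderOf t) := fun x => ρ (x.1 * lv E x.2) - ρ x.1
  have hF : AntiC E F := by
    intro g s
    simp only [F, lv_sg, mul_inv_cancel_right, neg_sub]
  let F0 : Grp E × (Y × Bool) → ZMod (orderOf t) := fun x =>
    ind (if x.2.2 = true then x.1 else x.1 * lv E x.2) * F x
  have hF0 : AntiC E F0 := by
    intro g s
    simp only [F0, hF g s, lv_sg, mul_inv_cancel_right, mul_neg]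
    obtain ⟨y, b⟩ := s
    cases b <;> simp [sg]
  have hsum : ∀ g s, ∑ j ∈ range (orderOf t), F0 (t ^ j * g, s) = F (g, s) := by
    intro g s
    have h1 : ∀ j : ℕ, F0 (t ^ j * g, s) =
        ind (t ^ j * (if s.2 = true then g else g * lv E s)) * F (g, s) := by
      intro j
      simp only [F0, F, mul_assoc, hρp, mul_ite]
      ring
    simp only [h1]
    rw [← Finset.sum_mul, hind1, one_mul]
  have e1 : ws hF0 1 (W ^ orderOf t) = 1 := by
    obtain ⟨w, rfl⟩ := exists_mk W
    rw [ws_pow, hW]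
    have h1 : ∀ j : ℕ, ws hF0 (t ^ j) (FreeGroup.mk w) =
        ((wordMS E 1 w).map fun x => F0 (t ^ j * x.1, x.2)).sum := by
      intro j
      rw [ws_mk, ← mul_one (t ^ j), wordMS_tr, Multiset.map_map, mul_one]; rfl
    simp only [h1]
    rw [sum_map_sum]
    simp only [hsum, F]
    rw [word_tele, hW, one_mul]
    have := hρ 1
    rw [mul_one] at this
    rw [this]; ring
  have e2 := der_ws hF0 hc
  have e3 := der_tele hkv ind ρ hc
  let Ψ : ℕ → Grp E × V × (Y × Bool) → ZMod (orderOf t) := fun j x =>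
    ind (x.1 * (kv x.2.1)⁻¹) * F0 (t ^ j * x.1, x.2.2)
  have hΨ : ∀ j, Anti E (Ψ j) := by
    intro j g v s w h
    simp only [Ψ, hkv _ _ _ h, mul_inv_rev, mul_assoc, mul_inv_cancel_left]
    rw [← mul_assoc (t ^ j), hF0, mul_neg]
  have e4 : ∑ j ∈ range (orderOf t), (c.map (Ψ j)).sum = 0 := by
    rw [sum_map_sum, ← e3]
    simp only [Ψ, ← Finset.mul_sum, hsum, F]
  have e5 : ∑ j ∈ range (orderOf t), (c.map (Ψ j)).sum =
      (c.map fun x => F0 (x.1, x.2.2)).sum := by
    rw [Finset.sum_congr rfl fun j _ => hinv j _ (hΨ j), sum_map_sum]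
    simp only [Ψ, tr, mul_assoc, mul_inv_cancel_left, ← Finset.sum_mul, hind2, one_mul]
  rw [e1, ← e5, e4, add_zero] at e2
  have h1 : orderOf t ∣ 1 := by
    have := (ZMod.natCast_eq_zero_iff 1 (orderOf t)).1 (by simpa using e2)
    exact this
  exact orderOf_eq_one_iff.1 (Nat.dvd_one.1 h1)

end Vale.Agent.P201
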