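import Vale.Agent.P201.Levels
import Vale.Agent.P201.Euler
import Vale.Agent.P201.Density

/-! Cutting a reduced picture into short units. -/

namespace Vale.Agent.P201

open Finset Vale.Agent.GP

namespace Units

section Arcs

variable {H : Type}

/-- A set of darts containing all darts at vertices of degree `≠ 1, 2`, invariant under the vertex
rotation and meeting every face. -/
structure Cut (φ π : Equiv.Perm H) (S : Finset H) : Prop where
  invol : ∀ x, π (π x) = x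
  inv : ∀ x, x ∈ S → φ (π x) ∈ S
  bad : ∀ x, x ∉ S → φ (π (φ (π x))) = x
  meet : ∀ x, ∃ b ∈ S, φ.SameCycle b x

/-- The first return time to `S`. -/
noncomputable def fw (φ : Equiv.Perm H) (S : Finset H) (x : H) : ℕ :=
  sInf {j | 0 < j ∧ (φ ^ j) x ∈ S}

/-- The first dart of the arc on the other side. -/
noncomputable def mt (φ π : Equiv.Perm H) (S : Finset H) (y : H) : H :=
  π ((φ ^ (fw φ S y - 1)) y)

theorem pow_succ_app (φ : Equiv.Perm H) (j : ℕ) (x : H) : (φ ^ (j + 1)) x = φ ((φ ^ j) x) := by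
  rw [pow_succ']; rfl

theorem pow_add_app (φ : Equiv.Perm H) (i j : ℕ) (x : H) :
    (φ ^ (i + j)) x = (φ ^ i) ((φ ^ j) x) := by
  rw [pow_add]; rfl

variable {φ π : Equiv.Perm H} {S : Finset H}

theorem fw_le {x : H} {j : ℕ} (hj : 0 < j) (h : (φ ^ j) x ∈ S) : fw φ S x ≤ j :=
  Nat.sInf_le ⟨hj, h⟩

theorem fw_min {x : H} {j : ℕ} (hj : 0 < j) (h : j < fw φ S x) : (φ ^ j) x ∉ S :=
  fun h' => absurd (fw_le hj h') (not_le.mpr h)

theorem Cut.inv' (h : Cut φ π S) {x : H} (hx : φ (π x) ∈ S) : x ∈ S := by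
  by_contra hn
  have h1 := h.inv _ hx
  rw [h.bad x hn] at h1
  exact hn h1

variable [Fintype H]

theorem Cut.hit (h : Cut φ π S) (x : H) : 0 < fw φ S x ∧ (φ ^ fw φ S x) x ∈ S := by
  obtain ⟨b, hb, hc⟩ := h.meet x
  obtain ⟨i, hi, -, he⟩ := hc.symm.exists_pow_eq''
  have hne : {j | 0 < j ∧ (φ ^ j) x ∈ S}.Nonempty := ⟨i, hi, by rw [he]; exact hb⟩
  exact Nat.sInf_mem hne

theorem Cut.fw_pos (h : Cut φ π S) (x : H) : 0 < fw φ S x := (h.hit x).1

theorem Cut.fw_mem (h : Cut φ π S) (x : H) : (φ ^ fw φ S x) x ∈ S := (h.hit x).2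

theorem Cut.fw_eq (h : Cut φ π S) {x : H} {n : ℕ} (hn : 0 < n) (hm : (φ ^ n) x ∈ S)
    (hmin : ∀ j, 0 < j → j < n → (φ ^ j) x ∉ S) : fw φ S x = n := by
  refine le_antisymm (fw_le hn hm) ?_
  by_contra hlt
  exact hmin _ (h.fw_pos x) (not_le.mp hlt) (h.fw_mem x)

theorem Cut.decomp (h : Cut φ π S) (x : H) :
    ∃ y ∈ S, ∃ j, j < fw φ S y ∧ (φ ^ j) y = x := by
  classical
  have hex : ∃ j, ∃ y ∈ S, (φ ^ j) y = x := by
    obtain ⟨b, hb, hc⟩ := h.meet x
    obtain ⟨i, -, -, he⟩ := hc.exists_pow_eq''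
    exact ⟨i, b, hb, he⟩
  obtain ⟨y, hy, he⟩ := Nat.find_spec hex
  refine ⟨y, hy, Nat.find hex, ?_, he⟩
  by_contra hlt
  have hle := not_lt.mp hlt
  have hpos := h.fw_pos y
  refine Nat.find_min hex (m := Nat.find hex - fw φ S y) (by omega) ⟨_, h.fw_mem y, ?_⟩
  rw [← pow_add_app, Nat.sub_add_cancel hle, he]

omit [Fintype H] in
theorem uniq_aux {y₁ y₂ : H} {j₁ j₂ : ℕ} (h₁ : y₁ ∈ S) (hj : j₂ < fw φ S y₂ + j₁)
    (hle : j₁ ≤ j₂) (he : (φ ^ j₁) y₁ = (φ ^ j₂) y₂) : y₁ = y₂ ∧ j₁ = j₂ := by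
  obtain ⟨d, rfl⟩ := Nat.exists_eq_add_of_le hle
  rw [pow_add_app] at he
  have h2 := (φ ^ j₁).injective he
  rcases Nat.eq_zero_or_pos d with rfl | hd
  · exact ⟨by simpa using h2, rfl⟩
  · exact absurd (h2 ▸ h₁) (fw_min hd (by omega))

omit [Fintype H] in
theorem uniq {y₁ y₂ : H} {j₁ j₂ : ℕ} (h₁ : y₁ ∈ S) (h₂ : y₂ ∈ S) (hj₁ : j₁ < fw φ S y₁)
    (hj₂ : j₂ < fw φ S y₂) (he : (φ ^ j₁) y₁ = (φ ^ j₂) y₂) : y₁ = y₂ ∧ j₁ = j₂ := by
  rcases le_total j₁ j₂ with hle | hle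
  · exact uniq_aux h₁ (by omega) hle he
  · obtain ⟨a, b⟩ := uniq_aux h₂ (by omega) hle he.symm
    exact ⟨a.symm, b.symm⟩

theorem Cut.nxt_inj (h : Cut φ π S) {y₁ y₂ : H} (h₁ : y₁ ∈ S) (h₂ : y₂ ∈ S)
    (he : (φ ^ fw φ S y₁) y₁ = (φ ^ fw φ S y₂) y₂) : y₁ = y₂ := by
  have p₁ := h.fw_pos y₁
  have p₂ := h.fw_pos y₂
  rcases le_total (fw φ S y₁) (fw φ S y₂) with hle | hle
  · exact (uniq_aux h₁ (by omega) hle he).1
  · exact (uniq_aux h₂ (by omega) hle he.symm).1.symm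

omit [Fintype H] in
theorem Cut.step (h : Cut φ π S) {x : H} (hx : φ x ∉ S) : φ (π (φ x)) = π x := by
  have h1 := h.bad _ hx
  have h2 : π (φ (π (φ x))) = x := φ.injective h1
  rw [← h.invol (φ (π (φ x))), h2]

omit [Fintype H] in
theorem Cut.rev (h : Cut φ π S) (y : H) (i : ℕ) (hi : i < fw φ S y) :
    (φ ^ i) (mt φ π S y) = π ((φ ^ (fw φ S y - 1 - i)) y) := by
  induction i with
  | zero => simp [mt]
  | succ i ih =>
    rw [pow_succ_app, ih (by omega)]
    have he : fw φ S y - 1 - i = (fw φ S y - 1 - (i + 1)) + 1 := by omega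
    rw [he, pow_succ_app]
    apply h.step
    rw [← pow_succ_app]
    exact fw_min (by omega) (by omega)

theorem Cut.mt_mem (h : Cut φ π S) (y : H) : mt φ π S y ∈ S := by
  apply h.inv'
  have hp := h.fw_pos y
  rw [mt, h.invol, ← pow_succ_app, Nat.sub_add_cancel hp]
  exact h.fw_mem y

theorem Cut.fw_mt (h : Cut φ π S) {y : H} (hy : y ∈ S) : fw φ S (mt φ π S y) = fw φ S y := by
  have hp := h.fw_pos y
  refine h.fw_eq hp ?_ ?_
  · have he : fw φ S y = (fw φ S y - 1) + 1 := by omega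
    rw [he, pow_succ_app, h.rev y _ (by omega)]
    simpa using h.inv y hy
  · intro j hj hlt hm
    obtain ⟨j, rfl⟩ : ∃ k, j = k + 1 := ⟨j - 1, by omega⟩
    rw [pow_succ_app, h.rev y _ (by omega)] at hm
    exact fw_min (by omega) (by omega) (h.inv' hm)

theorem Cut.mt_mt (h : Cut φ π S) {y : H} (hy : y ∈ S) : mt φ π S (mt φ π S y) = y := by
  have hp := h.fw_pos y
  have h1 := h.rev y (fw φ S y - 1) (by omega)
  rw [Nat.sub_self, pow_zero] at h1
  conv_lhs => rw [mt]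
  rw [h.fw_mt hy, h1, h.invol]
  rfl

omit [Fintype H] in
/-- Rotating an interior dart of an arc gives an interior dart of the opposite arc. -/
theorem Cut.nu_pow (h : Cut φ π S) (y : H) (j : ℕ) (hj : j < fw φ S y) :
    φ (π ((φ ^ j) y)) = (φ ^ (fw φ S y - j)) (mt φ π S y) := by
  have he : fw φ S y - j = (fw φ S y - 1 - j) + 1 := by omega
  rw [he, pow_succ_app, h.rev y _ (by omega)]
  have he2 : fw φ S y - 1 - (fw φ S y - 1 - j) = j := by omega
  rw [he2]

theorem Cut.sum_fw (h : Cut φ π S) : ∑ y ∈ S, fw φ S y = Fintype.card H := by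
  have h1 : ∑ y ∈ S, fw φ S y = (S.sigma fun y => range (fw φ S y)).card := by
    rw [card_sigma]
    simp
  rw [h1, ← card_univ]
  refine card_bij (fun p _ => (φ ^ p.2) p.1) (fun _ _ => mem_univ _) ?_ ?_
  · rintro ⟨y₁, j₁⟩ h₁ ⟨y₂, j₂⟩ h₂ he
    simp only [mem_sigma, mem_range] at h₁ h₂
    obtain ⟨rfl, rfl⟩ := uniq h₁.1 h₂.1 h₁.2 h₂.2 he
    rfl
  · intro x _
    obtain ⟨y, hy, j, hj, he⟩ := h.decomp x
    exact ⟨⟨y, j⟩, by simp [hy, hj], he⟩

open Classical in
/-- The refinement of a cut at mesh `w`. -/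
noncomputable def refine (φ : Equiv.Perm H) (S : Finset H) (w : ℕ) : Finset H :=
  univ.filter fun x => ∃ y ∈ S, ∃ j, j < fw φ S y ∧ (φ ^ j) y = x ∧ (w ∣ j ∨ w ∣ fw φ S y - j)

theorem mem_refine {w : ℕ} {x : H} : x ∈ refine φ S w ↔
    ∃ y ∈ S, ∃ j, j < fw φ S y ∧ (φ ^ j) y = x ∧ (w ∣ j ∨ w ∣ fw φ S y - j) := by
  simp [refine]

theorem Cut.sub_refine (h : Cut φ π S) (w : ℕ) {x : H} (hx : x ∈ S) : x ∈ refine φ S w :=
  mem_refine.mpr ⟨x, hx, 0, h.fw_pos x, by simp, Or.inl (dvd_zero w)⟩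

theorem Cut.refine (h : Cut φ π S) (w : ℕ) : Cut φ π (refine φ S w) where
  invol := h.invol
  inv := by
    intro x hx
    obtain ⟨y, hy, j, hj, rfl, hd⟩ := mem_refine.mp hx
    rcases Nat.eq_zero_or_pos j with rfl | hpos
    · exact h.sub_refine w (h.inv _ (by simpa using hy))
    · refine mem_refine.mpr ⟨mt φ π S y, h.mt_mem y, fw φ S y - j, ?_, (h.nu_pow y j hj).symm, ?_⟩
      · rw [h.fw_mt hy]; omega
      · rw [h.fw_mt hy]
        have he : fw φ S y - (fw φ S y - j) = j := by omega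
        rw [he]
        exact hd.symm
  bad := fun x hx => h.bad x fun hs => hx (h.sub_refine w hs)
  meet := fun x => by
    obtain ⟨b, hb, hc⟩ := h.meet x
    exact ⟨b, h.sub_refine w hb, hc⟩

theorem Cut.fw_refine_le (h : Cut φ π S) {w : ℕ} (hw : 0 < w) (x : H) :
    fw φ (Units.refine φ S w) x ≤ w := by
  obtain ⟨y, hy, j, hj, rfl⟩ := h.decomp x
  have hm := Nat.mod_lt j hw
  have hk : w ∣ (w - j % w) + j := by
    refine ⟨j / w + 1, ?_⟩
    have := Nat.div_add_mod j w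
    rw [mul_add, mul_one]
    omega
  by_cases hlt : (w - j % w) + j < fw φ S y
  · refine le_trans (fw_le (j := w - j % w) (by omega) ?_) (by omega)
    exact mem_refine.mpr ⟨y, hy, _, hlt, pow_add_app _ _ _ _, Or.inl hk⟩
  · refine le_trans (fw_le (j := fw φ S y - j) (by omega) ?_) (by omega)
    rw [← pow_add_app, Nat.sub_add_cancel hj.le]
    exact h.sub_refine w (h.fw_mem y)

open Classical in
/-- New cut points of the first kind. -/
noncomputable def extra (φ : Equiv.Perm H) (S : Finset H) (w : ℕ) : Finset H :=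
  univ.filter fun x => ∃ y ∈ S, ∃ j, 0 < j ∧ j < fw φ S y ∧ (φ ^ j) y = x ∧ w ∣ j

theorem mem_extra {w : ℕ} {x : H} : x ∈ extra φ S w ↔
    ∃ y ∈ S, ∃ j, 0 < j ∧ j < fw φ S y ∧ (φ ^ j) y = x ∧ w ∣ j := by
  simp [extra]

variable [DecidableEq H]

theorem card_extra {w : ℕ} {o : H} (ho : o ∈ S) :
    (extra φ S w).card * w ≤ (univ.erase o).card := by
  rw [← card_range w, ← card_product, card_range]
  have key : ∀ x ∈ extra φ S w, ∀ i, i < w → ∃ y ∈ S, ∃ j, i < j ∧ j < fw φ S y ∧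
      (φ ^ j) y = x ∧ w ∣ j ∧ (φ ^ i)⁻¹ x = (φ ^ (j - i)) y := by
    intro x hx i hi
    obtain ⟨y, hy, j, hj0, hj, he, hd⟩ := mem_extra.mp hx
    have hle := Nat.le_of_dvd hj0 hd
    refine ⟨y, hy, j, by omega, hj, he, hd, ?_⟩
    rw [Equiv.Perm.inv_eq_iff_eq, ← pow_add_app, ← he]
    congr 2
    omega
  refine card_le_card_of_injOn (fun p => (φ ^ p.2)⁻¹ p.1) ?_ ?_
  · rintro ⟨x, i⟩ hp
    simp only [coe_product, Set.mem_prod, mem_coe, mem_range] at hp
    obtain ⟨y, hy, j, hij, hj, -, -, he⟩ := key x hp.1 i hp.2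
    simp only [coe_erase, coe_univ, Set.mem_sdiff, Set.mem_univ, Set.mem_singleton_iff, true_and]
    rw [he]
    intro h0
    exact fw_min (j := j - i) (by omega) (by omega) (h0 ▸ ho)
  · rintro ⟨x₁, i₁⟩ hp₁ ⟨x₂, i₂⟩ hp₂ he
    simp only [coe_product, Set.mem_prod, mem_coe, mem_range] at hp₁ hp₂
    obtain ⟨y₁, hy₁, j₁, hij₁, hj₁, hx₁, ⟨a₁, ha₁⟩, he₁⟩ := key x₁ hp₁.1 i₁ hp₁.2
    obtain ⟨y₂, hy₂, j₂, hij₂, hj₂, hx₂, ⟨a₂, ha₂⟩, he₂⟩ := key x₂ hp₂.1 i₂ hp₂.2
    simp only at he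
    rw [he₁, he₂] at he
    obtain ⟨rfl, hj⟩ := uniq hy₁ hy₂ (by omega) (by omega) he
    have hi₁ := hp₁.2
    have hi₂ := hp₂.2
    have ha : a₁ = a₂ := by
      rcases lt_trichotomy a₁ a₂ with hlt | heq | hlt
      · have : w * (a₁ + 1) ≤ w * a₂ := Nat.mul_le_mul_left w hlt
        rw [mul_add] at this
        omega
      · exact heq
      · have : w * (a₂ + 1) ≤ w * a₁ := Nat.mul_le_mul_left w hlt
        rw [mul_add] at this
        omega
    subst ha
    have hjj : j₁ = j₂ := by rw [ha₁, ha₂]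
    subst hjj
    have hii : i₁ = i₂ := by omega
    rw [← hx₁, ← hx₂, hii]

theorem Cut.card_refine (h : Cut φ π S) (w : ℕ) :
    (Units.refine φ S w).card ≤ S.card + 2 * (extra φ S w).card := by
  have hsub : Units.refine φ S w ⊆ S ∪ extra φ S w ∪ (extra φ S w).image fun x => π (φ⁻¹ x) := by
    intro x hx
    obtain ⟨y, hy, j, hj, rfl, hd⟩ := mem_refine.mp hx
    rcases Nat.eq_zero_or_pos j with rfl | hpos
    · simp [hy]
    · rcases hd with hd | hd
      · exact mem_union_left _ (mem_union_right _ (mem_extra.mpr ⟨y, hy, j, hpos, hj, rfl, hd⟩))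
      · refine mem_union_right _ (mem_image.mpr ⟨φ (π ((φ ^ j) y)), ?_, by simp [h.invol]⟩)
        refine mem_extra.mpr ⟨mt φ π S y, h.mt_mem y, fw φ S y - j, by omega, ?_,
          (h.nu_pow y j hj).symm, hd⟩
        rw [h.fw_mt hy]; omega
  have h1 := card_le_card hsub
  have h2 := card_union_le (S ∪ extra φ S w) ((extra φ S w).image fun x => π (φ⁻¹ x))
  have h3 := card_union_le S (extra φ S w)
  have h4 := card_image_le (s := extra φ S w) (f := fun x => π (φ⁻¹ x))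
  omega

omit [Fintype H] in
theorem pow_ne {o y : H} (ho : o ∈ S) (hy : y ∈ S.erase o) {j : ℕ} (hj : j < fw φ S y) :
    (φ ^ j) y ≠ o := by
  rcases Nat.eq_zero_or_pos j with rfl | hpos
  · simpa using (mem_erase.mp hy).1
  · exact fun h0 => fw_min hpos hj (h0 ▸ ho)

theorem Cut.mt_mem_erase (h : Cut φ π S) {o y : H} (hπo : π o = o) (ho : o ∈ S)
    (hy : y ∈ S.erase o) : mt φ π S y ∈ S.erase o := by
  refine mem_erase.mpr ⟨?_, h.mt_mem y⟩
  intro h0
  have hp := h.fw_pos y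
  refine pow_ne (φ := φ) ho hy (j := fw φ S y - 1) (by omega) (π.injective ?_)
  rw [hπo]
  exact h0

/-- The first dart of the arc containing a given dart. -/
noncomputable def Cut.base (h : Cut φ π S) (x : H) : H := (h.decomp x).choose

theorem Cut.base_mem (h : Cut φ π S) (x : H) : h.base x ∈ S := (h.decomp x).choose_spec.1

theorem Cut.base_spec (h : Cut φ π S) (x : H) :
    ∃ j, j < fw φ S (h.base x) ∧ (φ ^ j) (h.base x) = x := (h.decomp x).choose_spec.2

theorem Cut.base_pow (h : Cut φ π S) {y : H} (hy : y ∈ S) {j : ℕ} (hj : j < fw φ S y) :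
    h.base ((φ ^ j) y) = y := by
  obtain ⟨i, hi, he⟩ := h.base_spec ((φ ^ j) y)
  exact (uniq (h.base_mem _) hy hi hj he).1

theorem Cut.base_self (h : Cut φ π S) {y : H} (hy : y ∈ S) : h.base y = y := by
  simpa using h.base_pow hy (h.fw_pos y)

end Arcs

section Cl

variable {Y V : Type} {E : V → Y × Bool → V → Prop} (P : Pic E)

theorem pi_ne {x : P.H} (hx : x ≠ P.o) : P.π x ≠ P.o := by
  intro h0
  apply hx
  rw [← P.π_π x, h0, P.π_o]

/-- The cluster of arcs of a cut. -/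
noncomputable def cl (hP : P.Reduced) (hall : ∀ x, x ≠ P.o → P.act x = true) {S : Finset P.H}
    (h : Cut P.φ P.π S) (ho : P.o ∈ S) {w : ℕ} (hw : ∀ x, fw P.φ S x ≤ w) :
    Cluster E {y // y ∈ S.erase P.o} w where
  len τ := fw P.φ S τ.1
  vx τ i := P.sV ((P.φ ^ i) τ.1)
  lb τ i := P.lab ((P.φ ^ i) τ.1)
  nxt τ := if h' : (P.φ ^ fw P.φ S τ.1) τ.1 = P.o then none
    else some ⟨_, mem_erase.mpr ⟨h', h.fw_mem _⟩⟩
  mate τ := some ⟨mt P.φ P.π S τ.1, h.mt_mem_erase P.π_o ho τ.2⟩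
  len_pos τ := h.fw_pos _
  len_le τ := hw _
  edge τ j hj := by
    have hn := pow_ne ho τ.2 hj
    rw [pow_succ_app, P.sV_φ _ (hall _ hn)]
    exact P.edge _ hn (hall _ hn)
  red τ j hj := by
    have hn := pow_ne (φ := P.φ) ho τ.2 (j := j) (by omega)
    have hn' := pow_ne ho τ.2 hj
    rw [pow_succ_app] at hn' ⊢
    exact hP.corner _ hn hn' (hall _ hn)
  nxt_inj τ₁ τ₂ τ h₁ h₂ := by
    split_ifs at h₁ h₂
    have e₁ := congrArg Subtype.val (Option.some.inj h₁)
    have e₂ := congrArg Subtype.val (Option.some.inj h₂)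
    exact Subtype.ext (h.nxt_inj (mem_of_mem_erase τ₁.2) (mem_of_mem_erase τ₂.2) (e₁.trans e₂.symm))
  nxt_vx τ τ' h₁ := by
    split_ifs at h₁
    have e₁ := congrArg Subtype.val (Option.some.inj h₁)
    simp only at e₁
    rw [← e₁]
    simp
  nxt_red τ τ' h₁ := by
    split_ifs at h₁ with h'
    have e₁ := congrArg Subtype.val (Option.some.inj h₁)
    simp only at e₁
    have hp := h.fw_pos τ.1
    have hn := pow_ne (φ := P.φ) ho τ.2 (j := fw P.φ S τ.1 - 1) (by omega)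
    have he : P.φ ((P.φ ^ (fw P.φ S τ.1 - 1)) τ.1) = (P.φ ^ fw P.φ S τ.1) τ.1 := by
      rw [← pow_succ_app, Nat.sub_add_cancel hp]
    have hc := hP.corner _ hn (by rw [he]; exact h') (hall _ hn)
    rw [he, e₁] at hc
    simpa using hc
  mate_symm τ τ' h₁ := by
    obtain rfl := Option.some.inj h₁
    congr 1
    exact Subtype.ext (h.mt_mt (mem_of_mem_erase τ.2))
  mate_len τ τ' h₁ := by
    obtain rfl := Option.some.inj h₁
    exact h.fw_mt (mem_of_mem_erase τ.2)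
  mate_lb τ τ' j h₁ hj := by
    obtain rfl := Option.some.inj h₁
    have h2 := h.rev τ.1 (fw P.φ S τ.1 - 1 - j) (by omega)
    have he : fw P.φ S τ.1 - 1 - (fw P.φ S τ.1 - 1 - j) = j := by omega
    rw [he] at h2
    simp only
    rw [h2]
    exact P.lab_π _ (pow_ne ho τ.2 hj)
  mate_ne τ τ' j h₁ hj := by
    obtain rfl := Option.some.inj h₁
    have h2 := h.rev τ.1 (fw P.φ S τ.1 - 1 - j) (by omega)
    have he : fw P.φ S τ.1 - 1 - (fw P.φ S τ.1 - 1 - j) = j := by omega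
    rw [he] at h2
    have hn := pow_ne ho τ.2 hj
    simp only
    rw [h2, pow_succ_app, P.sV_φ _ (hall _ hn)]
    exact hP.pair _ hn (hall _ hn) (hall _ (pi_ne P hn))

variable {P} {hP : P.Reduced} {hall : ∀ x, x ≠ P.o → P.act x = true} {S : Finset P.H}
    {h : Cut P.φ P.π S} {ho : P.o ∈ S} {w : ℕ} {hw : ∀ x, fw P.φ S x ≤ w}

theorem cl_nxt_none {τ : {y // y ∈ S.erase P.o}} :
    (cl P hP hall h ho hw).nxt τ = none ↔ (P.φ ^ fw P.φ S τ.1) τ.1 = P.o := by
  simp only [cl]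
  split_ifs with h' <;> simp [h']

theorem cl_nxt_some {τ τ' : {y // y ∈ S.erase P.o}} (h₁ : (cl P hP hall h ho hw).nxt τ = some τ') :
    (P.φ ^ fw P.φ S τ.1) τ.1 = τ'.1 := by
  simp only [cl] at h₁
  split_ifs at h₁
  exact congrArg Subtype.val (Option.some.inj h₁)

theorem cl_mate_some {τ τ' : {y // y ∈ S.erase P.o}}
    (h₁ : (cl P hP hall h ho hw).mate τ = some τ') : mt P.φ P.π S τ.1 = τ'.1 :=
  congrArg Subtype.val (Option.some.inj h₁)

theorem cl_adj_aux {u v : {y // y ∈ S.erase P.o}}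
    (h₁ : (cl P hP hall h ho hw).nxt u = some v ∨ (cl P hP hall h ho hw).mate u = some v) :
    ∃ x y, (y = P.φ x ∨ y = P.π x) ∧ h.base x = u.1 ∧ h.base y = v.1 := by
  have hp := h.fw_pos u.1
  refine ⟨(P.φ ^ (fw P.φ S u.1 - 1)) u.1, v.1, ?_,
    h.base_pow (mem_of_mem_erase u.2) (by omega), h.base_self (mem_of_mem_erase v.2)⟩
  rcases h₁ with h₁ | h₁
  · left
    rw [← cl_nxt_some h₁, ← pow_succ_app, Nat.sub_add_cancel hp]
  · right
    rw [← cl_mate_some h₁, mt]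

theorem cl_adj {u v : {y // y ∈ S.erase P.o}} (h₁ : (cl P hP hall h ho hw).graph.Adj u v) :
    ∃ x y, (y = P.φ x ∨ x = P.φ y ∨ y = P.π x) ∧ h.base x = u.1 ∧ h.base y = v.1 := by
  rw [Cluster.graph, SimpleGraph.fromRel_adj] at h₁
  rcases h₁.2 with h₂ | h₂
  · obtain ⟨x, y, hxy, hx, hy⟩ := cl_adj_aux h₂
    refine ⟨x, y, ?_, hx, hy⟩
    rcases hxy with hxy | hxy
    · exact Or.inl hxy
    · exact Or.inr (Or.inr hxy)
  · obtain ⟨x, y, hxy, hx, hy⟩ := cl_adj_aux h₂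
    refine ⟨y, x, ?_, hy, hx⟩
    rcases hxy with hxy | hxy
    · exact Or.inr (Or.inl hxy)
    · exact Or.inr (Or.inr (by rw [hxy, P.π_π]))

theorem cl_lowdeg : LowDeg (cl P hP hall h ho hw).graph := by
  classical
  intro κ hκ S₁ hS₁
  let κ' : P.H → Option {y // y ∈ S.erase P.o} := fun x =>
    if h' : h.base x = P.o then none else some (κ ⟨h.base x, mem_erase.mpr ⟨h', h.base_mem x⟩⟩)
  have hκ' : ∀ x (u : {y // y ∈ S.erase P.o}), h.base x = u.1 → κ' x = some (κ u) := by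
    intro x u hu
    have hn : h.base x ≠ P.o := hu ▸ (mem_erase.mp u.2).1
    simp only [κ', dif_neg hn]
    congr 2
    exact Subtype.ext hu
  have hκb : ∀ x y, h.base x = h.base y → κ' x = κ' y := by
    intro x y hxy
    simp only [κ', hxy]
  let R : P.H → P.H → Prop := fun a b => (b = P.φ a ∨ a = P.φ b ∨ b = P.π a) ∧ κ' a = κ' b
  have hsymm : ∀ a b, R a b → R b a := by
    rintro a b ⟨h1, h2⟩
    refine ⟨?_, h2.symm⟩
    rcases h1 with h1 | h1 | h1
    · exact Or.inr (Or.inl h1)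
    · exact Or.inl h1
    · exact Or.inr (Or.inr (by rw [h1, P.π_π]))
  have hRs : ∀ a b, Relation.ReflTransGen R a b → Relation.ReflTransGen R b a := by
    intro a b hab
    induction hab with
    | refl => exact Relation.ReflTransGen.refl
    | tail _ h2 ih => exact Relation.ReflTransGen.head (hsymm _ _ h2) ih
  have harc : ∀ y ∈ S, ∀ j, j < fw P.φ S y → Relation.ReflTransGen R y ((P.φ ^ j) y) := by
    intro y hy j
    induction j with
    | zero => intro _; simpa using Relation.ReflTransGen.refl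
    | succ j ih =>
      intro hj
      refine (ih (by omega)).tail ⟨Or.inl (pow_succ_app _ _ _), hκb _ _ ?_⟩
      rw [h.base_pow hy hj, h.base_pow hy (by omega)]
  have hbase : ∀ x, Relation.ReflTransGen R (h.base x) x := by
    intro x
    obtain ⟨j, hj, he⟩ := h.base_spec x
    have h1 := harc _ (h.base_mem x) j hj
    rwa [he] at h1
  have hpath : ∀ u v : {y // y ∈ S.erase P.o}, Relation.ReflTransGen
      (fun a b => (cl P hP hall h ho hw).graph.Adj a b ∧ κ a = κ b) u v →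
      Relation.ReflTransGen R u.1 v.1 := by
    intro u v huv
    induction huv with
    | refl => exact Relation.ReflTransGen.refl
    | tail _ h2 ih =>
      obtain ⟨x, y, hxy, hx, hy⟩ := cl_adj h2.1
      have h3 := hbase x
      have h4 := hRs _ _ (hbase y)
      rw [hx] at h3
      rw [hy] at h4
      refine ((ih.trans h3).tail ⟨hxy, ?_⟩).trans h4
      rw [hκ' x _ hx, hκ' y _ hy, h2.2]
  obtain ⟨c, hc, hcard⟩ := planar_lowdeg P.φ P.π P.π_π P.planar κ'
    (S₁.map Function.Embedding.some) (by simpa using hS₁) (by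
      intro x y hxy hx
      obtain ⟨c, -, hc⟩ := mem_map.mp hx
      have hxo : h.base x ≠ P.o := by
        intro h0
        simp [κ', h0] at hc
      have hyo : h.base y ≠ P.o := by
        intro h0
        rw [hxy] at hc
        simp [κ', h0] at hc
      have e₁ := hκ' x ⟨h.base x, mem_erase.mpr ⟨hxo, h.base_mem x⟩⟩ rfl
      have e₂ := hκ' y ⟨h.base y, mem_erase.mpr ⟨hyo, h.base_mem y⟩⟩ rfl
      rw [hxy, e₂] at e₁
      have h5 := hpath _ _ (hκ _ _ (Option.some.inj e₁).symm)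
      exact ((hRs _ _ (hbase x)).trans h5).trans (hbase y))
  obtain ⟨c₀, hc₀, rfl⟩ := mem_map.mp hc
  refine ⟨c₀, hc₀, le_trans ?_ hcard⟩
  refine card_le_card_of_injOn some ?_ (Option.some_injective _).injOn
  intro c' hc'
  simp only [coe_filter, Set.mem_ofPred_eq] at hc' ⊢
  obtain ⟨h1, h2, u, v, huv, hu, hv⟩ := hc'
  obtain ⟨x, y, hxy, hx, hy⟩ := cl_adj huv
  refine ⟨mem_map.mpr ⟨c', h1, rfl⟩, by simpa using h2, x, y, hxy, ?_, ?_⟩
  · rw [hκ' x u hx, hu]; rfl
  · rw [hκ' y v hy, hv]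

end Cl

section Count

variable {Y V : Type} {E : V → Y × Bool → V → Prop} (P : Pic E)

theorem actSet_eq (hall : ∀ x, x ≠ P.o → P.act x = true) : P.actSet = univ.erase P.o := by
  ext x
  simp only [Pic.actSet, mem_filter, mem_univ, true_and, mem_erase, and_true]
  exact ⟨fun h => h.1, fun h => ⟨h, hall x h⟩⟩

theorem long_faces {g : ℕ} (hg : CGirth E g) (hP : P.Reduced)
    (hall : ∀ x, x ≠ P.o → P.act x = true) (x : P.H) (hx : ¬ P.φ.SameCycle P.o x) (p : ℕ)
    (hp : 0 < p) (hpg : p ≤ g) : (P.φ ^ p) x ≠ x := by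
  intro he
  have hn : ∀ i : ℕ, (P.φ ^ i) x ≠ P.o := by
    intro i h0
    apply hx
    refine Equiv.Perm.SameCycle.symm ⟨i, ?_⟩
    rw [zpow_natCast, h0]
  refine hg p (fun i => P.sV ((P.φ ^ i) x)) (fun i => P.lab ((P.φ ^ i) x)) hp hpg ?_ ?_ ?_
  · intro i
    rw [pow_succ_app, P.sV_φ _ (hall _ (hn i))]
    exact P.edge _ (hn i) (hall _ (hn i))
  · intro i
    have h1 := hn (i + 1)
    rw [pow_succ_app] at h1 ⊢
    exact hP.corner _ (hn i) h1 (hall _ (hn i))
  · intro i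
    rw [pow_add_app, he]

theorem nu_fix (hP : P.Reduced) (hall : ∀ x, x ≠ P.o → P.act x = true) {y : P.H}
    (hy : P.φ (P.π y) = y) : y = P.o := by
  by_contra hn
  have h1 := pi_ne P hn
  have h2 := hP.corner _ h1 (by rw [hy]; exact hn) (hall _ h1)
  rw [hy, P.lab_π _ hn, sg_sg] at h2
  exact h2 rfl

theorem exists_cut {g : ℕ} (hg : CGirth E g) (hP : P.Reduced)
    (hall : ∀ x, x ≠ P.o → P.act x = true) (hne : P.actSet.Nonempty) :
    ∃ S : Finset P.H, Cut P.φ P.π S ∧ P.o ∈ S ∧ (S.card - 1) * (g + 1) ≤ 11 * P.actSet.card := by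
  classical
  obtain ⟨B, hoB, hB, hBc⟩ := exists_face_reps P.φ P.o g (long_faces P hg hP hall)
  have hπne : ∀ x, x ≠ P.o → P.π x ≠ x := by
    intro x hx h0
    have h1 := P.lab_π x hx
    rw [h0] at h1
    exact sg_ne _ h1.symm
  have heu := planar_euler P.φ P.π P.o P.π_π P.π_o hπne P.planar B hB
  have hL : (B.card - 1) * (g + 1) ≤ P.actSet.card := by
    refine le_trans hBc (card_le_card ?_)
    intro x hx
    rw [actSet_eq P hall]
    refine mem_erase.mpr ⟨?_, mem_univ _⟩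
    rintro rfl
    exact (mem_filter.mp hx).2 (Equiv.Perm.SameCycle.refl _ _)
  have hfix : (univ.filter fun x => P.φ (P.π x) = x) ⊆ {P.o} := by
    intro x hx
    exact mem_singleton.mpr (nu_fix P hP hall (mem_filter.mp hx).2)
  have hn1 : (univ.filter fun x => P.φ (P.π x) = x).card ≤ 1 := by
    simpa using card_le_card hfix
  have hB2 : 2 ≤ B.card := by
    by_contra hlt
    have hpos : 0 < (univ.filter fun x => P.φ (P.π x) = x).card := by omega
    obtain ⟨z, hz⟩ := card_pos.mp hpos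
    have hzo := mem_singleton.mp (hfix hz)
    have hz2 := (mem_filter.mp hz).2
    rw [hzo, P.π_o] at hz2
    obtain ⟨x, hx⟩ := hne
    have hxo : x ≠ P.o := (mem_filter.mp hx).2.1
    obtain ⟨b, hb, hc⟩ := hB x
    have hbo : b = P.o := card_le_one.mp (by omega) b hb _ hoB
    rw [hbo] at hc
    exact hxo (hc.eq_of_left hz2).symm
  refine ⟨(univ.filter fun x => P.φ (P.π (P.φ (P.π x))) ≠ x) ∪
    (B ∪ B.image fun b => P.π (P.φ⁻¹ b)), ⟨P.π_π, ?_, ?_, ?_⟩, by simp [hoB], ?_⟩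
  · intro x hx
    by_cases hb : P.φ (P.π (P.φ (P.π x))) = x
    · simp only [mem_union, mem_filter, mem_univ, true_and, mem_image] at hx ⊢
      rcases hx with hx | hx | ⟨b, hb', rfl⟩
      · exact absurd hb hx
      · refine Or.inr (Or.inr ⟨x, hx, ?_⟩)
        conv_lhs => rw [← hb]
        simp [P.π_π]
      · refine Or.inr (Or.inl ?_)
        simpa [P.π_π] using hb'
    · refine mem_union_left _ (mem_filter.mpr ⟨mem_univ _, ?_⟩)
      intro h0
      exact hb (P.π.injective (P.φ.injective h0))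
  · intro x hx
    by_contra hb
    exact hx (mem_union_left _ (mem_filter.mpr ⟨mem_univ _, hb⟩))
  · intro x
    obtain ⟨b, hb, hc⟩ := hB x
    exact ⟨b, mem_union_right _ (mem_union_left _ hb), hc⟩
  · have h1 := card_union_le (univ.filter fun x => P.φ (P.π (P.φ (P.π x))) ≠ x)
      (B ∪ B.image fun b => P.π (P.φ⁻¹ b))
    have h2 := card_union_le B (B.image fun b => P.π (P.φ⁻¹ b))
    have h3 := card_image_le (s := B) (f := fun b => P.π (P.φ⁻¹ b))
    calc _ ≤ (11 * (B.card - 1)) * (g + 1) := Nat.mul_le_mul_right _ (by omega)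
      _ = 11 * ((B.card - 1) * (g + 1)) := by ring
      _ ≤ _ := Nat.mul_le_mul_left _ hL

end Count

end Units

open _root_.Vale.Agent.P201.Units in
theorem exists_units {Y V : Type} {E : V → Y × Bool → V → Prop} (hE : Folded E) (g w : ℕ)
    (hw : 0 < w) (hg : CGirth E g) (P : Pic E) (hP : P.Reduced)
    (hall : ∀ x, x ≠ P.o → P.act x = true) (hne : P.actSet.Nonempty)
    (hB : P.act P.o = true → P.sV P.o ≠ P.tV P.o) :
    ∃ (U : Type) (_ : Fintype U) (_ : DecidableEq U) (c : Cluster E U w),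
      LowDeg c.graph ∧ (∀ τ, c.mate τ ≠ none) ∧ ∑ τ, c.len τ = P.actSet.card ∧
      (Fintype.card U : ℝ) ≤ (11 / (g + 1) + 2 / w) * P.actSet.card ∧
      (P.act P.o = false → ∀ τ, c.nxt τ ≠ none) ∧
      (P.act P.o = true → (univ.filter fun τ => c.nxt τ = none).card ≤ 1 ∧
        ∃ τ, c.vx τ 0 = P.tV P.o) := by
  obtain ⟨S₀, h₀, ho₀, hc₀⟩ := exists_cut P hg hP hall hne
  have h := h₀.refine w
  have ho := h₀.sub_refine w ho₀
  have hw' := h₀.fw_refine_le hw
  have hφo : P.φ P.o ∈ refine P.φ S₀ w := by simpa [P.π_o] using h.inv _ ho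
  refine ⟨{y // y ∈ (refine P.φ S₀ w).erase P.o}, inferInstance, inferInstance,
    cl P hP hall h ho hw', cl_lowdeg, fun τ => by simp [cl], ?_, ?_, ?_, ?_⟩
  · have h1 := h.sum_fw
    have h2 : fw P.φ (refine P.φ S₀ w) P.o = 1 :=
      le_antisymm (fw_le one_pos (by simpa using hφo)) (h.fw_pos _)
    rw [← add_sum_erase _ _ ho, h2] at h1
    have h3 : ∑ τ, (cl P hP hall h ho hw').len τ =
        ∑ y ∈ (refine P.φ S₀ w).erase P.o, fw P.φ (refine P.φ S₀ w) y :=
      sum_coe_sort ((refine P.φ S₀ w).erase P.o) (fw P.φ (refine P.φ S₀ w))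
    rw [h3, actSet_eq P hall, card_erase_of_mem (mem_univ _), card_univ]
    omega
  · rw [Fintype.card_coe, card_erase_of_mem ho]
    have h1 := h₀.card_refine w
    have h2 := card_extra (φ := P.φ) (w := w) ho₀
    rw [← actSet_eq P hall] at h2
    have h3 : (refine P.φ S₀ w).card - 1 ≤ (S₀.card - 1) + 2 * (extra P.φ S₀ w).card := by omega
    have h4 : (((S₀.card - 1 : ℕ) : ℝ)) ≤ 11 / (g + 1) * P.actSet.card := by
      rw [div_mul_eq_mul_div, le_div_iff₀ (by positivity)]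
      exact_mod_cast hc₀
    have h5 : ((extra P.φ S₀ w).card : ℝ) ≤ 1 / w * P.actSet.card := by
      rw [div_mul_eq_mul_div, le_div_iff₀ (by positivity), one_mul]
      exact_mod_cast h2
    have h6 : ((((refine P.φ S₀ w).card - 1 : ℕ) : ℝ)) ≤
        ((S₀.card - 1 : ℕ) : ℝ) + 2 * (extra P.φ S₀ w).card := by exact_mod_cast h3
    have h7 : (2 : ℝ) / w * P.actSet.card = 2 * (1 / w * P.actSet.card) := by ring
    rw [add_mul, h7]
    linarith
  · intro ha τ hτ
    have h1 : P.φ P.o = P.o := by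
      by_contra hn
      have h2 := hall _ hn
      rw [P.act_φ, ha] at h2
      exact absurd h2 (by simp)
    rw [cl_nxt_none] at hτ
    have h2 : (P.φ ^ fw P.φ (refine P.φ S₀ w) τ.1) P.o = P.o :=
      Equiv.Perm.pow_apply_eq_self_of_apply_eq_self h1 _
    exact (mem_erase.mp τ.2).1 ((P.φ ^ _).injective (hτ.trans h2.symm))
  · intro ha
    constructor
    · refine card_le_one.mpr fun a ha' b hb' => ?_
      have h1 := cl_nxt_none.mp (mem_filter.mp ha').2
      have h2 := cl_nxt_none.mp (mem_filter.mp hb').2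
      exact Subtype.ext (h.nxt_inj (mem_of_mem_erase a.2) (mem_of_mem_erase b.2) (h1.trans h2.symm))
    · have h1 : P.φ P.o ≠ P.o := by
        intro h0
        apply hB ha
        rw [← P.sV_φ _ ha, h0]
      refine ⟨⟨P.φ P.o, mem_erase.mpr ⟨h1, hφo⟩⟩, ?_⟩
      simp only [cl, pow_zero, Equiv.Perm.coe_one, id_eq]
      exact P.sV_φ _ ha

end Vale.Agent.P201
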