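import Vale.Agent.P201.Levels
import Vale.Agent.Lib.GP.DerBasic

/-! Parity of common letters gives zero divisors. -/

namespace Vale.Agent.P201

open Finset Vale.Agent.GP

namespace ZeroDiv

variable {Y V : Type} {E : V → Y × Bool → V → Prop}

theorem part_walk {part : V → Bool} {L : V → Finset (Y × Bool)} {g : ℕ} (hE : Good part L g E)
    {v w : V} {l : List ((Y × Bool) × V)} (h : IsWalk E v l w) : part v = part w := by
  induction l generalizing v with
  | nil =>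
    obtain rfl : v = w := h
    rfl
  | cons p l ih => rw [hE.part_eq _ _ _ h.1, ih h.2]

open Classical in
/-- Vertices reachable from `z₀`. -/
noncomputable def R [Fintype V] (E : V → Y × Bool → V → Prop) (z₀ : V) : Finset V :=
  univ.filter fun z => ∃ l, IsWalk E z₀ l z

theorem mem_R [Fintype V] {z₀ z : V} : z ∈ R E z₀ ↔ ∃ l, IsWalk E z₀ l z := by
  simp [R]

theorem R_step [Fintype V] {z₀ z w : V} {s : Y × Bool} (hz : z ∈ R E z₀) (h : E z s w) :
    w ∈ R E z₀ := by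
  obtain ⟨l, hl⟩ := mem_R.1 hz
  exact mem_R.2 ⟨l ++ [(s, w)], isWalk_append.2 ⟨z, hl, h, rfl⟩⟩

open Classical in
/-- The endpoint of the edge at `v` read as `s` (if any). -/
noncomputable def nx (E : V → Y × Bool → V → Prop) (v : V) (s : Y × Bool) : V :=
  if h : ∃ w, E v s w then h.choose else v

theorem nx_spec {v : V} {s : Y × Bool} (h : ∃ w, E v s w) : E v s (nx E v s) := by
  rw [nx, dif_pos h]; exact h.choose_spec

theorem sum_ne_zero [Fintype V] {G : Type} [Group G] (k : V → G) (S : Finset V) (z₀ : V)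
    (hz : z₀ ∈ S) (h : ∀ z ∈ S, k z = k z₀ → z = z₀) :
    (∑ z ∈ S, MonoidAlgebra.single (k z) (1 : ZMod 2)) ≠ 0 := by
  classical
  intro h0
  have h1 := congrArg (fun a : MonoidAlgebra (ZMod 2) G => a.coeff (k z₀)) h0
  simp only [MonoidAlgebra.coeff_sum, MonoidAlgebra.coeff_single, Finsupp.finsetSum_apply,
    MonoidAlgebra.coeff_zero, Finsupp.zero_apply] at h1
  rw [Finset.sum_eq_single z₀] at h1
  · simp at h1
  · intro z hz hne
    exact Finsupp.single_eq_of_ne fun h' => hne (h z hz h'.symm)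
  · intro h'; exact absurd hz h'

theorem two_eq_zero {G : Type} [Group G] (a : MonoidAlgebra (ZMod 2) G) : a + a = 0 := by
  have : a + a = (2 : ZMod 2) • a := (two_smul _ _).symm
  rw [this, show (2 : ZMod 2) = 0 from rfl, zero_smul]

theorem odd_smul {G : Type} [Group G] (a : MonoidAlgebra (ZMod 2) G) {n : ℕ} (hn : Odd n) :
    n • a = a := by
  obtain ⟨k, rfl⟩ := hn
  rw [add_smul, one_smul, mul_smul, two_smul, two_eq_zero, zero_add]

end ZeroDiv

open ZeroDiv in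
theorem zero_div {Y V : Type} [DecidableEq Y] [Fintype V] {E : V → Y × Bool → V → Prop}
    (part : V → Bool) (L : V → Finset (Y × Bool)) (g : ℕ) (hE : Good part L g E)
    (hodd : ∀ v v', part v = true → part v' = false → Odd (L v ∩ L v').card)
    (x₀ y₀ : V) (hx : part x₀ = true) (hy : part y₀ = false)
    (hinj : ∀ z₀, z₀ = x₀ ∨ z₀ = y₀ → ∀ l z, IsWalk E z₀ l z →
      pr E (FreeGroup.mk (l.map Prod.fst)) = 1 → z = z₀) :
    ∃ α β : MonoidAlgebra (ZMod 2) (Grp E), α ≠ 0 ∧ β ≠ 0 ∧ α * β = 0 := by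
  classical
  obtain ⟨kv, hkv⟩ := exists_kv hE.folded
  have key : ∀ z₀, z₀ = x₀ ∨ z₀ = y₀ → ∀ z ∈ R E z₀, kv z = kv z₀ → z = z₀ := by
    intro z₀ hz₀ z hz hk
    obtain ⟨l, hl⟩ := mem_R.1 hz
    refine hinj z₀ hz₀ l z hl ?_
    have := kv_walk hkv hl
    rw [hk] at this
    exact mul_eq_left.1 this.symm
  refine ⟨∑ x ∈ R E x₀, MonoidAlgebra.single (kv x) 1,
    ∑ y ∈ R E y₀, MonoidAlgebra.single (kv y)⁻¹ 1, ?_, ?_, ?_⟩
  · exact sum_ne_zero kv _ x₀ (mem_R.2 ⟨[], rfl⟩) (key x₀ (Or.inl rfl))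
  · exact sum_ne_zero (fun y => (kv y)⁻¹) _ y₀ (mem_R.2 ⟨[], rfl⟩)
      (fun z hz h => key y₀ (Or.inr rfl) z hz (inv_injective h))
  · rw [Finset.sum_mul_sum, ← Finset.sum_product']
    simp only [MonoidAlgebra.single_mul_single, mul_one]
    have h1 : ∀ p ∈ R E x₀ ×ˢ R E y₀,
        (MonoidAlgebra.single (kv p.1 * (kv p.2)⁻¹) (1 : ZMod 2) : MonoidAlgebra (ZMod 2) (Grp E)) =
        ∑ _s ∈ L p.1 ∩ L p.2, MonoidAlgebra.single (kv p.1 * (kv p.2)⁻¹) (1 : ZMod 2) := by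
      intro p hp
      obtain ⟨h1, h2⟩ := Finset.mem_product.1 hp
      obtain ⟨l1, h1⟩ := mem_R.1 h1
      obtain ⟨l2, h2⟩ := mem_R.1 h2
      rw [Finset.sum_const, odd_smul]
      exact hodd _ _ ((part_walk hE h1).symm.trans hx) ((part_walk hE h2).symm.trans hy)
    rw [Finset.sum_congr rfl h1, Finset.sum_sigma']
    have hm : ∀ q : (_ : V × V) × (Y × Bool),
        q ∈ (R E x₀ ×ˢ R E y₀).sigma (fun p => L p.1 ∩ L p.2) →
        E q.1.1 q.2 (nx E q.1.1 q.2) ∧ E q.1.2 q.2 (nx E q.1.2 q.2) := by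
      intro q hq
      obtain ⟨-, h2⟩ := Finset.mem_sigma.1 hq
      obtain ⟨h3, h4⟩ := Finset.mem_inter.1 h2
      exact ⟨nx_spec ((hE.total _ _).1 h3), nx_spec ((hE.total _ _).1 h4)⟩
    refine Finset.sum_involution
      (fun q _ => (⟨(nx E q.1.1 q.2, nx E q.1.2 q.2), sg q.2⟩ : (_ : V × V) × (Y × Bool)))
      ?_ ?_ ?_ ?_
    · intro q hq
      obtain ⟨h1, h2⟩ := hm q hq
      simp only [hkv _ _ _ h1, hkv _ _ _ h2, mul_inv_rev, mul_assoc, mul_inv_cancel_left]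
      exact two_eq_zero _
    · intro q _ _ h
      exact sg_ne q.2 (eq_of_heq (Sigma.mk.inj_iff.1 h).2)
    · intro q hq
      obtain ⟨h1, h2⟩ := hm q hq
      obtain ⟨h3, -⟩ := Finset.mem_sigma.1 hq
      obtain ⟨h4, h5⟩ := Finset.mem_product.1 h3
      refine Finset.mem_sigma.2 ⟨Finset.mem_product.2 ⟨R_step h4 h1, R_step h5 h2⟩,
        Finset.mem_inter.2 ⟨(hE.total _ _).2 ⟨_, hE.folded.symm _ _ _ h1⟩,
          (hE.total _ _).2 ⟨_, hE.folded.symm _ _ _ h2⟩⟩⟩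
    · intro q hq
      obtain ⟨h1, h2⟩ := hm q hq
      have h3 := hE.folded.symm _ _ _ h1
      have h4 := hE.folded.symm _ _ _ h2
      obtain ⟨⟨a, b⟩, s⟩ := q
      simp only [sg_sg]
      rw [hE.folded.func _ _ _ _ (nx_spec ⟨_, h3⟩) h3, hE.folded.func _ _ _ _ (nx_spec ⟨_, h4⟩) h4]

end Vale.Agent.P201
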