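import Vale.Agent.P201.Ensemble
import Vale.Agent.P201.ExistsLEP
import Vale.Agent.P201.Units
import Vale.Agent.P201.Torsion
import Vale.Agent.P201.ClusterSum
import Vale.Agent.P201.Design
import Vale.Agent.P201.ZeroDiv
import Vale.Agent.Lib.GP.Build

/-! Assembly: a torsion-free group whose group algebra over the field with two elements has
zero divisors. -/

namespace Vale.Agent.P201

open Finset Vale.Agent.GP

/-- No reduced picture with all darts active. -/
def NoPic {Y V : Type} (E : V → Y × Bool → V → Prop) (roots : Set V) : Prop :=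
  ∀ P : Pic E, P.Reduced → (∀ x, x ≠ P.o → P.act x = true) → P.actSet.Nonempty →
    (P.act P.o = true → P.sV P.o ≠ P.tV P.o ∧ P.tV P.o ∈ roots) → False

theorem noPic_of {Y V : Type} {E : V → Y × Bool → V → Prop} (hE : Folded E) (roots : Set V)
    (w : ℕ) (hw : 0 < w) (hg : CGirth E (2 * w)) (η ε C Λ K C₃ : ℝ) (hη : 0 < η) (hε : 0 < ε)
    (hΛ : 0 ≤ Λ) (hΛw : Λ ≤ C₃ * w) (h1 : ε * (8 * C₃ + C) ≤ η / 4)
    (h2 : 8 * K ≤ η / 4 * w)
    (hsum : ∀ (U : Type) [Fintype U] [DecidableEq U] (c : Cluster E U w) (ρ : ℕ),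
      LowDeg c.graph → (∀ τ, c.mate τ ≠ none) →
      (univ.filter fun τ => c.nxt τ = none).card ≤ ρ →
      (ρ = 0 ∨ (ρ = 1 ∧ ∃ τ, c.vx τ 0 ∈ roots)) →
      η * (∑ τ, (c.len τ : ℝ)) ≤
        ε * (Λ * Fintype.card U + C * ∑ τ, (c.len τ : ℝ)) + K * Fintype.card U) :
    NoPic E roots := by
  intro P hP hall hne hB
  obtain ⟨U, _, _, c, hld, hm, hlen, hcard, hF, hT⟩ :=
    exists_units hE (2 * w) w hw hg P hP hall hne (fun h => (hB h).1)
  have hL : (∑ τ, (c.len τ : ℝ)) = P.actSet.card := by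
    rw [← hlen]; push_cast; rfl
  have hpos : (0 : ℝ) < P.actSet.card := by exact_mod_cast hne.card_pos
  have hw' : (0 : ℝ) < w := by exact_mod_cast hw
  have key : η * (∑ τ, (c.len τ : ℝ)) ≤
      ε * (Λ * Fintype.card U + C * ∑ τ, (c.len τ : ℝ)) + K * Fintype.card U := by
    cases hact : P.act P.o with
    | false =>
      refine hsum U c 0 hld hm ?_ (Or.inl rfl)
      rw [Nat.le_zero, card_eq_zero, filter_eq_empty_iff]
      intro τ _
      exact hF hact τ
    | true =>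
      obtain ⟨h3, τ, h4⟩ := hT hact
      exact hsum U c 1 hld hm h3 (Or.inr ⟨rfl, τ, h4 ▸ (hB hact).2⟩)
  rw [hL] at key
  set L : ℝ := (P.actSet.card : ℝ) with hLdef
  set u : ℝ := (Fintype.card U : ℝ) with hu
  have hu0 : 0 ≤ u := by positivity
  have hb : (11 / (((2 * w : ℕ) : ℝ) + 1) + 2 / w : ℝ) ≤ 8 / w := by
    have : (11 / (((2 * w : ℕ) : ℝ) + 1) : ℝ) ≤ 6 / w := by
      rw [div_le_div_iff₀ (by positivity) hw']
      push_cast
      nlinarith
    have e : (8 / w : ℝ) = 6 / w + 2 / w := by ring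
    linarith
  have huw : u * w ≤ 8 * L := by
    have : u ≤ 8 / w * L := hcard.trans (mul_le_mul_of_nonneg_right hb hpos.le)
    calc u * w ≤ 8 / w * L * w := mul_le_mul_of_nonneg_right this hw'.le
      _ = 8 * L := by field_simp
  have hC₃ : 0 ≤ C₃ := by
    by_contra hneg
    have : C₃ * w < 0 := mul_neg_of_neg_of_pos (not_le.mp hneg) hw'
    linarith
  have a1 : Λ * u ≤ 8 * C₃ * L := by
    calc Λ * u ≤ C₃ * w * u := mul_le_mul_of_nonneg_right hΛw hu0
      _ = C₃ * (u * w) := by ring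
      _ ≤ C₃ * (8 * L) := mul_le_mul_of_nonneg_left huw hC₃
      _ = 8 * C₃ * L := by ring
  have a2 : ε * (Λ * u + C * L) ≤ η / 4 * L := by
    calc ε * (Λ * u + C * L) ≤ ε * (8 * C₃ * L + C * L) :=
          mul_le_mul_of_nonneg_left (by linarith) hε.le
      _ = ε * (8 * C₃ + C) * L := by ring
      _ ≤ η / 4 * L := mul_le_mul_of_nonneg_right h1 hpos.le
  have a3 : K * u ≤ η / 4 * L := by
    have : 8 * (K * u) ≤ 8 * (η / 4 * L) := by
      calc 8 * (K * u) = 8 * K * u := by ring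
        _ ≤ η / 4 * w * u := mul_le_mul_of_nonneg_right h2 hu0
        _ = η / 4 * (u * w) := by ring
        _ ≤ η / 4 * (8 * L) := mul_le_mul_of_nonneg_left huw (by positivity)
        _ = 8 * (η / 4 * L) := by ring
    linarith
  have : 0 < η * L := mul_pos hη hpos
  linarith

theorem asph_of {Y V : Type} [DecidableEq Y] [Nonempty Y] [Nonempty V]
    {E : V → Y × Bool → V → Prop} (hE : Folded E) {roots : Set V} (h : NoPic E roots) :
    ∀ c, Der E 1 c → AEq E c 0 := by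
  intro c hc
  obtain ⟨P, hP, ho, hfree, haeq⟩ := pic_of_der hE hc
  rw [FreeGroup.norm_one, Nat.le_zero, card_eq_zero] at hfree
  have hall : ∀ x, x ≠ P.o → P.act x = true := by
    intro x hx
    by_contra hn
    have : x ∈ P.freeSet := by
      simp only [Pic.freeSet, mem_filter, mem_univ, true_and]
      exact ⟨hx, by simpa using hn⟩
    rw [hfree] at this
    simp at this
  have hemp : P.actSet = ∅ := by
    by_contra hne
    exact h P hP hall (nonempty_iff_ne_empty.mpr hne) (fun h' => by rw [ho] at h'; cases h')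
  intro A _ Φ hΦ
  have := haeq A Φ hΦ
  rw [← this]
  simp [Pic.actMS, hemp]

theorem inj_of {Y V : Type} {E : V → Y × Bool → V → Prop} (hE : Folded E) {roots : Set V}
    (h : NoPic E roots) (z₀ : V) (hz₀ : z₀ ∈ roots) (l : List ((Y × Bool) × V)) (z : V)
    (hl : IsWalk E z₀ l z) (h1 : pr E (FreeGroup.mk (l.map Prod.fst)) = 1) : z = z₀ := by
  by_contra hz
  obtain ⟨P, hP, hall, ht, hs⟩ := pic_of_walk hE hl hz h1
  have hne : P.sV P.o ≠ P.tV P.o := by rw [ht, hs]; exact hz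
  refine h P hP (fun x _ => hall x) ?_ (fun _ => ⟨hne, ht ▸ hz₀⟩)
  refine ⟨P.φ P.o, ?_⟩
  simp only [Pic.actSet, mem_filter, mem_univ, true_and]
  refine ⟨fun e => hne ?_, hall _⟩
  have := P.sV_φ P.o (hall _)
  rwa [e] at this

theorem exists_w (η K : ℝ) (hη : 0 < η) (hK : 0 ≤ K) (m : ℕ) :
    ∃ w : ℕ, 0 < w ∧ m ≤ w ∧ 8 * (K * (1 + Real.log (w + 1))) ≤ η / 4 * w := by
  set a : ℝ := η / (128 * (K + 1)) with ha
  have ha0 : 0 < a := by positivity
  obtain ⟨w, hw⟩ := exists_nat_ge (64 * K * |Real.log a| / η + m + 1)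
  have h0 : 0 ≤ 64 * K * |Real.log a| / η := by positivity
  have hm0 : (0 : ℝ) ≤ m := by positivity
  have hw1 : (1 : ℝ) ≤ w := by linarith
  refine ⟨w, by exact_mod_cast (show (0 : ℝ) < w by linarith),
    by exact_mod_cast (show (m : ℝ) ≤ w by linarith), ?_⟩
  have h1 : 1 + Real.log (w + 1) ≤ 2 * a * w + |Real.log a| := by
    have h2 := Real.log_le_sub_one_of_pos (show 0 < a * (w + 1) by positivity)
    rw [Real.log_mul ha0.ne' (by positivity)] at h2
    have h3 := neg_abs_le (Real.log a)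
    nlinarith
  have h4 : 64 * K * |Real.log a| ≤ η * w := by
    have : 64 * K * |Real.log a| / η ≤ w := by linarith
    rwa [div_le_iff₀ hη, mul_comm (w : ℝ)] at this
  have h5 : 128 * K * a ≤ η := by
    rw [ha, mul_div_assoc', div_le_iff₀ (by positivity)]
    nlinarith
  have h6 : K * (1 + Real.log (w + 1)) ≤ K * (2 * a * w + |Real.log a|) :=
    mul_le_mul_of_nonneg_left h1 hK
  have h7 : 128 * K * a * w ≤ η * w := mul_le_mul_of_nonneg_right h5 (by linarith)
  nlinarith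

theorem log_card_le (c₀ A k m w : ℕ) (hw : 0 < w) (hm : m ≤ w) :
    Real.log ((c₀ * (A * (1 + 4 * (k + 1) ^ (2 * w + 2) + 2 * (m * w))) : ℕ) : ℝ) ≤
      (7 * c₀ * A + 4 * k + 2 : ℝ) * w := by
  have hw1 : (1 : ℝ) ≤ w := by exact_mod_cast hw
  have hm' : (m : ℝ) ≤ w := by exact_mod_cast hm
  set X : ℝ := Real.exp ((4 * k + 2) * w) with hX
  have hX1 : 1 ≤ X := Real.one_le_exp (by positivity)
  have hX2 : ((k : ℝ) + 1) ^ (2 * w + 2) ≤ X := by
    calc ((k : ℝ) + 1) ^ (2 * w + 2) ≤ (Real.exp k) ^ (2 * w + 2) :=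
          pow_le_pow_left₀ (by positivity) (Real.add_one_le_exp _) _
      _ = Real.exp (((2 * w + 2 : ℕ) : ℝ) * k) := (Real.exp_nat_mul _ _).symm
      _ ≤ X := by
          refine Real.exp_le_exp.mpr ?_
          push_cast
          have : (0 : ℝ) ≤ k := by positivity
          nlinarith
  have hX3 : (m : ℝ) * w ≤ X := by
    have h1 : (w : ℝ) ≤ Real.exp w := by linarith [Real.add_one_le_exp (w : ℝ)]
    calc (m : ℝ) * w ≤ w * w := mul_le_mul_of_nonneg_right hm' (by linarith)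
      _ ≤ Real.exp w * Real.exp w := mul_le_mul h1 h1 (by linarith) (by positivity)
      _ = Real.exp (w + w) := (Real.exp_add _ _).symm
      _ ≤ X := by
          refine Real.exp_le_exp.mpr ?_
          have : (0 : ℝ) ≤ k := by positivity
          nlinarith
  have hY : (7 * c₀ * A : ℝ) ≤ Real.exp (7 * c₀ * A * w) := by
    have h1 := Real.add_one_le_exp (7 * c₀ * A * w : ℝ)
    have h2 : (0 : ℝ) ≤ 7 * c₀ * A := by positivity
    nlinarith
  have hle : ((c₀ * (A * (1 + 4 * (k + 1) ^ (2 * w + 2) + 2 * (m * w))) : ℕ) : ℝ) ≤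
      Real.exp ((7 * c₀ * A + 4 * k + 2 : ℝ) * w) := by
    push_cast
    calc (c₀ : ℝ) * (A * (1 + 4 * (k + 1) ^ (2 * w + 2) + 2 * (m * w))) ≤ c₀ * (A * (7 * X)) := by
          gcongr
          linarith
      _ = 7 * c₀ * A * X := by ring
      _ ≤ Real.exp (7 * c₀ * A * w) * X := mul_le_mul_of_nonneg_right hY (by linarith)
      _ = _ := by rw [hX, ← Real.exp_add]; congr 1; ring
  rcases Nat.eq_zero_or_pos (c₀ * (A * (1 + 4 * (k + 1) ^ (2 * w + 2) + 2 * (m * w)))) with h | h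
  · rw [h]; simp only [Nat.cast_zero, Real.log_zero]; positivity
  · exact (Real.log_le_iff_le_exp (by exact_mod_cast h)).mpr hle

theorem exists_good : ∃ (Y V : Type) (_ : Fintype Y) (_ : DecidableEq Y) (_ : Nonempty Y)
    (_ : Fintype V) (part : V → Bool) (L : V → Finset (Y × Bool)) (g : ℕ)
    (E : V → Y × Bool → V → Prop) (x₀ y₀ : V), Good part L g E ∧
      (∀ v v', part v = true → part v' = false → Odd (L v ∩ L v').card) ∧
      part x₀ = true ∧ part y₀ = false ∧ NoPic E {x₀, y₀} := by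
  obtain ⟨k, n₀, c₀, ψ, B, η, hη, hn₀, hA, hB, hBs, hker, hV⟩ :=
    Design.aux (R := Fin 32895) (R₁ := Fin 257) (R₂ := Fin 130815) (Fintype.card_fin _)
      (Fintype.card_fin _) (Fintype.card_fin _)
  obtain ⟨C, hC, hlep⟩ := exists_lep ψ B η (c₀ * Real.exp η) hη hA hB hBs hker
  have hδ : 0 < 1 - Real.exp (-η) := by
    have : Real.exp (-η) < 1 := Real.exp_lt_one_iff.mpr (by linarith)
    linarith
  obtain ⟨A, hAδ⟩ := exists_nat_ge (1 / (1 - Real.exp (-η)))
  rw [div_le_iff₀ hδ] at hAδ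
  set C₃ : ℝ := 7 * c₀ * A + 4 * k + 2 with hC₃
  have hC₃0 : 0 < C₃ := by positivity
  set ε : ℝ := η / (4 * (8 * C₃ + C)) with hε
  have hε0 : 0 < ε := by positivity
  obtain ⟨m, hsum⟩ := cluster_sum ε hε0
  obtain ⟨K, hK, hlep⟩ := hlep m
  obtain ⟨w, hw, hmw, hKw⟩ := exists_w η K hη hK m
  set M : ℕ := 1 + 4 * (k + 1) ^ (2 * w + 2) + 2 * (m * w) with hM
  obtain ⟨V, _, _, part, L, hcard, hk, hcl, hpair, hodd⟩ := hV (A * M)
  have hM0 : (1 : ℝ) ≤ M := by exact_mod_cast (show 1 ≤ M by omega)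
  have hA0 : 0 < A := by
    rcases Nat.eq_zero_or_pos A with h | h
    · rw [h] at hAδ; norm_num at hAδ
    · exact h
  have hn₀' : (1 : ℝ) ≤ n₀ := by exact_mod_cast hn₀
  set n : ℕ := n₀ * (A * M) with hn
  have hnpos : 0 < n := by positivity
  have hnR : (n : ℝ) = n₀ * (A * M) := by rw [hn]; push_cast; ring
  set n' : ℕ := ⌈Real.exp (-η) * n⌉₊ with hn'
  have hx0 : 0 < Real.exp (-η) * n := by positivity
  have hn'1 : Real.exp (-η) * n ≤ n' := Nat.le_ceil _
  have hn'2 : (n' : ℝ) < Real.exp (-η) * n + 1 := Nat.ceil_lt_add_one hx0.le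
  have hn'0 : 0 < n' := by exact_mod_cast (show (0 : ℝ) < n' by linarith)
  have hroom : n' + 4 * (k + 1) ^ (2 * w + 2) + 2 * (m * w) < n := by
    have h1 : (M : ℝ) ≤ (1 - Real.exp (-η)) * n := by
      rw [hnR]
      calc (M : ℝ) = 1 * (1 * M) := by ring
        _ ≤ n₀ * ((A * (1 - Real.exp (-η))) * M) := by gcongr
        _ = _ := by ring
    have h2 : (M : ℝ) = 1 + ((4 * (k + 1) ^ (2 * w + 2) + 2 * (m * w) : ℕ) : ℝ) := by
      rw [hM]; push_cast; ring
    have h3 : (n' : ℝ) + ((4 * (k + 1) ^ (2 * w + 2) + 2 * (m * w) : ℕ) : ℝ) < n := by linarith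
    have h4 : n' + (4 * (k + 1) ^ (2 * w + 2) + 2 * (m * w)) < n := by exact_mod_cast h3
    omega
  obtain ⟨Ω, _, _, E, hgood, hext⟩ :=
    exists_ensemble part L k n (2 * w) (m * w) n' hk hcl hroom
  have hex : ∀ b, ∃ v, part v = b := by
    intro b
    have h1 := hcl b (Sum.inl 0, true)
    obtain ⟨v, hv⟩ := card_pos.mp (h1 ▸ hnpos)
    exact ⟨v, (mem_filter.mp hv).2.1⟩
  obtain ⟨x₀, hx₀⟩ := hex true
  obtain ⟨y₀, hy₀⟩ := hex false
  have hVc : (Fintype.card V : ℝ) ≤ c₀ * Real.exp η * n' := by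
    rw [hcard]
    have h1 : Real.exp η * Real.exp (-η) = 1 := by rw [← Real.exp_add]; simp
    calc ((c₀ * (A * M) : ℕ) : ℝ) = c₀ * (1 * (A * M)) := by push_cast; ring
      _ ≤ c₀ * (n₀ * (A * M)) := by gcongr
      _ = c₀ * (Real.exp η * Real.exp (-η) * n) := by rw [h1, hnR]; ring
      _ = c₀ * Real.exp η * (Real.exp (-η) * n) := by ring
      _ ≤ c₀ * Real.exp η * n' := by gcongr
  have hcount : ∀ b u t, u ≠ t →
      ((univ.filter fun v => part v = b ∧ u ∈ L v ∧ t ∈ L v).card : ℝ) ≤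
        Real.exp (-(B u t + ψ u + ψ t + η)) * n' := by
    intro b u t hut
    refine (hpair b u t hut).trans ?_
    calc Real.exp (-(B u t + ψ u + ψ t + 2 * η)) * (n₀ * ((A * M : ℕ) : ℝ))
        = Real.exp (-(B u t + ψ u + ψ t + η)) * (Real.exp (-η) * n) := by
          rw [← mul_assoc (Real.exp _) (Real.exp _), ← Real.exp_add, hnR]
          push_cast
          congr 2
          ring
      _ ≤ _ := by gcongr
  obtain ⟨ω, hω⟩ := hlep V Ω part L (2 * w) w n' {x₀, y₀} E le_rfl hn'0 card_le_two hVc hcount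
    hgood hext
  refine ⟨_, V, inferInstance, inferInstance, ⟨Sum.inl 0⟩, inferInstance, part, L, 2 * w, E ω,
    x₀, y₀, hgood ω, hodd, hx₀, hy₀, ?_⟩
  have hΛ : 0 ≤ Real.log (Fintype.card V) := Real.log_natCast_nonneg _
  have hK' : 0 ≤ K * (1 + Real.log (w + 1)) := by
    have : 0 ≤ Real.log (w + 1) := Real.log_nonneg (by linarith [Nat.cast_nonneg (α := ℝ) w])
    positivity
  rw [coe_pair] at hω
  refine noPic_of (hgood ω).folded _ w hw (hgood ω).girth.cgirth η ε C _ _ C₃ hη hε0 hΛ ?_ ?_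
    hKw (fun U _ _ => hsum _ V (E ω) _ w η C _ _ hC hΛ hK' hω U)
  · rw [hcard]
    exact log_card_le c₀ A k m w hw hmw
  · rw [hε]
    have : 0 < 8 * C₃ + C := by positivity
    apply le_of_eq
    field_simp

theorem main : ∃ (G : Type) (_ : Group G), (∀ g : G, IsOfFinOrder g → g = 1) ∧
    ∃ α β : MonoidAlgebra (ZMod 2) G, α ≠ 0 ∧ β ≠ 0 ∧ α * β = 0 := by
  obtain ⟨Y, V, _, _, _, _, part, L, g, E, x₀, y₀, hE, hodd, hx, hy, hno⟩ := exists_good
  have : Nonempty V := ⟨x₀⟩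
  refine ⟨Grp E, inferInstance, ?_, ?_⟩
  · intro t ht
    obtain ⟨n, hn, htn⟩ := isOfFinOrder_iff_pow_eq_one.mp ht
    exact torsion_free hE.folded (asph_of hE.folded hno) t n hn htn
  · refine zero_div part L g hE hodd x₀ y₀ hx hy ?_
    intro z₀ hz₀ l z hl h1
    exact inj_of hE.folded hno z₀ hz₀ l z hl h1

end Vale.Agent.P201
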