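import Vale.Agent.P201.Levels

/-! Basic facts on shapes: first occurrences, ranks, regular vertices. -/

namespace Vale.Agent.P201.ShB

open Finset Vale.Agent.GP

variable {m : ℕ} {Z Y : Type} {S : Sh m Z} {lab : Fin m × ℕ → Y × Bool}
  {nxt : Fin m → Option (Fin m)} {K : ℕ}

theorem lt_of_mem_X {x : Fin m × ℕ} (hx : x ∈ S.X) : x.2 < S.len x.1 := (mem_filter.1 hx).2

theorem lt_w_of_mem_X {x : Fin m × ℕ} (hx : x ∈ S.X) : x.2 < S.w :=
  mem_range.1 (mem_product.1 (mem_filter.1 hx).1).2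

theorem mem_X (h : S.OK lab nxt K) {x : Fin m × ℕ} : x ∈ S.X ↔ x.2 < S.len x.1 :=
  ⟨lt_of_mem_X, fun hx => mem_filter.2
    ⟨mem_product.2 ⟨mem_univ _, mem_range.2 (hx.trans_le (h.len_le _))⟩, hx⟩⟩

theorem mem_occ {x y : Fin m × ℕ} : y ∈ S.occ x ↔ y ∈ S.X ∧ S.ed y = S.ed x := by
  unfold Sh.occ
  simp only [mem_filter]

theorem idx_inj {x y : Fin m × ℕ} (hx : x ∈ S.X) (hy : y ∈ S.X) (e : S.idx x = S.idx y) :
    x = y := by
  have h1 := lt_w_of_mem_X hx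
  have h2 := lt_w_of_mem_X hy
  unfold Sh.idx at e
  have hw : 0 < S.w := by omega
  have e1 : (x.1.val * S.w + x.2) / S.w = x.1.val := by
    rw [add_comm, Nat.add_mul_div_right _ _ hw, Nat.div_eq_of_lt h1, zero_add]
  have e2 : (y.1.val * S.w + y.2) / S.w = y.1.val := by
    rw [add_comm, Nat.add_mul_div_right _ _ hw, Nat.div_eq_of_lt h2, zero_add]
  have e3 : x.1.val = y.1.val := by rw [← e1, e, e2]
  rw [e3] at e
  exact Prod.ext (Fin.ext e3) (by omega)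

theorem idx_lt {x : Fin m × ℕ} (hx : x ∈ S.X) : S.idx x < m * S.w := by
  have h1 := lt_w_of_mem_X hx
  have h2 : (x.1.val + 1) * S.w ≤ m * S.w := Nat.mul_le_mul_right _ x.1.2
  unfold Sh.idx
  nlinarith

theorem occ_congr {x y : Fin m × ℕ} (e : S.ed x = S.ed y) : S.occ x = S.occ y := by
  ext u
  rw [mem_occ, mem_occ, e]

theorem mult_congr {x y : Fin m × ℕ} (e : S.ed x = S.ed y) : S.mult x = S.mult y := by
  unfold Sh.mult; rw [occ_congr e]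

theorem fidx_congr {x y : Fin m × ℕ} (e : S.ed x = S.ed y) : S.fidx x = S.fidx y := by
  unfold Sh.fidx; rw [occ_congr e]

theorem rk_congr {x y : Fin m × ℕ} (e : S.ed x = S.ed y) : S.rk x = S.rk y := by
  unfold Sh.rk; rw [mult_congr e, fidx_congr e]

theorem free_congr {x y : Fin m × ℕ} (e : S.ed x = S.ed y) : S.Free x ↔ S.Free y := by
  unfold Sh.Free; rw [occ_congr e, rk_congr e]

theorem fidx_le {x y : Fin m × ℕ} (hy : y ∈ S.X) (e : S.ed y = S.ed x) : S.fidx x ≤ S.idx y :=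
  Nat.sInf_le ⟨y, mem_occ.2 ⟨hy, e⟩, rfl⟩

theorem exists_fidx {x : Fin m × ℕ} (hx : x ∈ S.X) :
    ∃ y ∈ S.X, S.ed y = S.ed x ∧ S.idx y = S.fidx x := by
  have : S.fidx x ∈ {n | ∃ y ∈ S.occ x, S.idx y = n} :=
    Nat.sInf_mem ⟨S.idx x, x, mem_occ.2 ⟨hx, rfl⟩, rfl⟩
  obtain ⟨y, hy, e⟩ := this
  exact ⟨y, (mem_occ.1 hy).1, (mem_occ.1 hy).2, e⟩

theorem mem_J {x : Fin m × ℕ} : x ∈ S.J ↔ x ∈ S.X ∧ S.idx x = S.fidx x := by
  unfold Sh.J
  simp only [mem_filter]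

theorem mem_J' {x : Fin m × ℕ} :
    x ∈ S.J ↔ x ∈ S.X ∧ ∀ y ∈ S.X, S.ed y = S.ed x → S.idx x ≤ S.idx y := by
  rw [mem_J]
  refine and_congr_right fun hx => ⟨fun e y hy e' => e ▸ fidx_le hy e', fun H => ?_⟩
  obtain ⟨y, hy, e1, e2⟩ := exists_fidx hx
  exact le_antisymm (e2 ▸ H y hy e1) (fidx_le hx rfl)

theorem J_sub {x : Fin m × ℕ} (hx : x ∈ S.J) : x ∈ S.X := (mem_J.1 hx).1

theorem J_unique {x y : Fin m × ℕ} (hx : x ∈ S.J) (hy : y ∈ S.J) (e : S.ed x = S.ed y) :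
    x = y :=
  idx_inj (J_sub hx) (J_sub hy) (by rw [(mem_J.1 hx).2, (mem_J.1 hy).2, fidx_congr e])

theorem exists_rep {x : Fin m × ℕ} (hx : x ∈ S.X) : ∃ r, r ∈ S.J ∧ S.ed r = S.ed x := by
  obtain ⟨y, hy, e1, e2⟩ := exists_fidx hx
  exact ⟨y, mem_J.2 ⟨hy, by rw [e2, fidx_congr e1]⟩, e1⟩

open Classical in
/-- The first occurrence of the edge of `x`. -/
noncomputable def rep (S : Sh m Z) (x : Fin m × ℕ) : Fin m × ℕ :=
  if h : ∃ r, r ∈ S.J ∧ S.ed r = S.ed x then h.choose else x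

theorem rep_mem {x : Fin m × ℕ} (hx : x ∈ S.X) : rep S x ∈ S.J := by
  unfold rep
  rw [dif_pos (exists_rep hx)]
  exact (exists_rep hx).choose_spec.1

theorem rep_ed {x : Fin m × ℕ} (hx : x ∈ S.X) : S.ed (rep S x) = S.ed x := by
  unfold rep
  rw [dif_pos (exists_rep hx)]
  exact (exists_rep hx).choose_spec.2

theorem rep_eq_iff {x y : Fin m × ℕ} (hx : x ∈ S.J) (hy : y ∈ S.X) :
    rep S y = x ↔ S.ed y = S.ed x :=
  ⟨fun e => by rw [← e, rep_ed hy], fun e => J_unique (rep_mem hy) hx ((rep_ed hy).trans e)⟩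

theorem rep_of_J {x : Fin m × ℕ} (hx : x ∈ S.J) : rep S x = x := (rep_eq_iff hx (J_sub hx)).2 rfl

theorem ed_eq_iff {x y : Fin m × ℕ} : S.ed x = S.ed y ↔
    (S.src x = S.src y ∧ S.tgt x = S.tgt y) ∨ (S.src x = S.tgt y ∧ S.tgt x = S.src y) := by
  unfold Sh.ed
  exact Sym2.eq_iff

theorem fidx_lt {x : Fin m × ℕ} (hx : x ∈ S.X) : S.fidx x < m * S.w :=
  (fidx_le hx rfl).trans_lt (idx_lt hx)

theorem ed_eq_of_rk_eq {x y : Fin m × ℕ} (hx : x ∈ S.X) (hy : y ∈ S.X) (e : S.rk x = S.rk y) :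
    S.ed x = S.ed y := by
  have h1 := fidx_lt hx
  have h2 := fidx_lt hy
  have e1 : S.fidx x = S.fidx y := by
    have := congrArg (· % (m * S.w)) e
    simp only [Sh.rk, add_comm _ (S.fidx _), Nat.add_mul_mod_self_right] at this
    rwa [Nat.mod_eq_of_lt h1, Nat.mod_eq_of_lt h2] at this
  obtain ⟨u, hu, e2, e3⟩ := exists_fidx hx
  obtain ⟨u', hu', e2', e3'⟩ := exists_fidx hy
  have : u = u' := idx_inj hu hu' (by rw [e3, e3', e1])
  rw [← e2, this, e2']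

theorem src_ne_tgt (h : S.OK lab nxt K) {x : Fin m × ℕ} (hx : x ∈ S.X) : S.src x ≠ S.tgt x := by
  intro e
  have := lt_of_mem_X hx
  have := h.inj x.1 x.2 (x.2 + 1) (by omega) (by omega) e
  omega

theorem src_inj (h : S.OK lab nxt K) {x y : Fin m × ℕ} (hx : x ∈ S.X) (hy : y ∈ S.X)
    (e1 : x.1 = y.1) (e : S.src x = S.src y) : x = y := by
  have h1 := lt_of_mem_X hx
  have h2 := lt_of_mem_X hy
  unfold Sh.src at e
  rw [← e1] at e h2
  exact Prod.ext e1 (h.inj x.1 _ _ h1.le h2.le e)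

theorem tgt_inj (h : S.OK lab nxt K) {x y : Fin m × ℕ} (hx : x ∈ S.X) (hy : y ∈ S.X)
    (e1 : x.1 = y.1) (e : S.tgt x = S.tgt y) : x = y := by
  have h1 := lt_of_mem_X hx
  have h2 := lt_of_mem_X hy
  unfold Sh.tgt at e
  rw [← e1] at e h2
  have := h.inj x.1 _ _ h1 h2 e
  exact Prod.ext e1 (by omega)

theorem ed_inj (h : S.OK lab nxt K) {x y : Fin m × ℕ} (hx : x ∈ S.X) (hy : y ∈ S.X)
    (e1 : x.1 = y.1) (e : S.ed x = S.ed y) : x = y := by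
  rcases ed_eq_iff.1 e with ⟨e2, -⟩ | ⟨e2, e3⟩
  · exact src_inj h hx hy e1 e2
  · exfalso
    have h1 := lt_of_mem_X hx
    have h2 := lt_of_mem_X hy
    unfold Sh.src Sh.tgt at e2 e3
    rw [← e1] at e2 e3 h2
    have := h.inj x.1 _ _ h1.le h2 e2
    have := h.inj x.1 _ _ h1 h2.le e3
    omega

theorem card_le_of_fst_inj {s : Finset (Fin m × ℕ)}
    (hs : ∀ x ∈ s, ∀ y ∈ s, x.1 = y.1 → x = y) : s.card ≤ m := by
  have := card_le_card_of_injOn (s := s) (t := (univ : Finset (Fin m))) Prod.fst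
    (fun _ _ => mem_univ _) (fun x hx y hy e => hs x hx y hy e)
  simpa using this

theorem mult_le (h : S.OK lab nxt K) (x : Fin m × ℕ) : S.mult x ≤ m :=
  card_le_of_fst_inj fun y hy y' hy' e => ed_inj h (mem_occ.1 hy).1 (mem_occ.1 hy').1 e
    ((mem_occ.1 hy).2.trans (mem_occ.1 hy').2.symm)

theorem mult_pos {x : Fin m × ℕ} (hx : x ∈ S.X) : 1 ≤ S.mult x :=
  card_pos.2 ⟨x, mem_occ.2 ⟨hx, rfl⟩⟩

theorem mult_le_of_rk_lt (h : S.OK lab nxt K) {x y : Fin m × ℕ} (hx : x ∈ S.X)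
    (e : S.rk y < S.rk x) : S.mult x ≤ S.mult y := by
  by_contra hlt
  push Not at hlt
  have h1 := fidx_lt hx
  have h2 := mult_le h x
  have h3 : (m - S.mult x + 1) * (m * S.w) ≤ (m - S.mult y) * (m * S.w) :=
    Nat.mul_le_mul_right _ (by omega)
  unfold Sh.rk at e
  nlinarith

theorem lab_of_ed (h : S.OK lab nxt K) {x y : Fin m × ℕ} (hx : x ∈ S.X) (hy : y ∈ S.X)
    (e : S.ed x = S.ed y) : lab x = lab y ∨ lab x = sg (lab y) := by
  rcases ed_eq_iff.1 e with ⟨e1, e2⟩ | ⟨e1, e2⟩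
  · exact Or.inl (h.lab_same x hx y hy e1 e2)
  · exact Or.inr (h.lab_opp x hx y hy e1 e2)

/-! ### Regular vertices -/

/-- The next position in the same unit. -/
def nx (x : Fin m × ℕ) : Fin m × ℕ := (x.1, x.2 + 1)

theorem pred_nx (x : Fin m × ℕ) : Sh.pred (nx x) = x := by simp [Sh.pred, nx]

theorem src_nx (x : Fin m × ℕ) : S.src (nx x) = S.tgt x := rfl

theorem reg_pos {y : Fin m × ℕ} (hy : y ∈ S.X) (hv : S.Reg (S.src y)) : 0 < y.2 :=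
  (hv y.1 y.2 (lt_of_mem_X hy).le rfl).1

theorem pred_mem (h : S.OK lab nxt K) {y : Fin m × ℕ} (hy : y ∈ S.X) : Sh.pred y ∈ S.X := by
  have := lt_of_mem_X hy
  exact (mem_X h).2 (by simp only [Sh.pred]; omega)

theorem nx_pred {y : Fin m × ℕ} (h0 : 0 < y.2) : nx (Sh.pred y) = y := by
  simp only [Sh.pred, nx]
  exact Prod.ext rfl (by simp; omega)

theorem tgt_pred {y : Fin m × ℕ} (h0 : 0 < y.2) : S.tgt (Sh.pred y) = S.src y := by
  rw [← src_nx, nx_pred h0]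

theorem idx_pred {y : Fin m × ℕ} (h0 : 0 < y.2) : S.idx (Sh.pred y) + 1 = S.idx y := by
  simp only [Sh.idx, Sh.pred]; omega

theorem nx_mem (h : S.OK lab nxt K) {y : Fin m × ℕ} (hy : y ∈ S.X) (hv : S.Reg (S.tgt y)) :
    nx y ∈ S.X :=
  (mem_X h).2 (hv y.1 (y.2 + 1) (lt_of_mem_X hy) rfl).2.1

theorem ed_ne_pred (h : S.OK lab nxt K) {y : Fin m × ℕ} (hy : y ∈ S.X) (h0 : 0 < y.2) :
    S.ed (Sh.pred y) ≠ S.ed y := by
  intro e
  have := ed_inj h (pred_mem h hy) hy rfl e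
  have := congrArg Prod.snd this
  simp only [Sh.pred] at this
  omega

theorem reg_cases {y y' : Fin m × ℕ} (hy : y ∈ S.X) (hy' : y' ∈ S.X) (hv : S.Reg (S.src y))
    (e : S.src y' = S.src y) :
    (S.src (Sh.pred y) = S.src (Sh.pred y') ∧ S.tgt y = S.tgt y') ∨
    (S.src (Sh.pred y) = S.tgt y' ∧ S.tgt y = S.src (Sh.pred y')) :=
  Sym2.eq_iff.1 ((hv y.1 y.2 (lt_of_mem_X hy).le rfl).2.2 y'.1 y'.2 (lt_of_mem_X hy').le e)

theorem reg_ed {y y' : Fin m × ℕ} (hy : y ∈ S.X) (hy' : y' ∈ S.X) (hv : S.Reg (S.src y))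
    (e : S.src y' = S.src y) :
    (S.ed y = S.ed y' ∧ S.ed (Sh.pred y) = S.ed (Sh.pred y')) ∨
    (S.ed y = S.ed (Sh.pred y') ∧ S.ed (Sh.pred y) = S.ed y') := by
  have h0 := reg_pos hy hv
  have h0' := reg_pos hy' (e ▸ hv)
  rcases reg_cases hy hy' hv e with ⟨e1, e2⟩ | ⟨e1, e2⟩
  · exact Or.inl ⟨ed_eq_iff.2 (Or.inl ⟨e.symm, e2⟩),
      ed_eq_iff.2 (Or.inl ⟨e1, by rw [tgt_pred h0, tgt_pred h0', e]⟩)⟩
  · exact Or.inr ⟨ed_eq_iff.2 (Or.inr ⟨by rw [tgt_pred h0', e], e2⟩),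
      ed_eq_iff.2 (Or.inr ⟨e1, by rw [tgt_pred h0, e]⟩)⟩

theorem reg_lab (h : S.OK lab nxt K) {y y' : Fin m × ℕ} (hy : y ∈ S.X) (hy' : y' ∈ S.X)
    (hv : S.Reg (S.src y)) (e : S.src y' = S.src y) :
    (lab y = lab y' ∧ sg (lab (Sh.pred y)) = sg (lab (Sh.pred y'))) ∨
    (lab y = sg (lab (Sh.pred y')) ∧ sg (lab (Sh.pred y)) = lab y') := by
  have h0 := reg_pos hy hv
  have h0' := reg_pos hy' (e ▸ hv)
  rcases reg_cases hy hy' hv e with ⟨e1, e2⟩ | ⟨e1, e2⟩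
  · refine Or.inl ⟨h.lab_same _ hy _ hy' e.symm e2, ?_⟩
    rw [h.lab_same _ (pred_mem h hy) _ (pred_mem h hy') e1 (by rw [tgt_pred h0, tgt_pred h0', e])]
  · refine Or.inr ⟨h.lab_opp _ hy _ (pred_mem h hy') (by rw [tgt_pred h0', e]) e2, ?_⟩
    rw [h.lab_opp _ (pred_mem h hy) _ hy' e1 (by rw [tgt_pred h0, e]), sg_sg]

open Classical in
theorem reg_mult (h : S.OK lab nxt K) {x : Fin m × ℕ} (hx : x ∈ S.X) {v : Z} (hv : S.Reg v)
    (e : S.src x = v ∨ S.tgt x = v) : S.mult x = (S.X.filter fun y => S.src y = v).card := by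
  have visit : ∀ u ∈ S.X, (S.src u = v ∨ S.tgt u = v) → ∃ y ∈ S.X, S.src y = v ∧ y.1 = u.1 ∧
      (S.ed u = S.ed y ∨ S.ed u = S.ed (Sh.pred y)) := by
    intro u hu e
    rcases e with e | e
    · exact ⟨u, hu, e, rfl, Or.inl rfl⟩
    · exact ⟨nx u, nx_mem h hu (e ▸ hv), e, rfl, Or.inr (by rw [pred_nx])⟩
  have h1 : (S.occ x).image Prod.fst = (S.X.filter fun y => S.src y = v).image Prod.fst := by
    ext τ
    simp only [mem_image, mem_occ, mem_filter]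
    constructor
    · rintro ⟨u, ⟨hu, e1⟩, rfl⟩
      have : S.src u = v ∨ S.tgt u = v := by
        rcases ed_eq_iff.1 e1 with ⟨e2, e3⟩ | ⟨e2, e3⟩ <;> rw [e2, e3] <;> tauto
      obtain ⟨y, hy, e2, e3, -⟩ := visit u hu this
      exact ⟨y, ⟨hy, e2⟩, e3⟩
    · rintro ⟨y', ⟨hy', e1⟩, rfl⟩
      obtain ⟨y, hy, e2, -, e4⟩ := visit x hx e
      have := reg_ed hy hy' (e2 ▸ hv) (e1.trans e2.symm)
      rcases e4 with e4 | e4 <;> rcases this with ⟨e5, e6⟩ | ⟨e5, e6⟩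
      · exact ⟨y', ⟨hy', by rw [e4, e5]⟩, rfl⟩
      · exact ⟨Sh.pred y', ⟨pred_mem h hy', by rw [e4, e5]⟩, rfl⟩
      · exact ⟨Sh.pred y', ⟨pred_mem h hy', by rw [e4, e6]⟩, rfl⟩
      · exact ⟨y', ⟨hy', by rw [e4, e6]⟩, rfl⟩
  unfold Sh.mult
  rw [← card_image_of_injOn (f := Prod.fst) (s := S.occ x), h1, card_image_of_injOn]
  · intro y hy y' hy' e'
    have hy := mem_filter.1 (mem_coe.1 hy)
    have hy' := mem_filter.1 (mem_coe.1 hy')
    exact src_inj h hy.1 hy'.1 e' (hy.2.trans hy'.2.symm)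
  · intro y hy y' hy' e'
    have hy := mem_occ.1 (mem_coe.1 hy)
    have hy' := mem_occ.1 (mem_coe.1 hy')
    exact ed_inj h hy.1 hy'.1 e' (hy.2.trans hy'.2.symm)

theorem mult_pred (h : S.OK lab nxt K) {x : Fin m × ℕ} (hx : x ∈ S.X) (hv : S.Reg (S.src x)) :
    S.mult (Sh.pred x) = S.mult x := by
  rw [reg_mult h hx hv (Or.inl rfl),
    reg_mult h (pred_mem h hx) hv (Or.inr (tgt_pred (reg_pos hx hv)))]

theorem rk_pred_lt (h : S.OK lab nxt K) {x : Fin m × ℕ} (hx : x ∈ S.J) (hv : S.Reg (S.src x)) :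
    S.rk (Sh.pred x) < S.rk x := by
  have h1 := fidx_le (x := Sh.pred x) (pred_mem h (J_sub hx)) rfl
  have h2 := idx_pred (S := S) (reg_pos (J_sub hx) hv)
  have h3 := (mem_J.1 hx).2
  unfold Sh.rk
  rw [mult_pred h (J_sub hx) hv]
  omega

theorem reg_exists_J (h : S.OK lab nxt K) {y : Fin m × ℕ} (hy : y ∈ S.X) (hv : S.Reg (S.src y)) :
    ∃ x ∈ S.J, S.src x = S.src y := by
  classical
  obtain ⟨y0, hy0, hmin⟩ := exists_min_image (S.X.filter fun u => S.src u = S.src y) S.idx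
    ⟨y, mem_filter.2 ⟨hy, rfl⟩⟩
  obtain ⟨h1, h2⟩ := mem_filter.1 hy0
  refine ⟨y0, mem_J'.2 ⟨h1, fun u hu e => ?_⟩, h2⟩
  rcases ed_eq_iff.1 e with ⟨e1, -⟩ | ⟨-, e1⟩
  · exact hmin u (mem_filter.2 ⟨hu, e1.trans h2⟩)
  · have hn := nx_mem h hu (by rw [e1, h2]; exact hv)
    have h3 := hmin (nx u) (mem_filter.2 ⟨hn, (src_nx u).trans (e1.trans h2)⟩)
    have h4 : S.idx (nx u) = S.idx u + 1 := by simp only [Sh.idx, nx]; omega
    by_contra hlt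
    have h5 : nx u = y0 := idx_inj hn h1 (by omega)
    refine ed_ne_pred h h1 (reg_pos h1 (h2 ▸ hv)) ?_
    rw [← h5, pred_nx, h5, e]

theorem reg_unique_J (h : S.OK lab nxt K) {x x' : Fin m × ℕ} (hx : x ∈ S.J) (hx' : x' ∈ S.J)
    (hv : S.Reg (S.src x)) (e : S.src x' = S.src x) : x = x' := by
  rcases reg_ed (J_sub hx) (J_sub hx') hv e with ⟨e1, -⟩ | ⟨e1, e2⟩
  · exact J_unique hx hx' e1
  · exfalso
    have h1 := (mem_J'.1 hx).2 _ (pred_mem h (J_sub hx')) e1.symm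
    have h2 := (mem_J'.1 hx').2 _ (pred_mem h (J_sub hx)) e2
    have h3 := idx_pred (S := S) (reg_pos (J_sub hx) hv)
    have h4 := idx_pred (S := S) (reg_pos (J_sub hx') (e ▸ hv))
    omega

/-! ### The matching -/

theorem mp_eq {x y : Fin m × ℕ} (e : S.mp x = some y) :
    S.mate x.1 = some y.1 ∧ y.2 = S.len x.1 - 1 - x.2 := by
  unfold Sh.mp at e
  cases hm : S.mate x.1 with
  | none => simp [hm] at e
  | some τ =>
    simp only [hm, Option.map_some, Option.some.injEq] at e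
    rw [← e]
    exact ⟨rfl, rfl⟩

theorem mp_of_mate {x : Fin m × ℕ} {τ : Fin m} (e : S.mate x.1 = some τ) :
    S.mp x = some (τ, S.len x.1 - 1 - x.2) := by
  simp [Sh.mp, e]

theorem mp_mem (h : S.OK lab nxt K) {x y : Fin m × ℕ} (e : S.mp x = some y) : y ∈ S.X := by
  obtain ⟨e1, e2⟩ := mp_eq e
  have := h.mate_len _ _ e1
  have := h.len_pos x.1
  exact (mem_X h).2 (by omega)

theorem mp_symm (h : S.OK lab nxt K) {x y : Fin m × ℕ} (hx : x ∈ S.X) (e : S.mp x = some y) :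
    S.mp y = some x := by
  obtain ⟨e1, e2⟩ := mp_eq e
  have := h.mate_len _ _ e1
  have := lt_of_mem_X hx
  rw [mp_of_mate (h.mate_symm _ _ e1)]
  congr 1
  exact Prod.ext rfl (by simp only; omega)

theorem rk_lt_of_free (h : S.OK lab nxt K) {x y y' : Fin m × ℕ} (hy : y ∈ S.X)
    (e : S.ed y = S.ed x) (hf : S.Free x) (e' : S.mp y = some y') : S.rk x < S.rk y' := by
  have h1 := hf y (mem_occ.2 ⟨hy, e⟩) y' e'
  have h2 : S.rk y' ≠ S.rk x := fun e2 =>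
    h.mate_ne y hy y' e' (ed_eq_of_rk_eq (mp_mem h e') hy (e2.trans (rk_congr e).symm))
  omega

end Vale.Agent.P201.ShB
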